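import Vale.Agent.P230.Defs

/-!
# P230: affine invariance
-/

open MeasureTheory
open scoped ENNReal NNReal BigOperators

namespace Vale.Agent.P230

theorem aff : S_AFF := by
  intro ι _ _ K B b c hB hK ⟨A, hA, hcov, hvol⟩
  refine ⟨B * A, by rw [Matrix.det_mul]; exact mul_ne_zero hB hA, fun x => ?_, ?_⟩
  · obtain ⟨z, hz⟩ := hcov (B⁻¹.mulVec (x - b))
    refine ⟨z, ?_⟩
    simp only [Set.mem_ofPred_eq] at hz
    convert hz using 1
    rw [Matrix.mulVec_sub, Matrix.mulVec_mulVec, Matrix.mulVec_mulVec,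
      Matrix.mul_nonsing_inv _ (isUnit_iff_ne_zero.2 hB), Matrix.one_mulVec]
    abel
  · have h1 : {x | B.mulVec x + b ∈ K} = (Matrix.toLin' B) ⁻¹' ((fun x => x + b) ⁻¹' K) := by
      ext x; simp
    have hdet : LinearMap.det (Matrix.toLin' B) ≠ 0 := by rwa [LinearMap.det_toLin']
    rw [h1, Measure.addHaar_preimage_linearMap _ hdet, measure_preimage_add_right,
      LinearMap.det_toLin', ENNReal.toReal_mul, ENNReal.toReal_ofReal (abs_nonneg _), abs_inv] at hvol
    rw [Matrix.det_mul, abs_mul]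
    have hpos : 0 < |B.det| := abs_pos.2 hB
    rw [inv_mul_le_iff₀ hpos] at hvol
    linarith

end Vale.Agent.P230
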