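import Vale.Agent.P230.Defs

/-!
# P230 assembly, part 1: from real trees to integer trees, counting lattice points, cubes
-/

open MeasureTheory Set
open scoped ENNReal NNReal BigOperators Pointwise

namespace Vale.Agent.P230

theorem TreeZ_mono {m : ℕ} {q : ℤ} : ∀ {a : Fin m → ℤ} {A B : Set (Fin m → ℤ)}, A ⊆ B →
    TreeZ m q a A → TreeZ m q a B := by
  induction m with
  | zero => intro a A B h hA; exact h hA
  | succ k ih =>
    intro a A B h hA
    refine ih ?_ hA
    rintro y ⟨j, h1, h2⟩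
    exact ⟨j, h h1, h h2⟩

/-- the height of an integer index -/
noncomputable def hgt {m : ℕ} (h : Fin m → ℝ) (q : ℕ) (a : Fin m → ℤ) : Fin m → ℝ :=
  fun j => h j * (a j : ℝ) / q

theorem hgt_cons {k : ℕ} (h : Fin (k + 1) → ℝ) (q : ℕ) (b : ℤ) (y : Fin k → ℤ) :
    hgt h q (Fin.cons b y) = Fin.cons (h 0 * (b : ℝ) / q) (hgt (Fin.tail h) q y) := by
  ext j
  refine Fin.cases ?_ (fun i => ?_) j
  · simp [hgt]
  · simp [hgt, Fin.tail]

theorem treeZ_of_treeSet {m : ℕ} {q : ℕ} (hq : 0 < q) : ∀ (h : Fin m → ℝ) (a : Fin m → ℤ)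
    (T : Set (Fin m → ℝ)), TreeSet m h (hgt h q a) T → TreeZ m q a (hgt h q ⁻¹' T) := by
  have hq' : (q : ℝ) ≠ 0 := by positivity
  induction m with
  | zero =>
    intro h a T hT
    show hgt h q _ ∈ T
    have : hgt h q (fun i => Fin.elim0 i) = fun i => Fin.elim0 i := Subsingleton.elim _ _
    rw [this]
    exact hT
  | succ k ih =>
    intro h a T hT
    have e1 : Fin.tail (hgt h q a) = hgt (Fin.tail h) q (Fin.tail a) := by
      ext j; simp [hgt, Fin.tail]
    have hT' : TreeSet k (Fin.tail h) (hgt (Fin.tail h) q (Fin.tail a))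
        (redSet (h 0) (hgt h q a 0) T) := by
      rw [← e1]; exact hT
    show TreeZ k q (Fin.tail a) (redZ q (a 0) (hgt h q ⁻¹' T))
    refine TreeZ_mono ?_ (ih _ _ _ hT')
    rintro y ⟨j, h1, h2⟩
    refine ⟨j, ?_, ?_⟩
    · show hgt h q _ ∈ T
      rw [hgt_cons]
      convert h1 using 2
      simp only [hgt]
      push_cast
      field_simp
    · show hgt h q _ ∈ T
      rw [hgt_cons]
      convert h2 using 2
      simp only [hgt]
      push_cast
      field_simp

/-- `hgt` of a translate -/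
theorem hgt_add {m : ℕ} (h : Fin m → ℝ) (q : ℕ) (a μ : Fin m → ℤ) :
    hgt h q (fun i => a i + q * μ i) = fun j => h j * ((a j : ℝ) + q * μ j) / q := by
  ext j; simp [hgt]

/-! ### finiteness and cardinality of the index set -/

theorem index_finite {m : ℕ} {h : Fin m → ℝ} (hh : ∀ j, 0 < h j ∧ h j ≤ 1) {q : ℕ} (hq : 1 ≤ q)
    (T : Set (Fin m → ℝ)) (hT : ∀ t ∈ T, ∀ j, |t j| ≤ 1) :
    ∃ A : Finset (Fin m → ℤ), (∀ a, a ∈ A ↔ hgt h q a ∈ T) ∧
      (A.card : ℝ) ≤ (3 * (q : ℝ)) ^ m / ∏ j, h j := by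
  classical
  have hq' : (0 : ℝ) < q := by exact_mod_cast hq
  have hq1 : (1 : ℝ) ≤ q := by exact_mod_cast hq
  set Bx : Finset (Fin m → ℤ) := Fintype.piFinset fun j =>
    Finset.Icc (-⌊(q : ℝ) / h j⌋) ⌊(q : ℝ) / h j⌋ with hBx
  have hmem : ∀ a : Fin m → ℤ, hgt h q a ∈ T → a ∈ Bx := by
    intro a ha
    rw [hBx, Fintype.mem_piFinset]
    intro j
    have h1 := hT _ ha j
    have h2 : |(a j : ℝ)| ≤ q / h j := by
      rw [le_div_iff₀ (hh j).1]
      have : |h j * (a j : ℝ) / q| ≤ 1 := h1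
      rw [abs_div, abs_mul, abs_of_pos (hh j).1, abs_of_pos hq', div_le_one hq'] at this
      linarith [mul_comm (h j) |(a j : ℝ)|]
    rw [abs_le] at h2
    rw [Finset.mem_Icc]
    constructor
    · have : -(a j) ≤ ⌊(q : ℝ) / h j⌋ := by
        rw [Int.le_floor]; push_cast; linarith
      linarith
    · rw [Int.le_floor]; exact h2.2
  refine ⟨Bx.filter fun a => hgt h q a ∈ T, ?_, ?_⟩
  · intro a
    rw [Finset.mem_filter]
    exact ⟨fun h => h.2, fun h => ⟨hmem a h, h⟩⟩
  · calc (((Bx.filter fun a => hgt h q a ∈ T).card : ℕ) : ℝ) ≤ (Bx.card : ℝ) := by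
          exact_mod_cast Finset.card_filter_le _ _
      _ = ∏ j, ((Finset.Icc (-⌊(q : ℝ) / h j⌋) ⌊(q : ℝ) / h j⌋).card : ℝ) := by
          rw [hBx, Fintype.card_piFinset]; push_cast; rfl
      _ ≤ ∏ j, (3 * (q : ℝ)) / h j := by
          refine Finset.prod_le_prod (fun j _ => by positivity) fun j _ => ?_
          rw [Int.card_Icc]
          have h3 : (0 : ℝ) ≤ q / h j := div_nonneg hq'.le (hh j).1.le
          have h4 : (0 : ℤ) ≤ ⌊(q : ℝ) / h j⌋ := Int.floor_nonneg.2 h3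
          have h5 : (((⌊(q : ℝ) / h j⌋ + 1 - -⌊(q : ℝ) / h j⌋).toNat : ℕ) : ℝ)
              = 2 * (⌊(q : ℝ) / h j⌋ : ℝ) + 1 := by
            have : ((⌊(q : ℝ) / h j⌋ + 1 - -⌊(q : ℝ) / h j⌋).toNat : ℤ)
              = 2 * ⌊(q : ℝ) / h j⌋ + 1 := by
              rw [Int.toNat_of_nonneg (by linarith)]; ring
            exact_mod_cast this
          rw [h5]
          have h6 := Int.floor_le ((q : ℝ) / h j)
          have h7 : 1 ≤ (q : ℝ) / h j := by
            rw [le_div_iff₀ (hh j).1]; linarith [(hh j).2]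
          rw [mul_div_assoc]
          linarith
      _ = (3 * (q : ℝ)) ^ m / ∏ j, h j := by
          rw [Finset.prod_div_distrib]; simp

/-! ### lattice points -/

/-- integer points of `M • C` -/
theorem points_finite {N : ℕ} {M : ℝ} (hM : 0 < M) (C : Set (Fin N → ℝ))
    (hC : ∀ y ∈ C, ∀ i, |y i| ≤ 1) :
    {v : Fin N → ℤ | (fun i => (v i : ℝ) / M) ∈ C}.Finite := by
  classical
  refine Set.Finite.subset (Finset.finite_toSet
    (Fintype.piFinset fun _ : Fin N => Finset.Icc (-⌊M⌋) ⌊M⌋)) ?_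
  intro v hv
  rw [Finset.mem_coe, Fintype.mem_piFinset]
  intro i
  have h1 := hC _ hv i
  rw [abs_div, abs_of_pos hM, div_le_one hM, abs_le] at h1
  rw [Finset.mem_Icc]
  constructor
  · have : -(v i) ≤ ⌊M⌋ := by rw [Int.le_floor]; push_cast; linarith
    linarith
  · rw [Int.le_floor]; exact h1.2

/-- lower bound for the number of lattice points -/
theorem points_card {N : ℕ} {M : ℝ} (hM : 0 < M) (E C : Set (Fin N → ℝ))
    (hE : ∀ y ∈ E, ∀ u : Fin N → ℝ, (∀ i, |u i| ≤ 1 / (2 * M)) → y + u ∈ C)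
    (S : Finset (Fin N → ℤ)) (hS : ∀ v : Fin N → ℤ, (fun i => (v i : ℝ) / M) ∈ C → v ∈ S) :
    M ^ N * (volume E).toReal ≤ S.card := by
  have hsub : E ⊆ ⋃ v ∈ S, Set.Icc (fun i => (v i : ℝ) / M - 1 / (2 * M))
      (fun i => (v i : ℝ) / M + 1 / (2 * M)) := by
    intro y hy
    have key : ∀ i, |(round (y i * M) : ℝ) / M - y i| ≤ 1 / (2 * M) := by
      intro i
      have h1 := abs_sub_round (y i * M)
      have h2 : (round (y i * M) : ℝ) / M - y i = -((y i * M - round (y i * M)) / M) := by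
        field_simp; ring
      rw [h2, abs_neg, abs_div, abs_of_pos hM, div_le_div_iff₀ hM (by positivity)]
      nlinarith
    have h3 : (fun i => ((round (y i * M) : ℤ) : ℝ) / M) ∈ C := by
      have := hE y hy (fun i => (round (y i * M) : ℝ) / M - y i) key
      convert this using 1
      ext i
      simp
    refine Set.mem_iUnion₂.2 ⟨fun i => round (y i * M), hS _ h3, ?_, ?_⟩
    · intro i; have := abs_le.1 (key i); show _ ≤ _; linarith [this.2]
    · intro i; have := abs_le.1 (key i); show _ ≤ _; linarith [this.1]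
  have hvol : ∀ v : Fin N → ℤ, volume (Set.Icc (fun i => (v i : ℝ) / M - 1 / (2 * M))
      (fun i => (v i : ℝ) / M + 1 / (2 * M))) = ENNReal.ofReal ((1 / M) ^ N) := by
    intro v
    rw [Real.volume_Icc_pi]
    have : ∀ i, (v i : ℝ) / M + 1 / (2 * M) - ((v i : ℝ) / M - 1 / (2 * M)) = 1 / M := by
      intro i; field_simp; ring
    rw [Finset.prod_congr rfl fun i _ => by rw [this i]]
    rw [Finset.prod_const, Finset.card_univ, Fintype.card_fin, ENNReal.ofReal_pow (by positivity)]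
  have h1 : volume E ≤ ENNReal.ofReal (S.card * (1 / M) ^ N) := by
    calc volume E ≤ volume (⋃ v ∈ S, Set.Icc (fun i => (v i : ℝ) / M - 1 / (2 * M))
      (fun i => (v i : ℝ) / M + 1 / (2 * M))) := measure_mono hsub
      _ ≤ ∑ v ∈ S, volume (Set.Icc (fun i => (v i : ℝ) / M - 1 / (2 * M))
      (fun i => (v i : ℝ) / M + 1 / (2 * M))) := measure_biUnion_finset_le _ _
      _ = ∑ v ∈ S, ENNReal.ofReal ((1 / M) ^ N) := Finset.sum_congr rfl fun v _ => hvol v
      _ = ENNReal.ofReal (S.card * (1 / M) ^ N) := by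
          rw [Finset.sum_const, nsmul_eq_mul, ENNReal.ofReal_mul (by positivity),
            ENNReal.ofReal_natCast]
  have h2 : (volume E).toReal ≤ S.card * (1 / M) ^ N := by
    refine ENNReal.toReal_le_of_le_ofReal (by positivity) h1
  calc M ^ N * (volume E).toReal ≤ M ^ N * (S.card * (1 / M) ^ N) :=
        mul_le_mul_of_nonneg_left h2 (by positivity)
    _ = S.card := by
        rw [one_div, inv_pow]; field_simp

/-- union of the half-open cubes of side `H` at the points of `S` -/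
def cubes {N : ℕ} (S : Finset (Fin N → ℤ)) (H : ℕ) : Set (Fin N → ℝ) :=
  ⋃ v ∈ S, Set.pi univ fun i => Set.Ico (v i : ℝ) (v i + H)

theorem cubes_measurable {N : ℕ} (S : Finset (Fin N → ℤ)) (H : ℕ) :
    MeasurableSet (cubes S H) := by
  refine Finset.measurableSet_biUnion _ fun v _ => ?_
  exact MeasurableSet.univ_pi fun i => measurableSet_Ico

theorem cubes_finite {N : ℕ} (S : Finset (Fin N → ℤ)) (H : ℕ) : volume (cubes S H) ≠ ⊤ := by
  refine (lt_of_le_of_lt (measure_biUnion_finset_le _ _) ?_).ne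
  refine ENNReal.sum_lt_top.2 fun v _ => ?_
  rw [volume_pi_pi]
  exact ENNReal.prod_lt_top fun i _ => by simp

theorem cubesIn_cubes {N : ℕ} (S : Finset (Fin N → ℤ)) (H : ℕ) : CubesIn S H (cubes S H) := by
  intro v hv x hx
  exact Set.mem_iUnion₂.2 ⟨v, hv, fun i _ => ⟨(hx i).1, (hx i).2⟩⟩

theorem cubes_volume {N : ℕ} {M : ℝ} (hM : 0 < M) (C : Set (Fin N → ℝ)) (S : Finset (Fin N → ℤ))
    (H : ℕ) (hS : ∀ v ∈ S, (fun i => (v i : ℝ) / M) ∈ C)
    (hfin : volume {y : Fin N → ℝ | ∃ u : Fin N → ℝ, (∀ i, 0 ≤ u i ∧ u i ≤ H / M) ∧ y - u ∈ C} ≠ ⊤) :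
    (volume (cubes S H)).toReal ≤
      M ^ N * (volume {y : Fin N → ℝ | ∃ u : Fin N → ℝ, (∀ i, 0 ≤ u i ∧ u i ≤ H / M) ∧
        y - u ∈ C}).toReal := by
  set D := {y : Fin N → ℝ | ∃ u : Fin N → ℝ, (∀ i, 0 ≤ u i ∧ u i ≤ H / M) ∧ y - u ∈ C} with hD
  have hsub : cubes S H ⊆ M • D := by
    intro x hx
    obtain ⟨v, hv, hx⟩ := Set.mem_iUnion₂.1 hx
    rw [Set.mem_smul_set_iff_inv_smul_mem₀ hM.ne']
    refine ⟨fun i => (x i - v i) / M, fun i => ⟨?_, ?_⟩, ?_⟩
    · exact div_nonneg (by linarith [(hx i trivial).1]) hM.le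
    · exact div_le_div_of_nonneg_right (by linarith [(hx i trivial).2]) hM.le
    · have := hS v hv
      convert this using 1
      ext i
      simp only [Pi.sub_apply, Pi.smul_apply, smul_eq_mul]
      field_simp
      ring
  have h1 : volume (M • D) = ENNReal.ofReal (M ^ N) * volume D := by
    rw [Measure.addHaar_smul, Module.finrank_fin_fun, abs_of_nonneg (by positivity)]
  have h2 := measure_mono (μ := volume) hsub
  rw [h1] at h2
  have h3 := ENNReal.toReal_mono (ENNReal.mul_ne_top ENNReal.ofReal_ne_top hfin) h2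
  rwa [ENNReal.toReal_mul, ENNReal.toReal_ofReal (by positivity)] at h3

end Vale.Agent.P230
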