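import Vale.Agent.P230.Asm1

/-!
# P230 assembly, part 2: from the modules to a covering, with explicit parameter conditions
-/

open MeasureTheory Set
open scoped ENNReal NNReal BigOperators Pointwise

namespace Vale.Agent.P230

/-- the relation bound used for all slices -/
noncomputable def piBd (p N m l : ℕ) (ρ : ℝ) : ℝ :=
  3 ^ (4 * l) * (998 / 1000) ^ N * ρ ^ 2 + ρ * 3 ^ (4 * l) * 2 ^ (2 * (4 * l) + 2) / 2 ^ N
      + ρ * (p : ℝ) ^ (4 * l) / (((N + m) ^ 2 : ℕ) : ℝ) ^ N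

/-- All numerical conditions on the parameters. `V1` ranges over the possible densities. -/
structure Params (N m d l p : ℕ) (V δ ρ W : ℝ) : Prop where
  hN : 1 ≤ N
  hn : 2 ≤ N + m
  prime : p.Prime
  hV : 1 ≤ V
  hρ : ρ = 96 * (6 * ((N : ℝ) + m) ^ 2) ^ m
  hW : W = (3 * ((N : ℝ) + m) ^ 2) ^ m * (32 * (6 * ((N : ℝ) + m) ^ 2) ^ m)
  hM1 : ∀ τ : ℝ, 1 / (8 * 6 ^ m * ((N : ℝ) + m) ^ (N + m)) ≤ τ → τ ≤ 2 ^ N → ∀ M : ℝ, 0 < M →
    M ^ N * τ = V * (p : ℝ) ^ d → 2 * ((N : ℝ) + m) ^ 5 ≤ M ∧ 16 * (M + 1) ^ 2 < p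
  hr : 4 * l + 1 < p
  hlN : 2 * (4 * l) + 2 ≤ N
  hδ : ∀ V1 : ℝ, V ≤ V1 → V1 ≤ V + 1 →
    Real.exp (-V1) + V1 ^ (2 * l + 1) / (2 * l + 1).factorial
      + 2 * Real.exp (2 * V1) * piBd p N m l ρ ≤ δ
  hWδ : W * δ < 1 / 2
  hfin : (W * (W * δ)) ^ 2 ^ m * (p : ℝ) ^ d < W

theorem piBd_mono {p N m l r : ℕ} {ρ : ℝ} (hp : 1 ≤ p) (hρ : 0 ≤ ρ) (hr : r ≤ 4 * l) :
    3 ^ r * (998 / 1000) ^ N * ρ ^ 2 + ρ * 3 ^ r * 2 ^ (2 * r + 2) / 2 ^ N
      + ρ * (p : ℝ) ^ r / (((N + m) ^ 2 : ℕ) : ℝ) ^ N ≤ piBd p N m l ρ := by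
  have hp' : (1 : ℝ) ≤ p := by exact_mod_cast hp
  unfold piBd
  gcongr <;> norm_num

theorem treeZ_empty {q : ℤ} : ∀ (k : ℕ) (a : Fin k → ℤ), ¬ TreeZ k q a ∅ := by
  intro k
  induction k with
  | zero => intro a h; exact h
  | succ k ih =>
    intro a h
    refine ih (Fin.tail a) ?_
    refine TreeZ_mono ?_ (show TreeZ k q (Fin.tail a) (redZ q (a 0) ∅) from h)
    rintro y ⟨j, h1, _⟩
    exact h1

open Classical in
theorem surj_of_half {p d N : ℕ} [Fact p.Prime] (Φ : Matrix (Fin d) (Fin N) (ZMod p))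
    (U : Finset (Fin d → ZMod p)) (h1 : ∀ b, b ∉ U → ∃ v, Φ.mulVec v = b)
    (h2 : (U.card : ℝ) < (1 / 2) * Fintype.card (Fin d → ZMod p)) :
    Function.Surjective Φ.mulVec := by
  set R : AddSubgroup (Fin d → ZMod p) := (Matrix.mulVecLin Φ).toAddMonoidHom.range with hR
  have h1 : ∀ b, b ∉ U → b ∈ R := by
    intro b hb
    obtain ⟨v, hv⟩ := h1 b hb
    exact ⟨v, hv⟩
  have h3 : ∀ g, g ∈ R := by
    by_contra hne
    push Not at hne
    obtain ⟨g, hg⟩ := hne
    have h4 : (Finset.univ.filter fun b => b ∈ R).card ≤ U.card := by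
      refine Finset.card_le_card_of_injOn (fun b => g + b) ?_ (fun b _ c _ h => add_left_cancel h)
      intro b hb
      rw [Finset.mem_coe, Finset.mem_filter] at hb
      rw [Finset.mem_coe]
      by_contra hnot
      have h5 := h1 _ hnot
      exact hg (by simpa using R.sub_mem h5 hb.2)
    have h6 : Fintype.card (Fin d → ZMod p) ≤
        (Finset.univ.filter fun b => b ∈ R).card + U.card := by
      rw [← Finset.card_univ]
      refine le_trans (Finset.card_le_card ?_) (Finset.card_union_le _ _)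
      intro b _
      by_cases hb : b ∈ U
      · exact Finset.mem_union_right _ hb
      · exact Finset.mem_union_left _ (by rw [Finset.mem_filter]; exact ⟨Finset.mem_univ _, h1 b hb⟩)
    have h7 : (Fintype.card (Fin d → ZMod p) : ℝ) ≤ 2 * U.card := by
      have : Fintype.card (Fin d → ZMod p) ≤ 2 * U.card := by omega
      exact_mod_cast this
    linarith
  intro b
  obtain ⟨v, hv⟩ := h3 b
  exact ⟨v, hv⟩

theorem rel_bound (hFAT : S_FAT) (hCOUNT : S_COUNT)
    {N m d l p : ℕ} {V δ ρ W : ℝ} (P : Params N m d l p V δ ρ W)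
    (K : Set ((Fin N → ℝ) × (Fin m → ℝ))) (hK : Normal N m K) {M τ : ℝ} (hM0 : 0 < M)
    (hM5 : 2 * ((N : ℝ) + m) ^ 5 ≤ M) (hMp : 16 * (M + 1) ^ 2 < p) (t : Fin m → ℝ)
    (S : Finset (Fin N → ℤ)) (hSslice : ∀ v ∈ S, (fun i => (v i : ℝ) / M) ∈ slice K t)
    (hne : (eslice K t).Nonempty)
    (hslice : (volume (slice K t)).toReal ≤ 32 * (6 * ((N : ℝ) + m) ^ 2) ^ m * τ)
    (hMN : M ^ N * τ ≤ S.card) :
    Set.InjOn (lift p (N := N)) (S : Set (Fin N → ℤ)) ∧
    ∀ r ≤ 4 * l, (relCount p (S.image (lift p)) r : ℝ) ≤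
      piBd p N m l ρ * (S.card : ℝ) ^ r := by
  classical
  have hn := P.hn
  have hnR : (2 : ℝ) ≤ (N : ℝ) + m := by exact_mod_cast P.hn
  have hp1 : 1 ≤ p := P.prime.pos
  set q : ℕ := (N + m) ^ 2 with hq
  have hqR : (q : ℝ) = ((N : ℝ) + m) ^ 2 := by rw [hq]; push_cast; ring
  have hρ0 : 0 ≤ ρ := by rw [P.hρ]; positivity
  set D : ℕ := ⌈2 * M⌉₊ with hD
  have hDle : (D : ℝ) ≤ 2 * M + 1 := (Nat.ceil_lt_add_one (by positivity)).le
  have hDp : 4 * D ^ 2 < p := by
    have : (4 * D ^ 2 : ℝ) < p := by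
      refine lt_of_le_of_lt ?_ hMp
      have h0 : (0 : ℝ) ≤ D := Nat.cast_nonneg _
      nlinarith
    exact_mod_cast this
  have hD1 : 1 ≤ D := by
    rw [hD, Nat.one_le_ceil_iff]; positivity
  have hDp3 : 3 * D < p := by nlinarith
  have hdiff : ∀ v ∈ S, ∀ v' ∈ S, ∀ i, |v i - v' i| ≤ (D : ℤ) := by
    intro v hv v' hv' i
    have h1 := (hK.outer _ (hSslice v hv)).1 i
    have h2 := (hK.outer _ (hSslice v' hv')).1 i
    simp only [abs_div, abs_of_pos hM0, div_le_one hM0] at h1 h2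
    have h3 : (|v i - v' i| : ℝ) ≤ D := by
      calc (|(v i : ℝ) - v' i| : ℝ) ≤ |(v i : ℝ)| + |(v' i : ℝ)| := abs_sub _ _
        _ ≤ M + M := add_le_add h1 h2
        _ = 2 * M := by ring
        _ ≤ D := Nat.le_ceil _
    exact_mod_cast h3
  constructor
  · intro v hv v' hv' hvv
    ext i
    have h1 : ((v i : ℤ) : ZMod p) = ((v' i : ℤ) : ZMod p) := by
      have := congrFun hvv (Fin.succ i)
      simpa [lift] using this
    have h4 := hdiff v hv v' hv' i
    have h5 : (p : ℤ) ∣ v i - v' i := by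
      rw [← ZMod.intCast_zmod_eq_zero_iff_dvd]
      push_cast
      rw [h1, sub_self]
    have h6 : v i - v' i = 0 := Int.eq_zero_of_abs_lt_dvd h5 (by
      refine lt_of_le_of_lt h4 ?_
      have : D < p := by omega
      exact_mod_cast this)
    omega
  · intro r hr
    have hfatfin : volume {y : Fin N → ℝ | ∃ u : Fin N → ℝ, (∀ i, 0 ≤ u i ∧ u i ≤ (q : ℝ) / M) ∧
        y - u ∈ slice K t} ≠ ⊤ := by
      refine ne_top_of_le_ne_top ?_ (measure_mono (t := Set.Icc (fun _ : Fin N => (-1 : ℝ))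
        (fun _ => 1 + (q : ℝ) / M)) ?_)
      · rw [Real.volume_Icc_pi]; exact ENNReal.prod_ne_top fun i _ => ENNReal.ofReal_ne_top
      · rintro y ⟨u, hu, hy⟩
        have := (hK.outer _ hy).1
        constructor
        · intro i
          have h1 := abs_le.1 (this i)
          have h2 := hu i
          simp only [Pi.sub_apply] at h1
          show (-1 : ℝ) ≤ y i
          linarith [h1.1, h2.1]
        · intro i
          have h1 := abs_le.1 (this i)
          have h2 := hu i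
          simp only [Pi.sub_apply] at h1
          show y i ≤ 1 + (q : ℝ) / M
          linarith [h1.2, h2.2]
    have hvolQ : (volume (cubes S q)).toReal ≤ ρ * (S.card : ℝ) := by
      have h1 := cubes_volume hM0 (slice K t) S q hSslice hfatfin
      have h2 := hFAT N m K t ((q : ℝ) / M) P.hN P.hn hK
        hne (by positivity) (by
          rw [hqR, div_le_div_iff₀ hM0 (by positivity)]
          calc ((N : ℝ) + m) ^ 2 * (2 * ((N : ℝ) + m) ^ 3) = 2 * ((N : ℝ) + m) ^ 5 := by ring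
            _ ≤ 1 * M := by linarith)
      rw [P.hρ]
      calc (volume (cubes S q)).toReal ≤ M ^ N * (3 * (volume (slice K t)).toReal) :=
            h1.trans (mul_le_mul_of_nonneg_left h2 (by positivity))
        _ ≤ M ^ N * (3 * (32 * (6 * ((N : ℝ) + m) ^ 2) ^ m * τ)) := by gcongr
        _ = 96 * (6 * ((N : ℝ) + m) ^ 2) ^ m * (M ^ N * τ) := by ring
        _ ≤ 96 * (6 * ((N : ℝ) + m) ^ 2) ^ m * S.card := by gcongr
    have h1 := hCOUNT p N D q r S (cubes S q) ρ P.prime hρ0 (by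
        rw [hq]; calc 2 ≤ 2 ^ 2 := by norm_num
          _ ≤ (N + m) ^ 2 := Nat.pow_le_pow_left hn 2) hDp hDp3
      (lt_of_le_of_lt (by omega) P.hr) (le_trans (by omega) P.hlN) hdiff
      (cubes_measurable _ _) (cubes_finite _ _) (cubesIn_cubes _ _) hvolQ
    refine h1.trans (mul_le_mul_of_nonneg_right ?_ (by positivity))
    exact piBd_mono hp1 hρ0 hr

theorem sq_le_of_five {x M : ℝ} (hx : 2 ≤ x) (hM : 2 * x ^ 5 ≤ M) : x ^ 2 ≤ M := by
  refine le_trans ?_ hM
  have h3 : x ^ 2 * 1 ≤ x ^ 2 * (2 * x ^ 3) := by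
    apply mul_le_mul_of_nonneg_left _ (by positivity)
    have := pow_le_pow_left₀ (by norm_num : (0:ℝ) ≤ 2) hx 3
    linarith
  nlinarith

theorem index_card_le {c W : ℝ} {x P A : ℝ} (hP : 0 < P) (hx : 0 ≤ x) (hc : 0 < c)
    (hW : W = x * c) (hprod : 1 / c ≤ P) (hA : A ≤ x / P) : A ≤ W := by
  refine hA.trans ?_
  rw [div_le_iff₀ hP, hW]
  have h1 : 1 ≤ c * P := by
    rw [div_le_iff₀ hc] at hprod
    linarith
  calc x = x * 1 := (mul_one _).symm
    _ ≤ x * (c * P) := mul_le_mul_of_nonneg_left h1 hx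
    _ = _ := by ring

/-- **Assembly.** -/
theorem assemble (hBODY : S_BODY) (hFAT : S_FAT) (hCOUNT : S_COUNT) (hBASE : S_BASE)
    (hSELECT : S_SELECT) (hGREEDY : S_GREEDY) (hCOVER : S_COVER)
    {N m d l p : ℕ} {V δ ρ W : ℝ} (P : Params N m d l p V δ ρ W)
    (K : Set ((Fin N → ℝ) × (Fin m → ℝ))) (hK : Normal N m K) :
    ProdCover K (Real.exp 2 * (8 * (2 * Real.exp 1) ^ m * V)) := by
  classical
  obtain ⟨h, τ, hh, hτ, hvol, htree, hslice, hprod, hτl, hτu⟩ := hBODY N m K P.hN P.hn hK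
  have hN := P.hN
  have hn := P.hn
  have hnR : (2 : ℝ) ≤ (N : ℝ) + m := by exact_mod_cast P.hn
  have hV0 : 0 < V := lt_of_lt_of_le one_pos P.hV
  have : Fact p.Prime := ⟨P.prime⟩
  have hp0 : (0 : ℝ) < p := by exact_mod_cast P.prime.pos
  have hp1 : 1 ≤ p := P.prime.pos
  -- the scale
  set M : ℝ := (V * (p : ℝ) ^ d / τ) ^ (1 / (N : ℝ)) with hM
  have hM0 : 0 < M := by positivity
  have hMN : M ^ N * τ = V * (p : ℝ) ^ d := by
    rw [hM, ← Real.rpow_natCast, ← Real.rpow_mul (by positivity)]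
    rw [one_div, inv_mul_cancel₀ (by positivity), Real.rpow_one]
    field_simp
  obtain ⟨hM5, hMp⟩ := P.hM1 τ hτl hτu M hM0 hMN
  -- the index set
  set q : ℕ := (N + m) ^ 2 with hq
  have hq1 : 1 ≤ q := Nat.one_le_pow _ _ (by omega)
  have hqR : (q : ℝ) = ((N : ℝ) + m) ^ 2 := by rw [hq]; push_cast; ring
  set T : Set (Fin m → ℝ) := {t | τ < (volume (eslice K t)).toReal} with hT
  have hesl : ∀ t, eslice K t ⊆ slice K t := by
    intro t y hy
    have := hy 0 (fun i => by simp; positivity)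
    simpa [slice] using this
  have hTne : ∀ t ∈ T, (eslice K t).Nonempty := by
    intro t ht
    by_contra hne
    rw [Set.not_nonempty_iff_eq_empty] at hne
    have : τ < 0 := by simpa [hT, hne] using ht
    linarith
  have hT1 : ∀ t ∈ T, ∀ j, |t j| ≤ 1 := by
    intro t ht
    obtain ⟨y, hy⟩ := hTne t ht
    exact (hK.outer _ (hesl t hy)).2
  obtain ⟨A, hA, hAcard⟩ := index_finite hh hq1 T hT1
  have hprodpos : 0 < ∏ j, h j := Finset.prod_pos fun j _ => (hh j).1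
  have hW0 : 0 < W := by rw [P.hW]; positivity
  have hAW : (A.card : ℝ) ≤ W := by
    refine index_card_le hprodpos (by positivity) (by positivity) P.hW hprod ?_
    rw [← hqR]
    exact hAcard
  -- lattice points of the slices
  have hSfin : ∀ a : Fin m → ℤ, ∃ S : Finset (Fin N → ℤ), ∀ v : Fin N → ℤ,
      v ∈ S ↔ (fun i => (v i : ℝ) / M) ∈ slice K (hgt h q a) := by
    intro a
    have hf := points_finite (N := N) hM0 (slice K (hgt h q a))
      (fun y hy => (hK.outer _ hy).1)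
    exact ⟨hf.toFinset, fun v => by simp⟩
  choose S0 hS0 using hSfin
  set n1 : ℕ := ⌈V * (p : ℝ) ^ d⌉₊ with hn1
  have hMhalf : 1 / (2 * M) ≤ 1 / (2 * ((N : ℝ) + m) ^ 2) := by
    apply one_div_le_one_div_of_le (by positivity)
    have := sq_le_of_five hnR hM5
    linarith
  have hS0card : ∀ a ∈ A, n1 ≤ (S0 a).card := by
    intro a ha
    rw [hn1]
    refine Nat.ceil_le.2 ?_
    have h1 := points_card (N := N) hM0 (eslice K (hgt h q a)) (slice K (hgt h q a))
      (fun y hy u hu => hy u fun i => (hu i).trans hMhalf) (S0 a) (fun v hv => (hS0 a v).2 hv)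
    refine le_trans ?_ h1
    rw [← hMN]
    exact mul_le_mul_of_nonneg_left (le_of_lt ((hA a).1 ha)) (by positivity)
  have hSex : ∀ a : Fin m → ℤ, ∃ S : Finset (Fin N → ℤ), S ⊆ S0 a ∧ (a ∈ A → S.card = n1) := by
    intro a
    by_cases ha : a ∈ A
    · obtain ⟨S, h1, h2⟩ := Finset.exists_subset_card_eq (hS0card a ha)
      exact ⟨S, h1, fun _ => h2⟩
    · exact ⟨∅, by simp, fun h => absurd h ha⟩
  choose S hSsub hScard using hSex
  set V1 : ℝ := (n1 : ℝ) / (p : ℝ) ^ d with hV1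
  have hpd : (0 : ℝ) < (p : ℝ) ^ d := by positivity
  have hpd1 : (1 : ℝ) ≤ (p : ℝ) ^ d := one_le_pow₀ (by exact_mod_cast hp1)
  have hV1l : V ≤ V1 := by
    rw [hV1, le_div_iff₀ hpd]
    exact Nat.le_ceil _
  have hV1u : V1 ≤ V + 1 := by
    rw [hV1, div_le_iff₀ hpd]
    have := (Nat.ceil_lt_add_one (show 0 ≤ V * (p : ℝ) ^ d by positivity)).le
    rw [← hn1] at this
    nlinarith
  have hn1pos : 0 < (n1 : ℝ) := by
    have : 0 < V1 := lt_of_lt_of_le hV0 hV1l
    rw [hV1] at this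
    exact (div_pos_iff_of_pos_right hpd).1 this
  have hρ0 : 0 ≤ ρ := by rw [P.hρ]; positivity
  -- relation counts
  have hrelinj : ∀ a ∈ A, Set.InjOn (lift p (N := N)) (S a : Set (Fin N → ℤ)) ∧
      ∀ r ≤ 4 * l, (relCount p ((S a).image (lift p)) r : ℝ) ≤
      piBd p N m l ρ * ((S a).card : ℝ) ^ r := by
    intro a ha
    refine rel_bound hFAT hCOUNT P K hK hM0 hM5 hMp (hgt h q a) (S a)
      (fun v hv => (hS0 a v).1 (hSsub a hv)) (hTne _ ((hA a).1 ha)) (hslice _) ?_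
    rw [hScard a ha, hMN]
    exact Nat.le_ceil _
  have hcardim : ∀ a ∈ A, ((S a).image (lift p)).card = n1 := by
    intro a ha
    rw [Finset.card_image_of_injOn (hrelinj a ha).1, hScard a ha]
  have hπ0 : 0 ≤ piBd p N m l ρ := by unfold piBd; positivity
  have hbase : ∀ a ∈ A, (Nat.card {L : Matrix (Fin d) (Fin (N + 1)) (ZMod p) //
      ∀ s ∈ S a, L.mulVec (lift p s) ≠ 0} : ℝ) ≤ δ * (p : ℝ) ^ (d * (N + 1)) := by
    intro a ha
    have h1 := hBASE p (N + 1) d l ((S a).image (lift p)) (piBd p N m l ρ) P.prime hπ0 (by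
      intro r hr
      have := (hrelinj a ha).2 r hr
      rwa [hcardim a ha, ← hScard a ha])
    rw [hcardim a ha] at h1
    have h2 : Nat.card {L : Matrix (Fin d) (Fin (N + 1)) (ZMod p) //
        ∀ s ∈ S a, L.mulVec (lift p s) ≠ 0} = Nat.card {L : Matrix (Fin d) (Fin (N + 1)) (ZMod p) //
        ∀ s ∈ (S a).image (lift p), L.mulVec s ≠ 0} := by
      congr 1
      simp
    rw [h2]
    refine h1.trans (mul_le_mul_of_nonneg_right ?_ (by positivity))
    exact P.hδ V1 hV1l hV1u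
  obtain ⟨Φ, hΦ⟩ := hSELECT p N d (Fin m → ℤ) A S δ P.prime hbase
  -- uncovered sets
  set U : (Fin m → ℤ) → Finset (Fin d → ZMod p) := fun a =>
    Finset.univ.filter fun b => ∀ s ∈ S a, Φ.mulVec (fun i => (s i : ZMod p)) ≠ b with hU
  have hδ0 : 0 ≤ δ := by
    refine le_trans ?_ (P.hδ V le_rfl (by linarith))
    positivity
  have hcardG : (Fintype.card (Fin d → ZMod p) : ℝ) = (p : ℝ) ^ d := by
    rw [Fintype.card_fun, ZMod.card, Fintype.card_fin]; push_cast; rfl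
  have hUcard : ∀ a ∈ A, ((U a).card : ℝ) ≤ (W * δ) * Fintype.card (Fin d → ZMod p) := by
    intro a ha
    have h1 := hΦ a ha
    have h2 : (Nat.card {b : Fin d → ZMod p // ∀ s ∈ S a,
        Φ.mulVec (fun i => (s i : ZMod p)) ≠ b} : ℕ) = (U a).card := by
      rw [Nat.card_eq_fintype_card, Fintype.card_subtype]
    rw [h2] at h1
    rw [hcardG]
    refine h1.trans ?_
    gcongr
  obtain ⟨x, hx⟩ := hGREEDY (Fin d → ZMod p) m q A U W (W * δ) (by exact_mod_cast hq1) hW0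
    (by positivity) hAW hUcard (by rw [hcardG]; exact P.hfin)
  -- trees
  have htreeZ : ∀ a : Fin m → ℤ, TreeZ m q a (A : Set (Fin m → ℤ)) := by
    intro a
    refine TreeZ_mono ?_ (treeZ_of_treeSet (q := q) (by omega) h a T (htree _))
    intro b hb
    exact (hA b).2 hb
  -- `Φ` is onto
  have hcov : ∀ (a : Fin m → ℤ) (g : Fin d → ZMod p), ∃ (u : Fin N → ℤ) (μ : Fin m → ℤ),
      (fun i => (u i : ℝ) / M, hgt h q (fun i => a i + q * μ i)) ∈ K ∧
      Φ.mulVec (fun i => (u i : ZMod p)) = g - ∑ j, μ j • x j := by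
    intro a g
    obtain ⟨μ, hμ⟩ := hx a (htreeZ a) g
    simp only [hU, Finset.mem_filter, Finset.mem_univ, true_and, not_forall, not_not] at hμ
    obtain ⟨u, hu, hu2⟩ := hμ
    exact ⟨u, μ, (hS0 _ u).1 (hSsub _ hu), hu2⟩
  have hAne : A.Nonempty := by
    by_contra hne
    rw [Finset.not_nonempty_iff_eq_empty] at hne
    have h1 := htreeZ 0
    rw [hne, Finset.coe_empty] at h1
    exact treeZ_empty m 0 h1
  have hsurj : Function.Surjective Φ.mulVec := by
    obtain ⟨a, ha⟩ := hAne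
    refine surj_of_half Φ (U a) ?_ ?_
    · intro b hb
      simp only [hU, Finset.mem_filter, Finset.mem_univ, true_and, not_forall, not_not] at hb
      obtain ⟨u, hu, hu2⟩ := hb
      exact ⟨_, hu2⟩
    · refine lt_of_le_of_lt (hUcard a ha) ?_
      have : (0 : ℝ) < Fintype.card (Fin d → ZMod p) := by rw [hcardG]; exact hpd
      exact mul_lt_mul_of_pos_right P.hWδ this
  -- conclusion
  have hM2 : ((N : ℝ) + m) ^ 2 ≤ M := sq_le_of_five hnR hM5
  have hcover := hCOVER N m K h τ M p d q Φ x P.hN P.hn hK hh hτ P.prime hM2 le_rfl hsurj (by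
    intro w a
    obtain ⟨u, μ, h1, h2⟩ := hcov a (Φ.mulVec (fun i => (w i : ZMod p)))
    refine ⟨u, μ, ?_, h2⟩
    rw [hgt_add] at h1
    exact h1)
  obtain ⟨B, hB1, hB2, hB3⟩ := hcover
  refine ⟨B, hB1, hB2, hB3.trans (mul_le_mul_of_nonneg_right ?_ (abs_nonneg _))⟩
  rw [mul_assoc, mul_div_assoc]
  refine mul_le_mul_of_nonneg_left ?_ (Real.exp_pos _).le
  rw [div_le_iff₀ (by positivity)]
  calc (volume K).toReal * M ^ N ≤ (8 * (2 * Real.exp 1) ^ m * (∏ j, h j) * τ) * M ^ N :=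
        mul_le_mul_of_nonneg_right hvol (by positivity)
    _ = 8 * (2 * Real.exp 1) ^ m * (∏ j, h j) * (M ^ N * τ) := by ring
    _ = 8 * (2 * Real.exp 1) ^ m * V * ((∏ j, h j) * (p : ℝ) ^ d) := by rw [hMN]; ring

end Vale.Agent.P230
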