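import Mathlib

/-!
# P230: Bonferroni polynomial inequality
-/

open Finset

namespace Vale.Agent.P230

theorem bonf_aux (x : ℝ) (hx0 : 0 ≤ x) (hx1 : x ≤ 1) (n : ℕ) : ∀ k : ℕ,
    0 ≤ (-1 : ℝ) ^ k * ((1 - x) ^ n - ∑ j ∈ range k, (-1 : ℝ) ^ j * (n.choose j) * x ^ j) ∧
    (-1 : ℝ) ^ k * ((1 - x) ^ n - ∑ j ∈ range k, (-1 : ℝ) ^ j * (n.choose j) * x ^ j)
      ≤ (n.choose k) * x ^ k := by
  induction n with
  | zero =>
    intro k
    rcases Nat.eq_zero_or_pos k with rfl | hk
    · simp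
    · obtain ⟨k, rfl⟩ : ∃ k', k = k' + 1 := ⟨k - 1, by omega⟩
      rw [Finset.sum_range_succ']
      simp
  | succ n ih =>
    intro k
    rcases Nat.eq_zero_or_pos k with rfl | hk
    · simp only [pow_zero, range_zero, sum_empty, sub_zero, one_mul, Nat.choose_zero_right,
        Nat.cast_one, mul_one]
      exact ⟨pow_nonneg (by linarith) _, pow_le_one₀ (by linarith) (by linarith)⟩
    · obtain ⟨k, rfl⟩ : ∃ k', k = k' + 1 := ⟨k - 1, by omega⟩
      have hrec : ∑ j ∈ range (k + 1), (-1 : ℝ) ^ j * ((n + 1).choose j) * x ^ j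
          = ∑ j ∈ range (k + 1), (-1 : ℝ) ^ j * (n.choose j) * x ^ j
            - x * ∑ j ∈ range k, (-1 : ℝ) ^ j * (n.choose j) * x ^ j := by
        rw [Finset.sum_range_succ', Finset.sum_range_succ' (n := k), Finset.mul_sum,
          add_sub_right_comm, ← Finset.sum_sub_distrib]
        congr 1
        · apply Finset.sum_congr rfl
          intro j _
          rw [Nat.choose_succ_succ]
          push_cast
          ring
        · simp
      obtain ⟨h1, h2⟩ := ih (k + 1)
      obtain ⟨h3, h4⟩ := ih k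
      have key : (-1 : ℝ) ^ (k + 1) * ((1 - x) ^ (n + 1)
            - ∑ j ∈ range (k + 1), (-1 : ℝ) ^ j * ((n + 1).choose j) * x ^ j)
          = (-1 : ℝ) ^ (k + 1) * ((1 - x) ^ n
              - ∑ j ∈ range (k + 1), (-1 : ℝ) ^ j * (n.choose j) * x ^ j)
            + x * ((-1 : ℝ) ^ k * ((1 - x) ^ n
              - ∑ j ∈ range k, (-1 : ℝ) ^ j * (n.choose j) * x ^ j)) := by
        rw [hrec]
        ring
      rw [key]
      constructor
      · have := mul_nonneg hx0 h3
        linarith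
      · have h5 := mul_le_mul_of_nonneg_left h4 hx0
        rw [Nat.choose_succ_succ]
        push_cast
        calc _ ≤ (n.choose (k + 1) : ℝ) * x ^ (k + 1) + x * ((n.choose k) * x ^ k) := by linarith
          _ = _ := by ring

/-- (ii) of BASE -/
theorem bonf_poly (x : ℝ) (hx0 : 0 ≤ x) (hx1 : x ≤ 1) (n l : ℕ) :
    ∑ j ∈ range (2 * l + 1), (-1 : ℝ) ^ j * (n.choose j) * x ^ j
      ≤ Real.exp (-(n * x)) + (n * x) ^ (2 * l + 1) / (2 * l + 1).factorial := by
  obtain ⟨-, h⟩ := bonf_aux x hx0 hx1 n (2 * l + 1)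
  have h1 : (-1 : ℝ) ^ (2 * l + 1) = -1 := by
    rw [pow_succ, pow_mul]; simp
  rw [h1] at h
  have h2 : (1 - x) ^ n ≤ Real.exp (-(n * x)) := by
    have : Real.exp (-(n * x)) = Real.exp (-x) ^ n := by
      rw [← Real.exp_nat_mul]; congr 1; ring
    rw [this]
    apply pow_le_pow_left₀ (by linarith)
    have := Real.add_one_le_exp (-x)
    linarith
  have h3 : (n.choose (2 * l + 1) : ℝ) * x ^ (2 * l + 1)
      ≤ (n * x) ^ (2 * l + 1) / (2 * l + 1).factorial := by
    rw [mul_pow, mul_div_right_comm]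
    apply mul_le_mul_of_nonneg_right _ (pow_nonneg hx0 _)
    exact_mod_cast Nat.choose_le_pow_div (α := ℝ) (2 * l + 1) n
  linarith

end Vale.Agent.P230
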