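import Vale.Agent.P230.Defs
import Vale.Agent.P230.BaseP

open Finset

namespace Vale.Agent.P230
namespace Base

variable {p : ℕ} {k : ℕ}

/-- linear independence of a finite set of vectors -/
def Ind (B : Finset (Fin k → ZMod p)) : Prop :=
  LinearIndepOn (ZMod p) id (B : Set (Fin k → ZMod p))

open Classical in
/-- matrices vanishing on `B` -/
noncomputable def Ker (d : ℕ) [Fact p.Prime] (B : Finset (Fin k → ZMod p)) :
    Finset (Matrix (Fin d) (Fin k) (ZMod p)) :=
  univ.filter (fun L => ∀ b ∈ B, L.mulVec b = 0)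

theorem card_ker [Fact p.Prime] (d : ℕ) (B : Finset (Fin k → ZMod p)) (hB : Ind B) :
    (Ker d B).card * p ^ (d * B.card) = p ^ (d * k) := by
  classical
  let φ : Matrix (Fin d) (Fin k) (ZMod p) →ₗ[ZMod p] (↥(B : Set (Fin k → ZMod p)) → (Fin d → ZMod p)) :=
    { toFun := fun L b => L.mulVec b.1
      map_add' := by intro L L'; funext b; simp [Matrix.add_mulVec]
      map_smul' := by intro c L; funext b; simp [Matrix.smul_mulVec] }
  have hsurj : Function.Surjective φ := by
    intro g
    have hli : LinearIndependent (ZMod p) (fun b : ↥(B : Set (Fin k → ZMod p)) => (b : Fin k → ZMod p)) := hB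
    obtain ⟨f, hf⟩ := LinearMap.exists_extend
      ((Module.Basis.span hli).constr (ZMod p) (fun b => g b))
    refine ⟨LinearMap.toMatrix' f, ?_⟩
    funext b
    change (LinearMap.toMatrix' f).mulVec b.1 = g b
    rw [LinearMap.toMatrix'_mulVec]
    have h1 := congrArg (fun F => F (Module.Basis.span hli b)) hf
    simp only [LinearMap.comp_apply, Submodule.subtype_apply, Module.Basis.constr_basis] at h1
    rw [← h1]
    congr 1
    exact (congrArg Subtype.val (Module.Basis.span_apply hli b)).symm
  have h1 := LinearMap.finrank_range_add_finrank_ker φ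
  rw [LinearMap.range_eq_top.2 hsurj, finrank_top] at h1
  have h2 : Module.finrank (ZMod p) (↥(B : Set (Fin k → ZMod p)) → (Fin d → ZMod p)) = d * B.card := by
    rw [Module.finrank_pi_fintype]
    simp [mul_comm]
  have h3 : Module.finrank (ZMod p) (Matrix (Fin d) (Fin k) (ZMod p)) = d * k := by
    rw [Module.finrank_matrix]; simp
  rw [h2, h3] at h1
  have h4 : (Ker d B).card = p ^ (Module.finrank (ZMod p) (LinearMap.ker φ)) := by
    have h5 := Module.card_eq_pow_finrank (K := ZMod p) (V := LinearMap.ker φ)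
    rw [ZMod.card] at h5
    rw [← h5, Ker, ← Fintype.card_subtype]
    apply Fintype.card_congr
    apply Equiv.subtypeEquivRight
    intro L
    rw [LinearMap.mem_ker]
    constructor
    · intro h; funext b; exact h b.1 b.2
    · intro h b hb; exact congrFun h ⟨b, hb⟩
  rw [h4, ← pow_add, ← h1, add_comm]


theorem card_ker_real [Fact p.Prime] (d : ℕ) (B : Finset (Fin k → ZMod p)) (hB : Ind B) :
    ((Ker d B).card : ℝ) = (p : ℝ) ^ (d * k) * (1 / (p : ℝ) ^ d) ^ B.card := by
  have h := card_ker d B hB
  have hp : (0 : ℝ) < (p : ℝ) := by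
    have := (Fact.out : p.Prime).pos
    exact_mod_cast this
  have h' : ((Ker d B).card : ℝ) * (p : ℝ) ^ (d * B.card) = (p : ℝ) ^ (d * k) := by
    exact_mod_cast h
  rw [← h', one_div, inv_pow, ← pow_mul]
  field_simp

theorem Ind.mono {B B' : Finset (Fin k → ZMod p)} (hB : Ind B) (h : B' ⊆ B) : Ind B' :=
  LinearIndepOn.mono hB (by exact_mod_cast h)

theorem ind_empty [Fact p.Prime] : Ind (∅ : Finset (Fin k → ZMod p)) := by
  unfold Ind
  simp

/-- maximal independent set between `J` and `T` -/
theorem exists_max [Fact p.Prime] (J T : Finset (Fin k → ZMod p)) (hJ : Ind J) (hJT : J ⊆ T) :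
    ∃ B : Finset (Fin k → ZMod p), J ⊆ B ∧ B ⊆ T ∧ Ind B ∧
      ∀ u ∈ T, u ∈ Submodule.span (ZMod p) (B : Set (Fin k → ZMod p)) := by
  classical
  obtain ⟨b, hbT, hJb, hTs, hb⟩ := exists_linearIndepOn_id_extension (K := ZMod p) hJ
    (show (J : Set (Fin k → ZMod p)) ⊆ (T : Set (Fin k → ZMod p)) by exact_mod_cast hJT)
  have hfin : b.Finite := T.finite_toSet.subset hbT
  refine ⟨hfin.toFinset, ?_, ?_, ?_, ?_⟩
  · intro x hx; simpa using hJb hx
  · intro x hx; exact hbT (by simpa using hx)
  · unfold Ind; rw [hfin.coe_toFinset]; exact hb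
  · intro u hu; rw [hfin.coe_toFinset]; exact hTs hu

open Classical in
/-- number of the elements of `S ∖ B` in the span of `B` -/
noncomputable def X (S B : Finset (Fin k → ZMod p)) : ℕ :=
  (S.filter (fun u => u ∉ B ∧ u ∈ Submodule.span (ZMod p) (B : Set (Fin k → ZMod p)))).card

open Classical in
theorem sum_X_le [Fact p.Prime] (S : Finset (Fin k → ZMod p)) (r : ℕ) :
    (∑ B ∈ (powersetCard r S).filter Ind, X S B) * r.factorial ≤ relCount p S r := by
  -- the type of the left hand side
  let T := Σ B : {B // B ∈ (powersetCard r S).filter Ind}, (Fin r ≃ B.1) ×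
    {u // u ∈ S.filter (fun u => u ∉ B.1 ∧
      u ∈ Submodule.span (ZMod p) (B.1 : Set (Fin k → ZMod p)))}
  have hT : Fintype.card T = (∑ B ∈ (powersetCard r S).filter Ind, X S B) * r.factorial := by
    rw [Fintype.card_sigma, Finset.sum_mul,
      ← Finset.sum_coe_sort ((powersetCard r S).filter Ind) (fun B => X S B * r.factorial)]
    apply Finset.sum_congr rfl
    intro B _
    have hB := B.2
    rw [mem_filter, mem_powersetCard] at hB
    have e : Fin r ≃ B.1 := (Fintype.equivFinOfCardEq (by rw [Fintype.card_coe]; exact hB.1.2)).symm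
    rw [Fintype.card_prod, Fintype.card_equiv e, Fintype.card_fin, Fintype.card_coe, mul_comm]
    rfl
  rw [← hT, relCount, ← Nat.card_eq_fintype_card]
  have hc : ∀ t : T, ∃ c : Fin r → ZMod p, ∑ i, c i • (t.2.1 i : Fin k → ZMod p) = t.2.2.1 := by
    intro t
    have hu := t.2.2.2
    rw [mem_filter] at hu
    have h1 : (t.1.1 : Set (Fin k → ZMod p)) = Set.range (fun i => (t.2.1 i : Fin k → ZMod p)) := by
      ext v
      constructor
      · intro hv
        exact ⟨t.2.1.symm ⟨v, hv⟩, by simp⟩
      · rintro ⟨i, rfl⟩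
        exact (t.2.1 i).2
    have h2 := Submodule.span_mono (R := ZMod p) h1.le hu.2.2
    exact (Submodule.mem_span_range_iff_exists_fun (ZMod p)).1 h2
  choose c hc using hc
  let F : T → {q : (Fin r → ZMod p) × (Fin r → (Fin k → ZMod p)) //
    (∀ i, q.1 ≠ Pi.single i 1) ∧ (∀ i, q.2 i ∈ S) ∧ (∑ i, q.1 i • q.2 i) ∈ S} := fun t =>
    ⟨(c t, fun i => (t.2.1 i : Fin k → ZMod p)), by
      have hu := t.2.2.2
      rw [mem_filter] at hu
      have hB := t.1.2
      rw [mem_filter, mem_powersetCard] at hB
      refine ⟨?_, ?_, ?_⟩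
      · intro i hi
        apply hu.2.1
        have h3 := hc t
        simp only at hi
        rw [hi] at h3
        simp only [Pi.single_apply, ite_smul, one_smul, zero_smul, Finset.sum_ite_eq',
          Finset.mem_univ, if_true] at h3
        rw [← h3]
        exact (t.2.1 i).2
      · intro i
        exact hB.1.1 (t.2.1 i).2
      · rw [hc t]
        exact hu.1⟩
  have hF : Function.Injective F := by
    intro t t' h
    have h1 : (c t, fun i => (t.2.1 i : Fin k → ZMod p)) =
      (c t', fun i => (t'.2.1 i : Fin k → ZMod p)) := congrArg Subtype.val h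
    have h2 := congrArg Prod.fst h1
    have h3 := congrArg Prod.snd h1
    simp only at h2 h3
    have hu : t.2.2.1 = t'.2.2.1 := by
      rw [← hc t, ← hc t', h2]
      apply Finset.sum_congr rfl
      intro i _
      rw [congrFun h3 i]
    obtain ⟨⟨B, hB⟩, e, ⟨u, hu1⟩⟩ := t
    obtain ⟨⟨B', hB'⟩, e', ⟨u', hu1'⟩⟩ := t'
    simp only at h3 hu
    subst hu
    have hBB : B = B' := by
      ext v
      constructor
      · intro hv
        have := congrFun h3 (e.symm ⟨v, hv⟩)
        simp only [Equiv.apply_symm_apply] at this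
        rw [this]
        exact (e' _).2
      · intro hv
        have := congrFun h3 (e'.symm ⟨v, hv⟩)
        simp only [Equiv.apply_symm_apply] at this
        rw [← this]
        exact (e _).2
    subst hBB
    have hee : e = e' := by
      ext i
      exact congrFun (congrFun h3 i) _
    subst hee
    rfl
  exact Nat.card_le_card_of_injective F hF


open Classical in
/-- number of dependent `j`-subsets -/
noncomputable def dep (S : Finset (Fin k → ZMod p)) (j : ℕ) : ℕ :=
  ((powersetCard j S).filter (fun B => ¬ Ind B)).card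

open Classical in
theorem dep_le [Fact p.Prime] (S : Finset (Fin k → ZMod p)) (j : ℕ) :
    dep S j ≤ ∑ r ∈ range j, (∑ B ∈ (powersetCard r S).filter Ind, X S B) *
      (S.card.choose (j - 1 - r)) := by
  have hsub : (powersetCard j S).filter (fun B => ¬ Ind B) ⊆
      (range j).biUnion (fun r => ((powersetCard r S).filter Ind).biUnion (fun B =>
        (S.filter (fun u => u ∉ B ∧ u ∈ Submodule.span (ZMod p) (B : Set (Fin k → ZMod p)))).biUnion
          (fun u => (powersetCard (j - 1 - r) S).image (fun E => insert u (B ∪ E))))) := by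
    intro D hD
    rw [mem_filter, mem_powersetCard] at hD
    obtain ⟨⟨hDS, hDj⟩, hDd⟩ := hD
    obtain ⟨B, -, hBD, hB, hsp⟩ := exists_max ∅ D ind_empty (empty_subset _)
    have hne : B ≠ D := fun h => hDd (h ▸ hB)
    obtain ⟨u, huD, huB⟩ := Finset.exists_of_ssubset (hBD.ssubset_of_ne hne)
    have hlt : B.card < D.card := Finset.card_lt_card (hBD.ssubset_of_ne hne)
    have hu' : u ∈ D \ B := by simp [huD, huB]
    have hE : ((D \ B).erase u).card = j - 1 - B.card := by
      rw [card_erase_of_mem hu', card_sdiff_of_subset hBD]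
      omega
    simp only [mem_biUnion, mem_range, mem_filter, mem_powersetCard, mem_image]
    refine ⟨B.card, by omega, B, ⟨⟨hBD.trans hDS, rfl⟩, hB⟩, u, ⟨hDS huD, huB, hsp u huD⟩,
      (D \ B).erase u, ⟨?_, hE⟩, ?_⟩
    · exact (erase_subset _ _).trans (sdiff_subset.trans hDS)
    · ext v
      simp only [mem_insert, mem_union, mem_erase, mem_sdiff]
      constructor
      · rintro (rfl | h | h)
        · exact huD
        · exact hBD h
        · exact h.2.1
      · intro hv
        by_cases h1 : v = u
        · exact Or.inl h1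
        · by_cases h2 : v ∈ B
          · exact Or.inr (Or.inl h2)
          · exact Or.inr (Or.inr ⟨h1, hv, h2⟩)
  refine (card_le_card hsub).trans (card_biUnion_le.trans (sum_le_sum fun r _ => ?_))
  refine card_biUnion_le.trans ?_
  rw [Finset.sum_mul]
  refine sum_le_sum fun B _ => ?_
  refine card_biUnion_le.trans ?_
  refine (sum_le_card_nsmul _ _ (S.card.choose (j - 1 - r)) ?_).trans ?_
  · intro u _
    refine card_image_le.trans ?_
    rw [card_powersetCard]
  · rw [smul_eq_mul]
    rfl

open Classical in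
theorem conv {α : Type*} (S : Finset α) (m : ℕ) (P : Finset α → Prop) (g : Finset α → ℝ) :
    ∑ B ∈ S.powerset.filter (fun B => B.card ≤ m ∧ P B), g B
      = ∑ r ∈ range (m + 1), ∑ B ∈ (powersetCard r S).filter P, g B := by
  rw [← Finset.sum_fiberwise_of_maps_to (t := range (m + 1)) (g := Finset.card)]
  · apply sum_congr rfl
    intro r hr
    rw [mem_range] at hr
    apply sum_congr _ (fun _ _ => rfl)
    ext B
    simp only [mem_filter, mem_powerset, mem_powersetCard]
    constructor
    · rintro ⟨⟨h1, h2, h3⟩, h4⟩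
      exact ⟨⟨h1, h4⟩, h3⟩
    · rintro ⟨⟨h1, h4⟩, h3⟩
      exact ⟨⟨h1, by omega, h3⟩, h4⟩
  · intro B hB
    rw [mem_filter] at hB
    rw [mem_range]
    omega

open Classical in
theorem pointwise [Fact p.Prime] (S Z : Finset (Fin k → ZMod p)) (hZ : Z ⊆ S) (l : ℕ) :
    (if Z = ∅ then (1 : ℝ) else 0) ≤
      ∑ B ∈ Z.powerset.filter (fun B => B.card ≤ 2 * l ∧ Ind B), (-1 : ℝ) ^ B.card
      + ∑ B ∈ Z.powerset.filter (fun B => B.card ≤ 4 * l ∧ Ind B), (2 : ℝ) ^ B.card * (X S B : ℝ) := by
  have hnn : 0 ≤ ∑ B ∈ Z.powerset.filter (fun B => B.card ≤ 4 * l ∧ Ind B),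
      (2 : ℝ) ^ B.card * (X S B : ℝ) := sum_nonneg fun B _ => by positivity
  by_cases hG : ∀ D ⊆ Z, D.card ≤ 2 * l → Ind D
  · have h1 : ∑ B ∈ Z.powerset.filter (fun B => B.card ≤ 2 * l ∧ Ind B), (-1 : ℝ) ^ B.card
        = ∑ r ∈ range (2 * l + 1), (-1 : ℝ) ^ r * (Z.card.choose r) * 1 ^ r := by
      rw [conv]
      apply sum_congr rfl
      intro r hr
      rw [mem_range] at hr
      have h2 : (powersetCard r Z).filter Ind = powersetCard r Z := by
        apply filter_true_of_mem
        intro B hB
        rw [mem_powersetCard] at hB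
        exact hG B hB.1 (by omega)
      rw [h2]
      rw [sum_congr rfl (g := fun _ => (-1 : ℝ) ^ r)]
      · rw [sum_const, card_powersetCard, nsmul_eq_mul]; ring
      · intro B hB
        rw [mem_powersetCard] at hB
        rw [hB.2]
    obtain ⟨h2, -⟩ := bonf_aux 1 zero_le_one le_rfl Z.card (2 * l + 1)
    rw [← h1] at h2
    have h3 : (-1 : ℝ) ^ (2 * l + 1) = -1 := by
      rw [pow_succ, pow_mul]; simp
    rw [h3] at h2
    have h4 : (if Z = ∅ then (1 : ℝ) else 0) = (1 - 1 : ℝ) ^ Z.card := by
      split_ifs with h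
      · simp [h]
      · rw [sub_self, zero_pow]
        rwa [Ne, card_eq_zero]
    rw [h4]
    linarith
  · push Not at hG
    obtain ⟨D, hDZ, hDc, hD⟩ := hG
    have hZne : Z ≠ ∅ := by
      rintro rfl
      rw [subset_empty] at hDZ
      exact hD (hDZ ▸ ind_empty)
    rw [if_neg hZne]
    have h1 : -((Z.powerset.filter (fun B => B.card ≤ 2 * l ∧ Ind B)).card : ℝ) ≤
        ∑ B ∈ Z.powerset.filter (fun B => B.card ≤ 2 * l ∧ Ind B), (-1 : ℝ) ^ B.card := by
      rw [card_eq_sum_ones]
      push_cast
      rw [← sum_neg_distrib]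
      apply sum_le_sum
      intro B _
      rcases neg_one_pow_eq_or ℝ B.card with h | h <;> rw [h]
      norm_num
    have h2 : ((Z.powerset.filter (fun B => B.card ≤ 2 * l ∧ Ind B)).card : ℝ) ≤
        ∑ B ∈ Z.powerset.filter (fun B => B.card ≤ 4 * l ∧ Ind B), (2 : ℝ) ^ B.card * (X S B : ℝ) := by
      have hsub : Z.powerset.filter (fun B => B.card ≤ 2 * l ∧ Ind B) ⊆
          ((Z.powerset.filter (fun B => B.card ≤ 4 * l ∧ Ind B)).filter (fun B => 1 ≤ X S B)).biUnion
            (fun B => B.powerset) := by
        intro J hJ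
        rw [mem_filter, mem_powerset] at hJ
        obtain ⟨hJZ, hJc, hJ⟩ := hJ
        obtain ⟨B, hJB, hBT, hB, hsp⟩ := exists_max J (J ∪ D) hJ subset_union_left
        simp only [mem_biUnion, mem_filter, mem_powerset]
        refine ⟨B, ⟨⟨hBT.trans (union_subset hJZ hDZ), ?_, hB⟩, ?_⟩, hJB⟩
        · have := card_le_card hBT
          have := card_union_le J D
          omega
        · have hne : ¬ (D ⊆ B) := fun h => hD (hB.mono h)
          obtain ⟨u, huD, huB⟩ := Finset.not_subset.1 hne
          rw [X, Nat.one_le_iff_ne_zero, Ne, card_eq_zero]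
          apply Finset.ne_empty_of_mem (a := u)
          rw [mem_filter]
          exact ⟨hZ (hDZ huD), huB, hsp u (mem_union_right _ huD)⟩
      have h3 := (card_le_card hsub).trans card_biUnion_le
      calc ((Z.powerset.filter (fun B => B.card ≤ 2 * l ∧ Ind B)).card : ℝ)
          ≤ ((∑ B ∈ (Z.powerset.filter (fun B => B.card ≤ 4 * l ∧ Ind B)).filter
              (fun B => 1 ≤ X S B), B.powerset.card : ℕ) : ℝ) := by exact_mod_cast h3
        _ ≤ ∑ B ∈ (Z.powerset.filter (fun B => B.card ≤ 4 * l ∧ Ind B)).filter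
              (fun B => 1 ≤ X S B), (2 : ℝ) ^ B.card * (X S B : ℝ) := by
            push_cast
            apply sum_le_sum
            intro B hB
            rw [mem_filter] at hB
            rw [card_powerset]
            push_cast
            have : (1 : ℝ) ≤ X S B := by exact_mod_cast hB.2
            have h2 : (0 : ℝ) < 2 ^ B.card := by positivity
            nlinarith
        _ ≤ _ := by
            apply sum_le_sum_of_subset_of_nonneg (filter_subset _ _)
            intro B _ _
            positivity
    linarith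

open Classical in
theorem sum_exchange [Fact p.Prime] (d : ℕ) (S : Finset (Fin k → ZMod p)) (m : ℕ)
    (w : Finset (Fin k → ZMod p) → ℝ) :
    ∑ L : Matrix (Fin d) (Fin k) (ZMod p),
      ∑ B ∈ (S.filter (fun s => L.mulVec s = 0)).powerset.filter (fun B => B.card ≤ m ∧ Ind B), w B
      = (p : ℝ) ^ (d * k) * ∑ r ∈ range (m + 1), (1 / (p : ℝ) ^ d) ^ r *
        ∑ B ∈ (powersetCard r S).filter Ind, w B := by
  rw [Finset.sum_comm' (t' := S.powerset.filter (fun B => B.card ≤ m ∧ Ind B))
    (s' := fun B => Ker d B)]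
  · rw [sum_congr rfl (g := fun B => (p : ℝ) ^ (d * k) * ((1 / (p : ℝ) ^ d) ^ B.card * w B))]
    · rw [← mul_sum, conv]
      congr 1
      apply sum_congr rfl
      intro r _
      rw [mul_sum]
      apply sum_congr rfl
      intro B hB
      rw [mem_filter, mem_powersetCard] at hB
      rw [hB.1.2]
    · intro B hB
      rw [mem_filter] at hB
      rw [sum_const, nsmul_eq_mul, card_ker_real d B hB.2.2]
      ring
  · intro L B
    simp only [mem_univ, true_and, mem_filter, mem_powerset, Ker]
    constructor
    · rintro ⟨h1, h2⟩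
      refine ⟨fun b hb => ?_, fun b hb => ?_, h2⟩
      · have := h1 hb
        rw [mem_filter] at this
        exact this.2
      · have := h1 hb
        rw [mem_filter] at this
        exact this.1
    · rintro ⟨h1, h2, h3⟩
      refine ⟨fun b hb => ?_, h3⟩
      rw [mem_filter]
      exact ⟨h2 hb, h1 b hb⟩

theorem sum_inv_fact (n : ℝ) (i : ℕ) :
    ∑ r ∈ range (i + 1), n ^ r / r.factorial * (n ^ (i - r) / (i - r).factorial)
      = (2 * n) ^ i / i.factorial := by
  rw [two_mul, add_pow, Finset.sum_div]
  apply sum_congr rfl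
  intro r hr
  rw [mem_range] at hr
  rw [Nat.cast_choose ℝ (show r ≤ i by omega)]
  have h1 : (r.factorial : ℝ) ≠ 0 := by positivity
  have h2 : ((i - r).factorial : ℝ) ≠ 0 := by positivity
  have h3 : (i.factorial : ℝ) ≠ 0 := by positivity
  field_simp

end Base

open Base in
open Classical in
theorem base : S_BASE := by
  intro p k d l S π hp hπ hrel
  have : Fact p.Prime := ⟨hp⟩
  have hp1 : (1 : ℝ) ≤ (p : ℝ) := by exact_mod_cast hp.one_lt.le
  have hpd : (1 : ℝ) ≤ (p : ℝ) ^ d := one_le_pow₀ hp1
  set x : ℝ := 1 / (p : ℝ) ^ d with hx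
  have hx0 : 0 < x := by positivity
  have hx1 : x ≤ 1 := by
    rw [hx, div_le_one (by positivity)]; exact hpd
  have hV : (S.card : ℝ) / (p : ℝ) ^ d = S.card * x := by rw [hx]; ring
  rw [hV]
  set n : ℝ := (S.card : ℝ) with hn
  have hn0 : 0 ≤ n := by positivity
  -- bounds for `A r`
  let A : ℕ → ℝ := fun r => ∑ B ∈ (powersetCard r S).filter Ind, (X S B : ℝ)
  have hA : ∀ r ≤ 4 * l, A r ≤ π * (n ^ r / r.factorial) := by
    intro r hr
    have h1 := sum_X_le S r
    have h2 : A r * r.factorial ≤ (relCount p S r : ℝ) := by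
      change (∑ B ∈ (powersetCard r S).filter Ind, (X S B : ℝ)) * r.factorial ≤ _
      exact_mod_cast h1
    have h3 := h2.trans (hrel r hr)
    rw [← mul_div_assoc, le_div_iff₀ (by positivity)]
    exact h3
  -- the left side
  have hleft : (Nat.card {L : Matrix (Fin d) (Fin k) (ZMod p) // ∀ s ∈ S, L.mulVec s ≠ 0} : ℝ)
      = ∑ L : Matrix (Fin d) (Fin k) (ZMod p),
        (if S.filter (fun s => L.mulVec s = 0) = ∅ then (1 : ℝ) else 0) := by
    rw [Nat.card_eq_fintype_card, Fintype.card_subtype, Finset.card_filter]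
    push_cast
    apply sum_congr rfl
    intro L _
    congr 1
    rw [filter_eq_empty_iff]
  have h1 := Finset.sum_le_sum (s := (univ : Finset (Matrix (Fin d) (Fin k) (ZMod p))))
    (fun L _ => pointwise S (S.filter (fun s => L.mulVec s = 0)) (filter_subset _ _) l)
  rw [← hleft, sum_add_distrib, sum_exchange, sum_exchange] at h1
  refine h1.trans ?_
  rw [mul_comm _ ((p : ℝ) ^ (d * k)), ← mul_add]
  apply mul_le_mul_of_nonneg_left _ (by positivity)
  rw [← hx]
  -- first sum
  have hfirst : ∑ r ∈ range (2 * l + 1), x ^ r * ∑ B ∈ (powersetCard r S).filter Ind, (-1 : ℝ) ^ B.card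
      ≤ ∑ r ∈ range (2 * l + 1), (-1 : ℝ) ^ r * (S.card.choose r) * x ^ r
        + ∑ r ∈ range (2 * l + 1), x ^ r * dep S r := by
    rw [← sum_add_distrib]
    apply sum_le_sum
    intro r _
    have h2 : ∑ B ∈ (powersetCard r S).filter Ind, (-1 : ℝ) ^ B.card
        = (-1 : ℝ) ^ r * ((S.card.choose r : ℝ) - dep S r) := by
      rw [sum_congr rfl (g := fun _ => (-1 : ℝ) ^ r)]
      · rw [sum_const, nsmul_eq_mul]
        have h3 := Finset.card_filter_add_card_filter_not (s := powersetCard r S) (Ind (p := p) (k := k))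
        rw [card_powersetCard] at h3
        have h4 : (((powersetCard r S).filter Ind).card : ℝ) + (dep S r : ℝ) = (S.card.choose r : ℝ) := by
          exact_mod_cast h3
        rw [← h4]; ring
      · intro B hB
        rw [mem_filter, mem_powersetCard] at hB
        rw [hB.1.2]
    rw [h2]
    have h5 : 0 ≤ x ^ r * (dep S r : ℝ) := by positivity
    rcases neg_one_pow_eq_or ℝ r with h | h <;> rw [h] <;> nlinarith
  have hdep : ∑ r ∈ range (2 * l + 1), x ^ r * dep S r ≤ π * Real.exp (2 * (n * x)) := by
    rw [Finset.sum_range_succ']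
    have h0 : dep S 0 = 0 := by
      have := dep_le S 0
      simpa using this
    rw [h0]
    simp only [Nat.cast_zero, mul_zero, add_zero]
    calc ∑ i ∈ range (2 * l), x ^ (i + 1) * (dep S (i + 1) : ℝ)
        ≤ ∑ i ∈ range (2 * l), π * ((2 * (n * x)) ^ i / i.factorial) := by
          apply sum_le_sum
          intro i hi
          rw [mem_range] at hi
          have h3 : (dep S (i + 1) : ℝ) ≤ π * ((2 * n) ^ i / i.factorial) := by
            calc (dep S (i + 1) : ℝ) ≤ ∑ r ∈ range (i + 1), A r * (S.card.choose (i + 1 - 1 - r) : ℝ) := by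
                  change _ ≤ ∑ r ∈ range (i + 1), (∑ B ∈ (powersetCard r S).filter Ind, (X S B : ℝ)) *
                    (S.card.choose (i + 1 - 1 - r) : ℝ)
                  exact_mod_cast dep_le S (i + 1)
              _ ≤ ∑ r ∈ range (i + 1), π * (n ^ r / r.factorial * (n ^ (i - r) / (i - r).factorial)) := by
                  apply sum_le_sum
                  intro r hr
                  rw [mem_range] at hr
                  rw [← mul_assoc]
                  apply mul_le_mul (hA r (by omega)) _ (by positivity) (by positivity)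
                  rw [Nat.add_sub_cancel]
                  exact Nat.choose_le_pow_div (α := ℝ) (i - r) S.card
              _ = _ := by rw [← mul_sum, sum_inv_fact]
          calc x ^ (i + 1) * (dep S (i + 1) : ℝ) ≤ x ^ (i + 1) * (π * ((2 * n) ^ i / i.factorial)) :=
                mul_le_mul_of_nonneg_left h3 (by positivity)
            _ = x * (π * ((2 * (n * x)) ^ i / i.factorial)) := by
                rw [mul_pow, mul_pow, mul_pow]; ring
            _ ≤ 1 * (π * ((2 * (n * x)) ^ i / i.factorial)) :=
                mul_le_mul_of_nonneg_right hx1 (by positivity)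
            _ = _ := one_mul _
      _ ≤ π * Real.exp (2 * (n * x)) := by
          rw [← mul_sum]
          exact mul_le_mul_of_nonneg_left (Real.sum_le_exp_of_nonneg (by positivity) _) hπ
  have hsecond : ∑ r ∈ range (4 * l + 1), x ^ r *
      ∑ B ∈ (powersetCard r S).filter Ind, (2 : ℝ) ^ B.card * (X S B : ℝ)
      ≤ π * Real.exp (2 * (n * x)) := by
    calc _ ≤ ∑ r ∈ range (4 * l + 1), π * ((2 * (n * x)) ^ r / r.factorial) := by
          apply sum_le_sum
          intro r hr
          rw [mem_range] at hr
          have h2 : ∑ B ∈ (powersetCard r S).filter Ind, (2 : ℝ) ^ B.card * (X S B : ℝ)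
              = 2 ^ r * A r := by
            rw [mul_sum]
            apply sum_congr rfl
            intro B hB
            rw [mem_filter, mem_powersetCard] at hB
            rw [hB.1.2]
          rw [h2]
          calc x ^ r * (2 ^ r * A r) ≤ x ^ r * (2 ^ r * (π * (n ^ r / r.factorial))) := by
                have := hA r (by omega)
                gcongr
            _ = _ := by rw [mul_pow, mul_pow]; ring
      _ ≤ π * Real.exp (2 * (n * x)) := by
          rw [← mul_sum]
          exact mul_le_mul_of_nonneg_left (Real.sum_le_exp_of_nonneg (by positivity) _) hπ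
  have hbp := bonf_poly x hx0.le hx1 S.card l
  have : Real.exp (-(n * x)) + (n * x) ^ (2 * l + 1) / ((2 * l + 1).factorial : ℝ)
      + 2 * Real.exp (2 * (n * x)) * π =
      (Real.exp (-(n * x)) + (n * x) ^ (2 * l + 1) / ((2 * l + 1).factorial : ℝ)
        + π * Real.exp (2 * (n * x))) + π * Real.exp (2 * (n * x)) := by ring
  rw [this]
  apply add_le_add _ hsecond
  linarith

end Vale.Agent.P230
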