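import Vale.Agent.P230.Defs

open MeasureTheory
open scoped ENNReal NNReal BigOperators

namespace Vale.Agent.P230

theorem basis_aux (ι : Type) [Fintype ι] [DecidableEq ι] (L : AddSubgroup (ι → ℤ))
    (hL : L.index ≠ 0) : Nonempty (Module.Basis ι ℤ (AddSubgroup.toIntSubmodule L)) := by
  have hle : Module.finrank ℤ (AddSubgroup.toIntSubmodule L) ≤ Module.finrank ℤ (ι → ℤ) :=
    Submodule.finrank_le _
  have hge : Module.finrank ℤ (ι → ℤ) ≤ Module.finrank ℤ (AddSubgroup.toIntSubmodule L) := by
    let f : (ι → ℤ) →ₗ[ℤ] (AddSubgroup.toIntSubmodule L) :=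
      LinearMap.codRestrict _ ((L.index : ℤ) • LinearMap.id) (fun x => by
        show (L.index : ℤ) • x ∈ L
        have h1 := L.nsmul_index_mem x
        rwa [← natCast_zsmul] at h1)
    have hf : Function.Injective f := by
      intro x y hxy
      have h1 : (L.index : ℤ) • x = (L.index : ℤ) • y := congrArg Subtype.val hxy
      funext i
      have h2 := congrFun h1 i
      simp only [Pi.smul_apply, smul_eq_mul] at h2
      exact mul_left_cancel₀ (by exact_mod_cast hL) h2
    exact LinearMap.finrank_le_finrank_of_injective hf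
  have heq : Module.finrank ℤ (AddSubgroup.toIntSubmodule L) = Fintype.card ι := by
    rw [le_antisymm hle hge, Module.finrank_pi]
  exact ⟨(Module.finBasisOfFinrankEq ℤ _ heq).reindex (Fintype.equivFin ι).symm⟩

theorem basis : S_BASIS := by
  intro ι _ _ L hL
  obtain ⟨bN⟩ := basis_aux ι L hL
  refine ⟨(Pi.basisFun ℤ ι).toMatrix ((↑) ∘ bN), ?_, fun v => ⟨fun hv => ?_, ?_⟩⟩
  · rw [← Module.Basis.det_apply, Submodule.natAbs_det_basis_change]
    rfl
  · have h1 := bN.sum_repr ⟨v, hv⟩
    refine ⟨bN.repr ⟨v, hv⟩, ?_⟩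
    have h2 := congrArg Subtype.val h1
    simp only [Submodule.coe_sum, Submodule.coe_smul] at h2
    funext i
    have h3 := congrFun h2 i
    rw [← h3]
    simp [Matrix.mulVec, dotProduct, Module.Basis.toMatrix_apply, mul_comm]
  · rintro ⟨z, rfl⟩
    have h1 : (Matrix.mulVec ((Pi.basisFun ℤ ι).toMatrix ((↑) ∘ bN)) z : ι → ℤ) =
        ((∑ j, z j • bN j : AddSubgroup.toIntSubmodule L) : ι → ℤ) := by
      funext i
      simp [Matrix.mulVec, dotProduct, Module.Basis.toMatrix_apply, mul_comm]
    rw [h1]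
    exact (∑ j, z j • bN j : AddSubgroup.toIntSubmodule L).2

end Vale.Agent.P230
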