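import Vale.Agent.P230.Defs

/-! Module BODY: spacings and slices of a normalised convex body. -/

open MeasureTheory Set
open scoped ENNReal NNReal BigOperators Pointwise

namespace Vale.Agent.P230

namespace Body

theorem redSet_mono {h s : ℝ} {k : ℕ} {A B : Set (Fin (k + 1) → ℝ)} (hAB : A ⊆ B) :
    redSet h s A ⊆ redSet h s B := by
  rintro y ⟨j, h1, h2⟩
  exact ⟨j, hAB h1, hAB h2⟩

theorem TreeSet_mono : ∀ (m : ℕ) (h s : Fin m → ℝ) {A B : Set (Fin m → ℝ)}, A ⊆ B →
    TreeSet m h s A → TreeSet m h s B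
  | 0, _, _, _, _, hAB, hA => hAB hA
  | m + 1, _, _, _, _, hAB, hA => TreeSet_mono m _ _ (redSet_mono hAB) hA

theorem TreeSet_nonempty : ∀ (m : ℕ) (h s : Fin m → ℝ) {A : Set (Fin m → ℝ)},
    TreeSet m h s A → A.Nonempty
  | 0, _, _, _, hA => ⟨_, hA⟩
  | m + 1, _, _, _, hA => by
    obtain ⟨y, j, h1, h2⟩ := TreeSet_nonempty m _ _ hA
    exact ⟨_, h1⟩

theorem quarter_le (n : ℕ) (hn : 2 ≤ n) : (1 / 4 : ℝ) ≤ (1 - 1 / (n : ℝ)) ^ n := by
  have hn' : (2 : ℝ) ≤ n := by exact_mod_cast hn
  have h0 : 1 / (n : ℝ) ≤ 1 := by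
    rw [div_le_one (by linarith)]; linarith
  have h1 := one_add_mul_self_le_rpow_one_add (s := - (1 / (n : ℝ))) (by linarith)
    (p := (n : ℝ) / 2) (by linarith)
  have h2 : (1 : ℝ) / 2 ≤ (1 - 1 / (n : ℝ)) ^ ((n : ℝ) / 2) := by
    have e : 1 + (n : ℝ) / 2 * (-(1 / (n : ℝ))) = 1 / 2 := by field_simp; ring
    rw [e] at h1
    simpa [sub_eq_add_neg] using h1
  have hc : 0 ≤ 1 - 1 / (n : ℝ) := by linarith
  calc (1 / 4 : ℝ) = (1 / 2) ^ 2 := by norm_num
    _ ≤ ((1 - 1 / (n : ℝ)) ^ ((n : ℝ) / 2)) ^ 2 := by gcongr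
    _ = (1 - 1 / (n : ℝ)) ^ n := by
      rw [← Real.rpow_natCast _ 2, ← Real.rpow_mul hc, ← Real.rpow_natCast _ n]
      congr 1
      push_cast
      ring

variable {N m : ℕ} {K : Set ((Fin N → ℝ) × (Fin m → ℝ))}

theorem eslice_subset (hK : Normal N m K) (t : Fin m → ℝ) : eslice K t ⊆ slice K t := by
  intro y hy
  have := hy 0 (fun i => by simp; positivity)
  simpa [slice] using this

theorem slice_subset (hK : Normal N m K) (t : Fin m → ℝ) :
    slice K t ⊆ Icc (fun _ => -1) (fun _ => 1) := by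
  intro y hy
  have h1 := (hK.outer _ hy).1
  exact ⟨fun i => (abs_le.mp (h1 i)).1, fun i => (abs_le.mp (h1 i)).2⟩

theorem vol_slice_le (hK : Normal N m K) (t : Fin m → ℝ) :
    volume (slice K t) ≤ 2 ^ N := by
  refine (measure_mono (slice_subset hK t)).trans ?_
  rw [Real.volume_Icc_pi]
  simp only [Finset.prod_const, Finset.card_univ, Fintype.card_fin]
  norm_num

theorem vol_slice_ne_top (hK : Normal N m K) (t : Fin m → ℝ) : volume (slice K t) ≠ ⊤ :=
  ((vol_slice_le hK t).trans_lt (by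
    exact ENNReal.pow_lt_top (by norm_num))).ne

theorem vol_ne_top (hK : Normal N m K) : volume K ≠ ⊤ := hK.compact.measure_lt_top.ne

/-- volume of a slice versus the volume of the body -/
theorem slice_vol (hN : 1 ≤ N) (hn : 2 ≤ N + m) (hK : Normal N m K) (t : Fin m → ℝ) :
    (volume (slice K t)).toReal ≤ 4 * ((N : ℝ) + m) ^ (2 * m) * (volume K).toReal := by
  have hn2 : (2 : ℝ) ≤ (N : ℝ) + m := by exact_mod_cast hn
  set n : ℝ := (N : ℝ) + m with hndef
  have hnpos : 0 < n := by linarith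
  set c : ℝ := 1 - 1 / n with hc
  have h1n : 1 / n ≤ 1 / 2 := one_div_le_one_div_of_le (by norm_num) hn2
  have hcpos : 0 < c := by rw [hc]; linarith
  have hc1 : c ≤ 1 := by
    rw [hc]
    have : 0 < 1 / n := by positivity
    linarith
  have hcq : 1 / 4 ≤ c ^ (N + m) := by
    have := quarter_le (N + m) hn
    push_cast at this
    exact this
  have hcN : 1 / 4 ≤ c ^ N := hcq.trans (pow_le_pow_of_le_one hcpos.le hc1 (Nat.le_add_right _ _))
  have hsub : (c • slice K t) ×ˢ (Icc (c • t) (fun j => (c • t) j + 1 / n ^ 2)) ⊆ K := by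
    rintro ⟨y', t'⟩ ⟨⟨y, hy, rfl⟩, ht'⟩
    have hinner : ((fun _ => 0, fun j => n * (t' j - c * t j)) : (Fin N → ℝ) × (Fin m → ℝ)) ∈ K := by
      refine hK.inner _ (fun i => ⟨le_refl _, ?_⟩) (fun j => ?_)
      · positivity
      · have h1 := ht'.1 j
        have h2 := ht'.2 j
        simp only [Pi.smul_apply, smul_eq_mul] at h1 h2
        constructor
        · apply mul_nonneg hnpos.le
          linarith
        · calc n * (t' j - c * t j) ≤ n * (1 / n ^ 2) := by
                gcongr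
                linarith
            _ = 1 / n := by field_simp
    have hcomb := hK.convex hy hinner hcpos.le (by positivity : 0 ≤ 1 / n) (by rw [hc]; ring)
    convert hcomb using 1
    ext i
    · simp
    · simp
      field_simp
      ring
  have hvol := measure_mono (μ := volume) hsub
  rw [Measure.volume_eq_prod, Measure.prod_prod, Measure.addHaar_smul, Real.volume_Icc_pi,
    ← Measure.volume_eq_prod] at hvol
  simp only [add_sub_cancel_left, Finset.prod_const, Finset.card_univ, Fintype.card_fin,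
    Module.finrank_fin_fun] at hvol
  have h3 := ENNReal.toReal_mono (vol_ne_top hK) hvol
  rw [ENNReal.toReal_mul, ENNReal.toReal_mul, ENNReal.toReal_pow,
    ENNReal.toReal_ofReal (abs_nonneg _), ENNReal.toReal_ofReal (by positivity),
    abs_of_pos (by positivity)] at h3
  have hS := ENNReal.toReal_nonneg (a := volume (slice K t))
  calc (volume (slice K t)).toReal
      = 4 * n ^ (2 * m) * (1 / 4 * (volume (slice K t)).toReal * (1 / n ^ 2) ^ m) := by
        rw [div_pow, one_pow, ← pow_mul]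
        field_simp
    _ ≤ 4 * n ^ (2 * m) * (c ^ N * (volume (slice K t)).toReal * (1 / n ^ 2) ^ m) := by gcongr
    _ ≤ 4 * n ^ (2 * m) * (volume K).toReal := by gcongr

theorem vol_lower (hn : 2 ≤ N + m) (hK : Normal N m K) :
    1 / ((N : ℝ) + m) ^ (N + m) ≤ (volume K).toReal := by
  have hn2 : (2 : ℝ) ≤ (N : ℝ) + m := by exact_mod_cast hn
  set n : ℝ := (N : ℝ) + m with hndef
  have hnpos : 0 < n := by linarith
  have hsub : (Icc (fun _ => 0) (fun _ => 1 / n) : Set (Fin N → ℝ)) ×ˢ
      (Icc (fun _ => 0) (fun _ => 1 / n) : Set (Fin m → ℝ)) ⊆ K := by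
    rintro ⟨y, t⟩ ⟨hy, ht⟩
    exact hK.inner _ (fun i => ⟨hy.1 i, hy.2 i⟩) (fun j => ⟨ht.1 j, ht.2 j⟩)
  have hvol := measure_mono (μ := volume) hsub
  rw [Measure.volume_eq_prod, Measure.prod_prod, Real.volume_Icc_pi, Real.volume_Icc_pi,
    ← Measure.volume_eq_prod] at hvol
  simp only [sub_zero, Finset.prod_const, Finset.card_univ, Fintype.card_fin] at hvol
  have h3 := ENNReal.toReal_mono (vol_ne_top hK) hvol
  rw [ENNReal.toReal_mul, ENNReal.toReal_pow, ENNReal.toReal_pow,
    ENNReal.toReal_ofReal (by positivity), ← pow_add, one_div, inv_pow] at h3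
  rwa [one_div]

/-- the shrunken interior -/
def shr (K : Set ((Fin N → ℝ) × (Fin m → ℝ))) : Set ((Fin N → ℝ) × (Fin m → ℝ)) :=
  {z | (1 - 1 / ((N : ℝ) + m))⁻¹ • (z + ((fun _ => - (1 / (2 * ((N : ℝ) + m) ^ 2))),
    (fun _ => - (1 / (2 * ((N : ℝ) + m) ^ 2))))) ∈ interior K}

theorem shr_open (K : Set ((Fin N → ℝ) × (Fin m → ℝ))) : IsOpen (shr K) := by
  apply isOpen_interior.preimage
  fun_prop

theorem shr_convex (hK : Convex ℝ K) : Convex ℝ (shr K) := by
  intro z hz w hw a b ha hb hab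
  have := hK.interior hz hw ha hb hab
  change _ ∈ interior K
  convert this using 1
  rw [smul_comm a, smul_comm b, ← smul_add]
  congr 1
  rw [smul_add, smul_add]
  have e : ∀ v : (Fin N → ℝ) × (Fin m → ℝ), v = a • v + b • v := by
    intro v; rw [← add_smul, hab, one_smul]
  conv_lhs => rw [e ((fun _ => - (1 / (2 * ((N : ℝ) + m) ^ 2))),
    (fun _ => - (1 / (2 * ((N : ℝ) + m) ^ 2))))]
  abel

theorem shr_vol (hK : Convex ℝ K) (hKc : IsCompact K) (hn : 2 ≤ N + m) :
    volume (shr K) = ENNReal.ofReal ((1 - 1 / ((N : ℝ) + m)) ^ (N + m)) * volume K := by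
  have hn2 : (2 : ℝ) ≤ (N : ℝ) + m := by exact_mod_cast hn
  have hnpos : 0 < (N : ℝ) + m := by linarith
  have h1n : 1 / ((N : ℝ) + m) ≤ 1 / 2 := one_div_le_one_div_of_le (by norm_num) hn2
  have hcpos : 0 < 1 - 1 / ((N : ℝ) + m) := by linarith
  have : Measure.IsAddHaarMeasure (volume : Measure ((Fin N → ℝ) × (Fin m → ℝ))) :=
    Measure.prod.instIsAddHaarMeasure _ _
  have h1 : volume (interior K) = volume K := by
    refine le_antisymm (measure_mono interior_subset) ?_
    have h2 : K ⊆ interior K ∪ frontier K := by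
      rw [hKc.isClosed.frontier_eq]
      intro z hz
      by_cases hz' : z ∈ interior K
      · exact Or.inl hz'
      · exact Or.inr ⟨hz, hz'⟩
    calc volume K ≤ volume (interior K ∪ frontier K) := measure_mono h2
      _ ≤ volume (interior K) + volume (frontier K) := measure_union_le _ _
      _ = volume (interior K) := by rw [hK.addHaar_frontier volume, add_zero]
  have e : shr K = (fun z => z + (((fun _ => - (1 / (2 * ((N : ℝ) + m) ^ 2))),
    (fun _ => - (1 / (2 * ((N : ℝ) + m) ^ 2)))) : (Fin N → ℝ) × (Fin m → ℝ))) ⁻¹'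
      (((1 - 1 / ((N : ℝ) + m))⁻¹ • ·) ⁻¹' interior K) := rfl
  rw [e, measure_preimage_add_right, Measure.addHaar_preimage_smul _ (inv_ne_zero hcpos.ne'), h1]
  congr 2
  rw [inv_pow, inv_inv, abs_of_pos (by positivity)]
  simp [Module.finrank_prod]

theorem shr_subset_eslice (hn : 2 ≤ N + m) (hK : Normal N m K) (t : Fin m → ℝ) :
    {y | (y, t) ∈ shr K} ⊆ eslice K t := by
  have hn2 : (2 : ℝ) ≤ (N : ℝ) + m := by exact_mod_cast hn
  intro y hy u hu
  set n : ℝ := (N : ℝ) + m with hndef
  have hnpos : 0 < n := by linarith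
  have h1n : 1 / n ≤ 1 / 2 := one_div_le_one_div_of_le (by norm_num) hn2
  have hcpos : 0 < 1 - 1 / n := by linarith
  have hz : (1 - 1 / n)⁻¹ • ((y, t) + (((fun _ => - (1 / (2 * n ^ 2))),
    (fun _ => - (1 / (2 * n ^ 2)))) : (Fin N → ℝ) × (Fin m → ℝ))) ∈ K := interior_subset hy
  have hinner : ((fun i => n * (1 / (2 * n ^ 2) + u i), fun _ => 1 / (2 * n)) :
      (Fin N → ℝ) × (Fin m → ℝ)) ∈ K := by
    refine hK.inner _ (fun i => ?_) (fun j => ?_)
    · have h1 := abs_le.mp (hu i)
      constructor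
      · apply mul_nonneg hnpos.le
        linarith
      · calc n * (1 / (2 * n ^ 2) + u i) ≤ n * (1 / (2 * n ^ 2) + 1 / (2 * n ^ 2)) := by
              gcongr
              exact h1.2
          _ = 1 / n := by field_simp; norm_num
    · constructor
      · positivity
      · rw [← hndef]
        apply one_div_le_one_div_of_le hnpos
        linarith
  have hcomb := hK.convex hz hinner hcpos.le (by positivity : 0 ≤ 1 / n) (by ring)
  rw [smul_smul, mul_inv_cancel₀ hcpos.ne', one_smul] at hcomb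
  convert hcomb using 1
  ext i
  · simp
    field_simp
    ring
  · simp
    field_simp
    ring

theorem shr_lc (hPL : S_PL) (hn : 2 ≤ N + m) (hK : Normal N m K) :
    LC (fun t : Fin m → ℝ => volume {y : Fin N → ℝ | (y, t) ∈ shr K}) := by
  have hopen := shr_open K
  have hslice : ∀ t : Fin m → ℝ, IsOpen {y : Fin N → ℝ | (y, t) ∈ shr K} := fun t =>
    hopen.preimage (by fun_prop : Continuous fun y : Fin N → ℝ => (y, t))
  refine ⟨?_, ?_, ?_, ?_⟩
  · intro τ
    rw [isOpen_iff_mem_nhds]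
    intro t ht
    obtain ⟨C, hC1, hC2, hC3⟩ := (hslice t).measurableSet.exists_lt_isCompact (μ := volume) ht
    have hsub : C ×ˢ {t} ⊆ shr K := by
      rintro ⟨y, t'⟩ ⟨hy, ht'⟩
      rw [mem_singleton_iff] at ht'
      dsimp at ht'
      subst ht'
      exact hC1 hy
    obtain ⟨U, V, hU, hV, hCU, htV, hUV⟩ := generalized_tube_lemma hC2 isCompact_singleton hopen hsub
    refine Filter.mem_of_superset (hV.mem_nhds (htV (mem_singleton t))) ?_
    intro t' ht'
    refine hC3.trans_le (measure_mono ?_)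
    intro y hy
    exact hUV ⟨hCU hy, ht'⟩
  · intro x y θ h0 h1
    have := hPL N θ ({z : Fin N → ℝ | (z, x) ∈ shr K}.indicator 1)
      ({z : Fin N → ℝ | (z, y) ∈ shr K}.indicator 1)
      ({z : Fin N → ℝ | (z, (1 - θ) • x + θ • y) ∈ shr K}.indicator 1) h0 h1
      (measurable_one.indicator (hslice _).measurableSet)
      (measurable_one.indicator (hslice _).measurableSet)
      (measurable_one.indicator (hslice _).measurableSet) ?_
    · rwa [lintegral_indicator_one (hslice _).measurableSet,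
        lintegral_indicator_one (hslice _).measurableSet,
        lintegral_indicator_one (hslice _).measurableSet] at this
    · intro u v
      by_cases hu : (u, x) ∈ shr K
      · by_cases hv : (v, y) ∈ shr K
        · have hmem : ((1 - θ) • u + θ • v, (1 - θ) • x + θ • y) ∈ shr K := by
            have := shr_convex hK.convex hu hv (by linarith : 0 ≤ 1 - θ) h0.le (by ring)
            simpa using this
          rw [indicator_of_mem (by exact hu), indicator_of_mem (by exact hv),
            indicator_of_mem (by exact hmem)]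
          simp
        · rw [indicator_of_notMem (s := {z : Fin N → ℝ | (z, y) ∈ shr K}) (by exact hv),
            ENNReal.zero_rpow_of_pos h0, mul_zero]
          exact zero_le
      · rw [indicator_of_notMem (s := {z : Fin N → ℝ | (z, x) ∈ shr K}) (by exact hu),
          ENNReal.zero_rpow_of_pos (by linarith), zero_mul]
        exact zero_le
  · refine ⟨2 ^ N, (ENNReal.pow_lt_top (by norm_num)).ne, fun t => ?_⟩
    exact (measure_mono ((shr_subset_eslice hn hK t).trans (eslice_subset hK t))).trans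
      (vol_slice_le hK t)
  · intro t ht i
    have hne : {y : Fin N → ℝ | (y, t) ∈ shr K}.Nonempty := by
      rw [nonempty_iff_ne_empty]
      intro h
      apply ht
      rw [h, measure_empty]
    obtain ⟨y, hy⟩ := hne
    exact (hK.outer _ (eslice_subset hK t (shr_subset_eslice hn hK t hy))).2 i

end Body

open Body in
theorem body (hTree : S_TREE) (hPL : S_PL) : S_BODY := by
  intro N m K hN hn hK
  have hn2 : (2 : ℝ) ≤ (N : ℝ) + m := by exact_mod_cast hn
  have hlow := vol_lower hn hK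
  have hslice := slice_vol hN hn hK
  have hLC := shr_lc hPL hn hK
  have hvol := shr_vol hK.convex hK.compact hn
  have hq := quarter_le (N + m) hn
  push_cast at hq
  have hint : ∫⁻ t : Fin m → ℝ, volume {y : Fin N → ℝ | (y, t) ∈ shr K} = volume (shr K) := by
    rw [Measure.volume_eq_prod, Measure.prod_apply_symm (shr_open K).measurableSet]
    rfl
  set n : ℝ := (N : ℝ) + m with hndef
  have hnpos : 0 < n := by linarith
  set V : ℝ := (volume K).toReal with hV
  have hVpos : 0 < V := lt_of_lt_of_le (by positivity) hlow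
  have h1n : 1 / n ≤ 1 / 2 := one_div_le_one_div_of_le (by norm_num) hn2
  have hcpos : 0 < 1 - 1 / n := by linarith
  set I : ℝ := (1 - 1 / n) ^ (N + m) * V with hI
  have hIpos : 0 < I := by positivity
  have hintI : ∫⁻ t : Fin m → ℝ, volume {y : Fin N → ℝ | (y, t) ∈ shr K} = ENNReal.ofReal I := by
    rw [hint, hvol, hI, ENNReal.ofReal_mul (by positivity), hV, ENNReal.ofReal_toReal (vol_ne_top hK)]
  obtain ⟨h, hh, htree⟩ := hTree m _ hLC (by
    rw [hintI, Ne, ENNReal.ofReal_eq_zero]
    linarith)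
  rw [hintI] at htree
  have hP : 0 < ∏ j, h j := Finset.prod_pos fun j _ => (hh j).1
  have hP1 : ∏ j, h j ≤ 1 := Finset.prod_le_one (fun j _ => (hh j).1.le) fun j _ => (hh j).2
  set P : ℝ := (2 * Real.exp 1) ^ m * ∏ j, h j with hPdef
  have hPpos : 0 < P := by positivity
  have he6 : (2 * Real.exp 1) ^ m ≤ 6 ^ m := by
    gcongr
    have := Real.exp_one_lt_d9
    linarith
  have hP6 : P ≤ 6 ^ m := by
    rw [hPdef]
    calc (2 * Real.exp 1) ^ m * ∏ j, h j ≤ 6 ^ m * 1 := by gcongr
      _ = 6 ^ m := mul_one _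
  set τ : ℝ := I / (2 * P) with hτ
  have hτpos : 0 < τ := by positivity
  have hVτ : V ≤ 8 * P * τ := by
    have e : 8 * P * τ = 4 * I := by rw [hτ]; field_simp; norm_num
    rw [e, hI]
    nlinarith
  have htr : ∀ s, TreeSet m h s {t | τ < (volume (eslice K t)).toReal} := by
    intro s
    have h1 := htree (ENNReal.ofReal τ) (by
      rw [← ENNReal.ofReal_mul hPpos.le]
      apply (ENNReal.ofReal_lt_ofReal_iff hIpos).mpr
      rw [hτ]
      have : P * (I / (2 * P)) = I / 2 := by field_simp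
      rw [this]
      linarith) s
    refine TreeSet_mono m h s ?_ h1
    intro t ht
    have h2 : ENNReal.ofReal τ < volume (eslice K t) :=
      lt_of_lt_of_le ht (measure_mono (shr_subset_eslice hn hK t))
    have h3 : volume (eslice K t) ≠ ⊤ :=
      ne_top_of_le_ne_top (vol_slice_ne_top hK t) (measure_mono (eslice_subset hK t))
    exact (ENNReal.ofReal_lt_iff_lt_toReal hτpos.le h3).mp h2
  have hsl : ∀ t, (volume (slice K t)).toReal ≤
      32 * (n ^ (2 * m) * (2 * Real.exp 1) ^ m) * (∏ j, h j) * τ := by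
    intro t
    calc (volume (slice K t)).toReal ≤ 4 * n ^ (2 * m) * V := hslice t
      _ ≤ 4 * n ^ (2 * m) * (8 * P * τ) := by gcongr
      _ = 32 * (n ^ (2 * m) * (2 * Real.exp 1) ^ m) * (∏ j, h j) * τ := by rw [hPdef]; ring
  have h6 : n ^ (2 * m) * (2 * Real.exp 1) ^ m ≤ (6 * n ^ 2) ^ m := by
    rw [mul_pow 6 (n ^ 2) m, ← pow_mul, mul_comm]
    gcongr
  obtain ⟨t0, ht0⟩ := TreeSet_nonempty m h 0 (htr 0)
  have ht0' : τ < (volume (slice K t0)).toReal := lt_of_lt_of_le ht0
    (ENNReal.toReal_mono (vol_slice_ne_top hK t0) (measure_mono (eslice_subset hK t0)))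
  refine ⟨h, τ, hh, hτpos, ?_, htr, ?_, ?_, ?_, ?_⟩
  · calc V ≤ 8 * P * τ := hVτ
      _ = _ := by rw [hPdef]; ring
  · intro t
    calc (volume (slice K t)).toReal ≤
        32 * (n ^ (2 * m) * (2 * Real.exp 1) ^ m) * (∏ j, h j) * τ := hsl t
      _ ≤ 32 * ((6 * n ^ 2) ^ m) * 1 * τ := by gcongr
      _ = _ := by ring
  · rw [div_le_iff₀ (by positivity)]
    have h7 := ht0'.trans_le (hsl t0)
    have h8 : τ < (32 * (6 * n ^ 2) ^ m * ∏ j, h j) * τ := by
      refine h7.trans_le ?_
      calc 32 * (n ^ (2 * m) * (2 * Real.exp 1) ^ m) * (∏ j, h j) * τ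
          ≤ 32 * ((6 * n ^ 2) ^ m) * (∏ j, h j) * τ := by gcongr
        _ = _ := by ring
    have h9 : 1 * τ < (32 * (6 * n ^ 2) ^ m * ∏ j, h j) * τ := by rwa [one_mul]
    have h10 := lt_of_mul_lt_mul_right h9 hτpos.le
    linarith
  · have h7 : 1 / n ^ (N + m) ≤ 8 * 6 ^ m * τ := by
      calc 1 / n ^ (N + m) ≤ V := hlow
        _ ≤ 8 * P * τ := hVτ
        _ ≤ 8 * 6 ^ m * τ := by gcongr
    rw [div_le_iff₀ (by positivity)] at h7 ⊢
    linarith
  · have h7 : (volume (slice K t0)).toReal ≤ 2 ^ N := by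
      have := ENNReal.toReal_mono (ENNReal.pow_lt_top (by norm_num)).ne (vol_slice_le hK t0)
      simpa using this
    linarith

end Vale.Agent.P230
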