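import Vale.Agent.P230.Defs

/-! # P230, module COUNTA -/

open MeasureTheory
open scoped ENNReal NNReal BigOperators

namespace Vale.Agent.P230

/-- packing: disjoint cubes inside `Q` -/
lemma cube_pack {N H : ℕ} {S : Finset (Fin N → ℤ)} {Q : Set (Fin N → ℝ)}
    (hQ : volume Q ≠ ⊤) (hC : CubesIn S H Q) (F : Finset (Fin N → ℤ))
    (φ : (Fin N → ℤ) → (Fin N → ℤ)) (hφ : ∀ v ∈ F, φ v ∈ S)
    (hsep : ∀ v ∈ F, ∀ v' ∈ F, v ≠ v' → ∃ i, (H : ℤ) ≤ |φ v i - φ v' i|) :
    (F.card : ℝ) * (H : ℝ) ^ N ≤ (volume Q).toReal := by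
  set c : (Fin N → ℤ) → Set (Fin N → ℝ) := fun v =>
    Set.pi Set.univ (fun i => Set.Ico ((φ v i : ℝ)) ((φ v i : ℝ) + H)) with hc
  have hvol : ∀ v, volume (c v) = ENNReal.ofReal ((H : ℝ) ^ N) := by
    intro v
    rw [hc, volume_pi_pi]
    simp only [Real.volume_Ico, add_sub_cancel_left, Finset.prod_const, Finset.card_univ,
      Fintype.card_fin]
    rw [ENNReal.ofReal_pow (Nat.cast_nonneg H)]
  have hmeas : ∀ v, MeasurableSet (c v) := fun v =>
    MeasurableSet.univ_pi fun i => measurableSet_Ico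
  have hdisj : (F : Set (Fin N → ℤ)).PairwiseDisjoint c := by
    intro v hv v' hv' hne
    obtain ⟨i, hi⟩ := hsep v hv v' hv' hne
    rw [Function.onFun, Set.disjoint_left]
    intro x hx hx'
    have h1 := hx i (Set.mem_univ _)
    have h2 := hx' i (Set.mem_univ _)
    have h3 : |((φ v i : ℝ)) - φ v' i| < H := by
      rw [abs_lt]
      constructor <;> linarith [h1.1, h1.2, h2.1, h2.2]
    have h4 : ((H : ℤ) : ℝ) ≤ ((|φ v i - φ v' i| : ℤ) : ℝ) := by exact_mod_cast hi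
    push_cast at h4
    linarith
  have hsub : (⋃ v ∈ F, c v) ⊆ Q := by
    intro x hx
    simp only [Set.mem_iUnion] at hx
    obtain ⟨v, hv, hx⟩ := hx
    exact hC (φ v) (hφ v hv) x fun i => ⟨(hx i (Set.mem_univ _)).1, (hx i (Set.mem_univ _)).2⟩
  have h1 : volume (⋃ v ∈ F, c v) = F.card * ENNReal.ofReal ((H : ℝ) ^ N) := by
    rw [measure_biUnion_finset hdisj fun v _ => hmeas v]
    simp [hvol]
  have h2 := measure_mono (μ := volume) hsub
  rw [h1] at h2
  have h3 := ENNReal.toReal_mono hQ h2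
  rw [ENNReal.toReal_mul, ENNReal.toReal_natCast, ENNReal.toReal_ofReal (by positivity)] at h3
  exact h3

/-- Thue's lemma -/
lemma thue (p : ℕ) (hp : p.Prime) (x : ZMod p) :
    ∃ a b : ℤ, 1 ≤ a ∧ a ≤ Nat.sqrt p ∧ |b| ≤ Nat.sqrt p ∧ (a : ZMod p) * x = (b : ZMod p) := by
  have : Fact p.Prime := ⟨hp⟩
  set n := Nat.sqrt p with hn
  have hnp : n < p := Nat.sqrt_lt_self hp.one_lt
  have hcard : Fintype.card (ZMod p) < Fintype.card (Fin (n + 1) × Fin (n + 1)) := by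
    rw [ZMod.card, Fintype.card_prod, Fintype.card_fin]
    exact Nat.lt_succ_sqrt p
  obtain ⟨s, t, hst, hf⟩ := Fintype.exists_ne_map_eq_of_card_lt
    (fun s : Fin (n + 1) × Fin (n + 1) => ((s.1 : ℕ) : ZMod p) * x - ((s.2 : ℕ) : ZMod p)) hcard
  have hs1 := s.1.2
  have hs2 := s.2.2
  have ht1 := t.1.2
  have ht2 := t.2.2
  -- ordered version
  have key : ∀ s t : Fin (n + 1) × Fin (n + 1), (t.1 : ℕ) < (s.1 : ℕ) →
      ((s.1 : ℕ) : ZMod p) * x - ((s.2 : ℕ) : ZMod p) = ((t.1 : ℕ) : ZMod p) * x - ((t.2 : ℕ) : ZMod p) →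
      ∃ a b : ℤ, 1 ≤ a ∧ a ≤ n ∧ |b| ≤ n ∧ (a : ZMod p) * x = (b : ZMod p) := by
    intro s t hlt he
    have hs1 := s.1.2
    have hs2 := s.2.2
    have ht1 := t.1.2
    have ht2 := t.2.2
    refine ⟨(s.1 : ℕ) - (t.1 : ℕ), (s.2 : ℕ) - (t.2 : ℕ), by omega, by omega, ?_, ?_⟩
    · rw [abs_le]
      constructor <;> omega
    · push_cast
      linear_combination he
  rcases lt_trichotomy (t.1 : ℕ) (s.1 : ℕ) with h | h | h
  · exact key s t h hf
  · exfalso
    apply hst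
    rw [h] at hf
    have h2 : ((s.2 : ℕ) : ZMod p) = ((t.2 : ℕ) : ZMod p) := by linear_combination -hf
    rw [ZMod.natCast_eq_natCast_iff'] at h2
    rw [Nat.mod_eq_of_lt (by omega), Nat.mod_eq_of_lt (by omega)] at h2
    exact Prod.ext (Fin.ext h.symm) (Fin.ext h2)
  · exact key t s h hf.symm

/-- coprime version of Thue's lemma -/
lemma thue_coprime (p : ℕ) (hp : p.Prime) (x : ZMod p) :
    ∃ a b : ℤ, 1 ≤ a ∧ a ≤ Nat.sqrt p ∧ |b| ≤ Nat.sqrt p ∧ IsCoprime a b ∧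
      (a : ZMod p) * x = (b : ZMod p) := by
  have : Fact p.Prime := ⟨hp⟩
  obtain ⟨a, b, ha1, ha2, hb, hab⟩ := thue p hp x
  have hnp : Nat.sqrt p < p := Nat.sqrt_lt_self hp.one_lt
  have hg0 : 0 < Int.gcd a b := Int.gcd_pos_of_ne_zero_left _ (by omega)
  obtain ⟨a', ha'⟩ := Int.gcd_dvd_left a b
  obtain ⟨b', hb'⟩ := Int.gcd_dvd_right a b
  set g : ℤ := (Int.gcd a b : ℤ) with hg
  have hgpos : 0 < g := by omega
  have ha'pos : 0 < a' := by
    by_contra h
    have : g * a' ≤ 0 := mul_nonpos_of_nonneg_of_nonpos hgpos.le (by omega)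
    omega
  have hgle : g ≤ a := by nlinarith
  have ha'le : a' ≤ a := by nlinarith
  have hb'le : |b'| ≤ |b| := by
    have h1 : |b| = g * |b'| := by
      conv_lhs => rw [hb', abs_mul, abs_of_pos hgpos]
    have h2 := abs_nonneg b'
    nlinarith
  refine ⟨a', b', by omega, by omega, by omega, ?_, ?_⟩
  · rw [Int.isCoprime_iff_gcd_eq_one]
    have h1 : Int.gcd a b = Int.gcd a b * Int.gcd a' b' := by
      conv_lhs => rw [ha', hb']
      rw [Int.gcd_mul_left, hg, Int.natAbs_natCast]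
    have h2 := Nat.eq_of_mul_eq_mul_left hg0 (h1.symm.trans (mul_one _).symm)
    exact h2
  · have h1 : (g : ZMod p) * ((a' : ZMod p) * x - (b' : ZMod p)) = 0 := by
      rw [ha', hb'] at hab
      push_cast at hab
      linear_combination hab
    rcases mul_eq_zero.1 h1 with h | h
    · exfalso
      rw [ZMod.intCast_zmod_eq_zero_iff_dvd] at h
      have := Int.le_of_dvd hgpos h
      omega
    · exact sub_eq_zero.1 h

lemma eq_of_modEq {p : ℕ} (n : ℤ) (h : |n| < p) (h0 : (n : ZMod p) = 0) : n = 0 := by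
  rw [ZMod.intCast_zmod_eq_zero_iff_dvd] at h0
  exact Int.eq_zero_of_abs_lt_dvd h0 h

lemma two_nD_lt {p D : ℕ} (hp : 0 < p) (hD : 4 * D ^ 2 < p) : 2 * (Nat.sqrt p * D) < p := by
  have h1 : Nat.sqrt p * Nat.sqrt p ≤ p := Nat.sqrt_le p
  have h2 : (2 * (Nat.sqrt p * D)) ^ 2 < p ^ 2 := by
    calc (2 * (Nat.sqrt p * D)) ^ 2 = (Nat.sqrt p * Nat.sqrt p) * (4 * D ^ 2) := by ring
      _ ≤ p * (4 * D ^ 2) := Nat.mul_le_mul_right _ h1
      _ < p * p := Nat.mul_lt_mul_of_pos_left hD hp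
      _ = p ^ 2 := by ring
  exact lt_of_pow_lt_pow_left₀ 2 (Nat.zero_le _) h2

theorem countA : S_COUNTA := by
  intro p N D H S Q x w hp hH hD hS hQm hQ hC hHT
  have : Fact p.Prime := ⟨hp⟩
  classical
  obtain ⟨a, b, ha1, ha2, hb, hcop, hab⟩ := thue_coprime p hp x
  set T : Finset (Fin N → ℤ) := S.filter fun v =>
    ∃ u ∈ S, ∀ i, x * (v i : ZMod p) + w i = (u i : ZMod p) with hT
  have hcard : Nat.card {v : Fin N → ℤ // v ∈ S ∧ ∃ u ∈ S, ∀ i,
      x * (v i : ZMod p) + w i = (u i : ZMod p)} = T.card :=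
    Nat.subtype_card T fun v => by rw [hT, Finset.mem_filter]
  rw [hcard]
  have hTS : ∀ v ∈ T, v ∈ S := fun v hv => (Finset.mem_filter.1 hv).1
  have hex : ∀ v : Fin N → ℤ, ∃ u : Fin N → ℤ, v ∈ T →
      (u ∈ S ∧ ∀ i, x * (v i : ZMod p) + w i = (u i : ZMod p)) := by
    intro v
    by_cases hv : v ∈ T
    · obtain ⟨u, hu, hu'⟩ := (Finset.mem_filter.1 hv).2
      exact ⟨u, fun _ => ⟨hu, hu'⟩⟩
    · exact ⟨v, fun h => absurd h hv⟩
  choose φ hφ using hex
  -- integral relation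
  have hrel : ∀ v ∈ T, ∀ v' ∈ T, ∀ i, a * (φ v i - φ v' i) = b * (v i - v' i) := by
    intro v hv v' hv' i
    have h1 := (hφ v hv).2 i
    have h2 := (hφ v' hv').2 i
    have h3 : ((a * (φ v i - φ v' i) - b * (v i - v' i) : ℤ) : ZMod p) = 0 := by
      push_cast
      rw [← h1, ← h2, ← hab]
      ring
    have h4 : |a * (φ v i - φ v' i) - b * (v i - v' i)| < p := by
      have e1 := hS _ (hφ v hv).1 _ (hφ v' hv').1 i
      have e2 := hS _ (hTS v hv) _ (hTS v' hv') i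
      have e3 : (2 * (Nat.sqrt p * D : ℕ) : ℤ) < p := by exact_mod_cast two_nD_lt hp.pos hD
      have e4 : |a * (φ v i - φ v' i)| ≤ (Nat.sqrt p * D : ℕ) := by
        rw [abs_mul, abs_of_pos (by omega : 0 < a)]
        push_cast
        exact mul_le_mul ha2 e1 (abs_nonneg _) (Int.natCast_nonneg _)
      have e5 : |b * (v i - v' i)| ≤ (Nat.sqrt p * D : ℕ) := by
        rw [abs_mul]
        push_cast
        exact mul_le_mul hb e2 (abs_nonneg _) (Int.natCast_nonneg _)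
      have e6 := abs_sub (a * (φ v i - φ v' i)) (b * (v i - v' i))
      linarith
    have h5 := eq_of_modEq _ h4 h3
    linarith
  have hbig : (H : ℤ) ≤ a ∨ (H : ℤ) ≤ |b| := by
    by_contra hcon
    push Not at hcon
    exact hHT ⟨a, b, ha1, by omega, by omega, hab⟩
  rcases hbig with h | h
  · apply cube_pack hQ hC T id hTS
    intro v hv v' hv' hne
    obtain ⟨i, hi⟩ := Function.ne_iff.1 hne
    refine ⟨i, ?_⟩
    have h1 : a ∣ b * (v i - v' i) := ⟨_, (hrel v hv v' hv' i).symm⟩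
    have h2 : a ∣ v i - v' i := hcop.dvd_of_dvd_mul_left h1
    have h3 : a ≤ |v i - v' i| := by
      apply Int.le_of_dvd (abs_pos.2 (sub_ne_zero.2 hi))
      rwa [dvd_abs]
    exact h.trans h3
  · apply cube_pack hQ hC T φ (fun v hv => (hφ v hv).1)
    intro v hv v' hv' hne
    obtain ⟨i, hi⟩ := Function.ne_iff.1 hne
    refine ⟨i, ?_⟩
    have hb0 : b ≠ 0 := by
      intro hb0
      rw [hb0, abs_zero] at h
      omega
    have h1 : b ∣ a * (φ v i - φ v' i) := ⟨_, hrel v hv v' hv' i⟩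
    have h2 : b ∣ φ v i - φ v' i := hcop.symm.dvd_of_dvd_mul_left h1
    have hne' : φ v i - φ v' i ≠ 0 := by
      intro h0
      have := hrel v hv v' hv' i
      rw [h0, mul_zero] at this
      rcases mul_eq_zero.1 this.symm with h' | h'
      · exact hb0 h'
      · exact hi (sub_eq_zero.1 h')
    have h3 : |b| ≤ |φ v i - φ v' i| := by
      apply Int.le_of_dvd (abs_pos.2 hne')
      rwa [dvd_abs, abs_dvd]
    exact h.trans h3

end Vale.Agent.P230
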