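import Vale.Agent.P230.Defs

/-! # P230, module COUNTB -/

open MeasureTheory
open scoped ENNReal NNReal BigOperators

namespace Vale.Agent.P230

/-- the unit cube at `v` -/
def ucube {N : ℕ} (v : Fin N → ℤ) : Set (Fin N → ℝ) :=
  Set.pi Set.univ (fun i => Set.Ico ((v i : ℝ)) ((v i : ℝ) + 1))

lemma ucube_meas {N : ℕ} (v : Fin N → ℤ) : MeasurableSet (ucube v) :=
  MeasurableSet.univ_pi fun _ => measurableSet_Ico

lemma ucube_vol {N : ℕ} (v : Fin N → ℤ) : volume (ucube v) = 1 := by
  rw [ucube, volume_pi_pi]
  simp [Real.volume_Ico]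

lemma mem_ucube {N : ℕ} (v : Fin N → ℤ) (x : Fin N → ℝ) :
    x ∈ ucube v ↔ v = fun i => ⌊x i⌋ := by
  simp only [ucube, Set.mem_pi, Set.mem_univ, true_imp_iff, Set.mem_Ico]
  constructor
  · intro h
    funext i
    exact (Int.floor_eq_iff.2 (h i)).symm
  · rintro rfl i
    exact ⟨Int.floor_le _, Int.lt_floor_add_one _⟩

theorem countB (hY : S_YOUNG) : S_COUNTB := by
  intro p N D S Q w hD hS hQm hQ hC
  classical
  set T : Finset ((Fin N → ℤ) × (Fin N → ℤ)) := (S ×ˢ S).filter fun v =>
    ∃ u ∈ S, ∀ i, (v.1 i : ZMod p) + (v.2 i : ZMod p) + w i = (u i : ZMod p) with hT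
  have hcard : Nat.card {v : (Fin N → ℤ) × (Fin N → ℤ) // v.1 ∈ S ∧ v.2 ∈ S ∧
      ∃ u ∈ S, ∀ i, (v.1 i : ZMod p) + (v.2 i : ZMod p) + w i = (u i : ZMod p)} = T.card :=
    Nat.subtype_card T fun v => by rw [hT, Finset.mem_filter, Finset.mem_product, and_assoc]
  rw [hcard]
  rcases T.eq_empty_or_nonempty with h0 | ⟨t0, ht0⟩
  · rw [h0]
    simp only [Finset.card_empty, Nat.cast_zero]
    positivity
  have hmem : ∀ t ∈ T, t.1 ∈ S ∧ t.2 ∈ S ∧
      ∃ u ∈ S, ∀ i, (t.1 i : ZMod p) + (t.2 i : ZMod p) + w i = (u i : ZMod p) := by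
    intro t ht
    rw [hT, Finset.mem_filter, Finset.mem_product, and_assoc] at ht
    exact ht
  obtain ⟨ha1, ha2, a3, ha3, hw⟩ := hmem t0 ht0
  set w0 : Fin N → ℤ := fun i => a3 i - t0.1 i - t0.2 i with hw0
  -- every solution solves the integral equation
  have hsol : ∀ t ∈ T, (fun i => t.1 i + t.2 i + w0 i) ∈ S := by
    intro t ht
    obtain ⟨h1, h2, u, hu, hu'⟩ := hmem t ht
    have : (fun i => t.1 i + t.2 i + w0 i) = u := by
      funext i
      have e1 := hS _ h1 _ ha1 i
      have e2 := hS _ h2 _ ha2 i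
      have e3 := hS _ hu _ ha3 i
      have e4 : ((t.1 i + t.2 i + w0 i - u i : ℤ) : ZMod p) = 0 := by
        have f1 := hw i
        have f2 := hu' i
        rw [hw0]
        push_cast
        rw [← f1, ← f2]
        ring
      rw [ZMod.intCast_zmod_eq_zero_iff_dvd] at e4
      have e5 : |t.1 i + t.2 i + w0 i - u i| < p := by
        have e6 : t.1 i + t.2 i + w0 i - u i
            = (t.1 i - t0.1 i) + (t.2 i - t0.2 i) - (u i - a3 i) := by
          rw [hw0]
          ring
        rw [e6, abs_lt]
        rw [abs_le] at e1 e2 e3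
        omega
      have := Int.eq_zero_of_abs_lt_dvd e4 e5
      linarith
    rw [this]
    exact hu
  -- Young
  set f : (Fin N → ℝ) → ℝ≥0∞ := Q.indicator 1 with hf
  set h : (Fin N → ℝ) → ℝ≥0∞ := fun z => Q.indicator 1 (z + fun i => (w0 i : ℝ)) with hh
  have hfm : Measurable f := measurable_one.indicator hQm
  have hhm : Measurable h := hfm.comp (measurable_id.add_const _)
  have hY' := hY N f f h hfm hfm hhm
  have hfi : ∫⁻ x, f x = volume Q := lintegral_indicator_one hQm
  have hhi : ∫⁻ x, h x = volume Q := by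
    rw [hh, lintegral_add_right_eq_self f, hfi]
  rw [hfi, hhi] at hY'
  have hpow : (volume Q * volume Q * volume Q) ^ (2 / 3 : ℝ) = volume Q ^ 2 := by
    have : volume Q * volume Q * volume Q = volume Q ^ (3 : ℝ) := by
      rw [show (3 : ℝ) = ((3 : ℕ) : ℝ) by norm_num, ENNReal.rpow_natCast]
      ring
    rw [this, ← ENNReal.rpow_mul, show (3 : ℝ) * (2 / 3) = ((2 : ℕ) : ℝ) by norm_num,
      ENNReal.rpow_natCast]
  rw [hpow] at hY'
  -- lower bound
  have hlow : (T.card : ℝ≥0∞) ≤
      ∫⁻ x, ∫⁻ y, (f x * f y * h (x + y)) ^ (2 / 3 : ℝ) := by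
    have h1 : ∫⁻ x : Fin N → ℝ, ∫⁻ y : Fin N → ℝ, ∑ t ∈ T, (ucube t.1).indicator 1 x *
        (ucube t.2).indicator (1 : (Fin N → ℝ) → ℝ≥0∞) y = T.card := by
      have h2 : ∀ x : Fin N → ℝ, ∫⁻ y : Fin N → ℝ, ∑ t ∈ T, (ucube t.1).indicator 1 x *
          (ucube t.2).indicator (1 : (Fin N → ℝ) → ℝ≥0∞) y
          = ∑ t ∈ T, (ucube t.1).indicator (1 : (Fin N → ℝ) → ℝ≥0∞) x := by
        intro x
        rw [lintegral_finsetSum]
        · apply Finset.sum_congr rfl
          intro t _
          rw [lintegral_const_mul _ (measurable_one.indicator (ucube_meas _)),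
            lintegral_indicator_one (ucube_meas _), ucube_vol, mul_one]
        · intro t _
          exact (measurable_one.indicator (ucube_meas _)).const_mul _
      simp_rw [h2]
      rw [lintegral_finsetSum _ fun t _ => measurable_one.indicator (ucube_meas _)]
      simp_rw [lintegral_indicator_one (ucube_meas _), ucube_vol]
      simp
    rw [← h1]
    apply lintegral_mono
    intro x
    apply lintegral_mono
    intro y
    simp only
    by_cases hxy : ((fun i => ⌊x i⌋ : Fin N → ℤ), (fun i => ⌊y i⌋ : Fin N → ℤ)) ∈ T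
    · have hxQ : x ∈ Q := by
        apply hC _ (hmem _ hxy).1 x
        intro i
        simp only
        constructor
        · exact Int.floor_le _
        · have := Int.lt_floor_add_one (x i)
          push_cast
          linarith
      have hyQ : y ∈ Q := by
        apply hC _ (hmem _ hxy).2.1 y
        intro i
        simp only
        constructor
        · exact Int.floor_le _
        · have := Int.lt_floor_add_one (y i)
          push_cast
          linarith
      have hsQ : (x + y) + (fun i => (w0 i : ℝ)) ∈ Q := by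
        apply hC _ (hsol _ hxy)
        intro i
        simp only [Pi.add_apply]
        have e1 := Int.floor_le (x i)
        have e2 := Int.floor_le (y i)
        have e3 := Int.lt_floor_add_one (x i)
        have e4 := Int.lt_floor_add_one (y i)
        push_cast
        constructor <;> linarith
      have hR : (f x * f y * h (x + y)) ^ (2 / 3 : ℝ) = 1 := by
        rw [hf, hh]
        simp only
        rw [Set.indicator_of_mem hxQ, Set.indicator_of_mem hyQ, Set.indicator_of_mem hsQ]
        simp
      rw [hR]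
      rw [Finset.sum_eq_single_of_mem _ hxy]
      · rw [Set.indicator_of_mem ((mem_ucube _ _).2 rfl), Set.indicator_of_mem
          ((mem_ucube _ _).2 rfl)]
        simp
      · intro t _ hne
        by_cases hx : x ∈ ucube t.1
        · by_cases hy : y ∈ ucube t.2
          · exfalso
            apply hne
            exact Prod.ext ((mem_ucube _ _).1 hx) ((mem_ucube _ _).1 hy)
          · rw [Set.indicator_of_notMem hy, mul_zero]
        · rw [Set.indicator_of_notMem hx, zero_mul]
    · have hz : ∑ t ∈ T, (ucube t.1).indicator 1 x *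
          (ucube t.2).indicator (1 : (Fin N → ℝ) → ℝ≥0∞) y = 0 := by
        apply Finset.sum_eq_zero
        intro t ht
        by_cases hx : x ∈ ucube t.1
        · by_cases hy : y ∈ ucube t.2
          · exfalso
            apply hxy
            rw [← (mem_ucube _ _).1 hx, ← (mem_ucube _ _).1 hy]
            exact ht
          · rw [Set.indicator_of_notMem hy, mul_zero]
        · rw [Set.indicator_of_notMem hx, zero_mul]
      rw [hz]
      exact bot_le
  have hfin := hlow.trans hY'
  have hne : ENNReal.ofReal ((998 / 1000) ^ N) * volume Q ^ 2 ≠ ⊤ :=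
    ENNReal.mul_ne_top ENNReal.ofReal_ne_top (ENNReal.pow_ne_top hQ)
  have := ENNReal.toReal_mono hne hfin
  rw [ENNReal.toReal_natCast, ENNReal.toReal_mul, ENNReal.toReal_pow,
    ENNReal.toReal_ofReal (by positivity)] at this
  exact this

end Vale.Agent.P230
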