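import Vale.Agent.P230.Defs

/-!
# P230, module COUNTC: the number of relations (from the two counting bounds)
-/

open MeasureTheory
open scoped ENNReal NNReal BigOperators

namespace Vale.Agent.P230

lemma CubesIn.mono {N : ℕ} {S : Finset (Fin N → ℤ)} {H H' : ℕ} {Q : Set (Fin N → ℝ)}
    (h : CubesIn S H Q) (hH : H' ≤ H) : CubesIn S H' Q := by
  intro v hv x hx
  have h1 : (H' : ℝ) ≤ H := by exact_mod_cast hH
  exact h v hv x (fun i => ⟨(hx i).1, by linarith [(hx i).2]⟩)

open Classical in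
/-- fibre counting -/
lemma card_fib {r : ℕ} {α : Type} (S : Finset α) (v0 : α) (X : Finset (Fin r → α))
    (P : Finset (Fin r)) (K : ℝ) (hX : ∀ v ∈ X, ∀ i, v i ∈ S)
    (hfib : ∀ (v' : Fin r → α) (Z : Finset (Fin r → α)),
      (∀ v ∈ Z, v ∈ X ∧ ∀ i, i ∉ P → v i = v' i) → (Z.card : ℝ) ≤ K) :
    (X.card : ℝ) ≤ (S.card : ℝ) ^ (r - P.card) * K := by
  set Y : Finset (Fin r → α) := Fintype.piFinset (fun i => if i ∈ P then {v0} else S) with hY
  have h1 : ∀ v ∈ X, (fun i => if i ∈ P then v0 else v i) ∈ Y := by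
    intro v hv
    rw [hY, Fintype.mem_piFinset]
    intro i
    by_cases hi : i ∈ P
    · simp [hi]
    · simp [hi, hX v hv i]
  have h2 := Finset.card_eq_sum_card_fiberwise (f := fun (v : Fin r → α) (i : Fin r) =>
    if i ∈ P then v0 else v i) (s := X) (t := Y) h1
  have hYc : (Y.card : ℝ) = (S.card : ℝ) ^ (r - P.card) := by
    rw [hY, Fintype.card_piFinset]
    have : ∀ i : Fin r, (if i ∈ P then ({v0} : Finset α) else S).card
        = if i ∈ P then 1 else S.card := by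
      intro i
      split_ifs <;> simp
    simp only [this]
    rw [Finset.prod_ite]
    simp only [Finset.prod_const_one, one_mul, Finset.prod_const]
    have h3 : (Finset.univ.filter (fun i => i ∉ P)).card = r - P.card := by
      have : (Finset.univ.filter (fun i => i ∉ P)) = Pᶜ := by
        ext i
        simp
      rw [this, Finset.card_compl, Fintype.card_fin]
    rw [h3]
    push_cast
    rfl
  rw [h2]
  push_cast
  calc ∑ b ∈ Y, ((X.filter (fun v => (fun i => if i ∈ P then v0 else v i) = b)).card : ℝ)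
      ≤ ∑ b ∈ Y, K := by
        refine Finset.sum_le_sum (fun b _ => hfib b _ ?_)
        intro v hv
        rw [Finset.mem_filter] at hv
        refine ⟨hv.1, fun i hi => ?_⟩
        rw [← hv.2]
        simp [hi]
    _ = (S.card : ℝ) ^ (r - P.card) * K := by
        rw [Finset.sum_const, nsmul_eq_mul, hYc]

open Classical in
/-- tuples of `S` whose combination with coefficients `c` is a lift -/
noncomputable def XC (p : ℕ) {N r : ℕ} (S : Finset (Fin N → ℤ)) (c : Fin r → ZMod p) :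
    Finset (Fin r → (Fin N → ℤ)) :=
  (Fintype.piFinset (fun _ => S)).filter (fun v => ∑ i, c i • lift p (v i) ∈ S.image (lift p))

lemma mem_XC {p N r : ℕ} {S : Finset (Fin N → ℤ)} {c : Fin r → ZMod p}
    {v : Fin r → (Fin N → ℤ)} :
    v ∈ XC p S c ↔ (∀ i, v i ∈ S) ∧ ∃ u ∈ S, (∑ i, c i = 1) ∧
      ∀ j, ∑ i, c i * (v i j : ZMod p) = (u j : ZMod p) := by
  classical
  unfold XC
  rw [Finset.mem_filter, Fintype.mem_piFinset, Finset.mem_image]
  refine and_congr_right (fun _ => ⟨?_, ?_⟩)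
  · rintro ⟨u, hu, h⟩
    refine ⟨u, hu, ?_, ?_⟩
    · have := congrFun h 0
      simp only [lift, Finset.sum_apply, Pi.smul_apply, Fin.cons_zero, smul_eq_mul, mul_one]
        at this
      exact this.symm
    · intro j
      have := congrFun h j.succ
      simp only [lift, Finset.sum_apply, Pi.smul_apply, Fin.cons_succ, smul_eq_mul]
        at this
      exact this.symm
  · rintro ⟨u, hu, h1, h⟩
    refine ⟨u, hu, ?_⟩
    ext j
    refine Fin.cases ?_ (fun j => ?_) j
    · simp only [lift, Finset.sum_apply, Pi.smul_apply, Fin.cons_zero, smul_eq_mul, mul_one]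
      exact h1.symm
    · simp only [lift, Finset.sum_apply, Pi.smul_apply, Fin.cons_succ, smul_eq_mul]
      exact (h j).symm

lemma cnt1 (hA : S_COUNTA) {p N D H r : ℕ} (S : Finset (Fin N → ℤ)) (Q : Set (Fin N → ℝ))
    (hp : p.Prime) (hH : 2 ≤ H) (hD : 4 * D ^ 2 < p)
    (hdiam : ∀ v ∈ S, ∀ v' ∈ S, ∀ i, |v i - v' i| ≤ D) (hQm : MeasurableSet Q)
    (hQf : volume Q ≠ ⊤) (hC : CubesIn S H Q) (c : Fin r → ZMod p) (l : Fin r)
    (hl : ¬ HT p (H - 1) (c l)) (v0 : Fin N → ℤ) :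
    ((XC p S c).card : ℝ) ≤ (S.card : ℝ) ^ (r - 1) * ((volume Q).toReal / (H : ℝ) ^ N) := by
  classical
  have h0 := card_fib S v0 (XC p S c) {l} ((volume Q).toReal / (H : ℝ) ^ N)
    (fun v hv => (mem_XC.1 hv).1) ?_
  · rw [Finset.card_singleton] at h0
    exact h0
  intro v' Z hZ
  set w : Fin N → ZMod p := fun j => ∑ i ∈ Finset.univ.erase l, c i * (v' i j : ZMod p) with hw
  set G := S.filter (fun v => ∃ u ∈ S, ∀ i, c l * (v i : ZMod p) + w i = (u i : ZMod p)) with hG
  have h1 := hA p N D H S Q (c l) w hp hH hD hdiam hQm hQf hC hl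
  rw [Nat.subtype_card G (by intro x; rw [hG, Finset.mem_filter])] at h1
  have h2 : Z.card ≤ G.card := by
    refine Finset.card_le_card_of_injOn (fun v => v l) ?_ ?_
    · intro v hv
      obtain ⟨hv0, hv3⟩ := hZ v hv
      rw [mem_XC] at hv0
      obtain ⟨hv1, u, hu, -, hv2⟩ := hv0
      rw [Finset.mem_coe, hG, Finset.mem_filter]
      refine ⟨hv1 l, u, hu, fun j => ?_⟩
      rw [← hv2 j, ← Finset.add_sum_erase _ _ (Finset.mem_univ l), hw]
      congr 1
      refine Finset.sum_congr rfl (fun i hi => ?_)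
      rw [← hv3 i (by rw [Finset.mem_singleton]; exact Finset.ne_of_mem_erase hi)]
    · intro v hv v1 hv1 h
      ext1 i
      by_cases hi : i = l
      · rw [hi]
        exact h
      · rw [(hZ v hv).2 i (by rw [Finset.mem_singleton]; exact hi),
          (hZ v1 hv1).2 i (by rw [Finset.mem_singleton]; exact hi)]
  have hHp : (0 : ℝ) < (H : ℝ) ^ N := by positivity
  rw [le_div_iff₀ hHp]
  refine le_trans ?_ h1
  have h3 : (Z.card : ℝ) ≤ (G.card : ℝ) := Nat.cast_le.2 h2
  exact mul_le_mul_of_nonneg_right h3 hHp.le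

lemma cnt2 (hB : S_COUNTB) {p N D r : ℕ} (S : Finset (Fin N → ℤ)) (Q : Set (Fin N → ℝ))
    (hD : 3 * D < p)
    (hdiam : ∀ v ∈ S, ∀ v' ∈ S, ∀ i, |v i - v' i| ≤ D) (hQm : MeasurableSet Q)
    (hQf : volume Q ≠ ⊤) (hC : CubesIn S 2 Q) (c : Fin r → ZMod p) (l l' : Fin r) (hll : l ≠ l')
    (hl : c l = 1) (hl' : c l' = 1) (v0 : Fin N → ℤ) :
    ((XC p S c).card : ℝ) ≤
      (S.card : ℝ) ^ (r - 2) * ((998 / 1000) ^ N * (volume Q).toReal ^ 2) := by
  classical
  have h0 := card_fib S v0 (XC p S c) {l, l'} ((998 / 1000) ^ N * (volume Q).toReal ^ 2)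
    (fun v hv => (mem_XC.1 hv).1) ?_
  · rw [Finset.card_pair hll] at h0
    exact h0
  intro v' Z hZ
  set w : Fin N → ZMod p := fun j => ∑ i ∈ (Finset.univ.erase l).erase l',
    c i * (v' i j : ZMod p) with hw
  set G := (S ×ˢ S).filter (fun v => ∃ u ∈ S, ∀ i, (v.1 i : ZMod p) + (v.2 i : ZMod p) + w i
    = (u i : ZMod p)) with hG
  have h1 := hB p N D S Q w hD hdiam hQm hQf hC
  rw [Nat.subtype_card G (by
    intro x; rw [hG, Finset.mem_filter, Finset.mem_product, and_assoc])] at h1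
  have hP : ∀ i : Fin r, i ≠ l → i ≠ l' → i ∉ ({l, l'} : Finset (Fin r)) := by
    intro i h1 h2
    simp [h1, h2]
  have h2 : Z.card ≤ G.card := by
    refine Finset.card_le_card_of_injOn (fun v => (v l, v l')) ?_ ?_
    · intro v hv
      obtain ⟨hv0, hv3⟩ := hZ v hv
      rw [mem_XC] at hv0
      obtain ⟨hv1, u, hu, -, hv2⟩ := hv0
      rw [Finset.mem_coe, hG, Finset.mem_filter, Finset.mem_product]
      refine ⟨⟨hv1 l, hv1 l'⟩, u, hu, fun j => ?_⟩
      rw [← hv2 j, ← Finset.add_sum_erase _ _ (Finset.mem_univ l),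
        ← Finset.add_sum_erase (Finset.univ.erase l) _
          (Finset.mem_erase.2 ⟨hll.symm, Finset.mem_univ l'⟩), hl, hl', one_mul, one_mul, hw,
        add_assoc]
      congr 2
      refine Finset.sum_congr rfl (fun i hi => ?_)
      rw [← hv3 i (hP i (Finset.ne_of_mem_erase (Finset.mem_of_mem_erase hi))
        (Finset.ne_of_mem_erase hi))]
    · intro v hv v1 hv1 h
      simp only [Prod.mk.injEq] at h
      ext1 i
      by_cases hi : i = l
      · rw [hi]
        exact h.1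
      · by_cases hi' : i = l'
        · rw [hi']
          exact h.2
        · rw [(hZ v hv).2 i (hP i hi hi'), (hZ v1 hv1).2 i (hP i hi hi')]
  refine le_trans ?_ h1
  exact Nat.cast_le.2 h2

open Classical in
/-- number of fractions of height `h` -/
lemma card_HT (p h : ℕ) [Fact p.Prime] (h1 : 1 ≤ h) :
    (Finset.univ.filter (fun x : ZMod p => HT p h x)).card ≤ h * (2 * h + 1) := by
  by_cases hp : p ≤ h
  · refine (Finset.card_filter_le _ _).trans ?_
    rw [Finset.card_univ, ZMod.card]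
    nlinarith
  · push Not at hp
    have h2 : Finset.univ.filter (fun x : ZMod p => HT p h x) ⊆
        ((Finset.Icc (1 : ℤ) h) ×ˢ (Finset.Icc (-(h : ℤ)) h)).image
          (fun ab => (ab.2 : ZMod p) * (ab.1 : ZMod p)⁻¹) := by
      intro x hx
      rw [Finset.mem_filter] at hx
      obtain ⟨-, a, b, ha1, ha2, hb, hab⟩ := hx
      rw [Finset.mem_image]
      refine ⟨(a, b), ?_, ?_⟩
      · rw [Finset.mem_product, Finset.mem_Icc, Finset.mem_Icc]
        exact ⟨⟨ha1, ha2⟩, abs_le.1 hb⟩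
      · have ha : (a : ZMod p) ≠ 0 := by
          rw [Ne, ZMod.intCast_zmod_eq_zero_iff_dvd]
          intro hd
          have := Int.le_of_dvd (by linarith) hd
          have h3 : (h : ℤ) < p := by exact_mod_cast hp
          linarith
        simp only
        rw [← hab]
        field_simp
    refine (Finset.card_le_card h2).trans (Finset.card_image_le.trans ?_)
    rw [Finset.card_product, Int.card_Icc, Int.card_Icc]
    have e1 : ((h : ℤ) + 1 - 1).toNat = h := by simp
    have e2 : ((h : ℤ) + 1 - -(h : ℤ)).toNat = 2 * h + 1 := by omega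
    rw [e1, e2]

lemma sum_inv_sq (H : ℕ) : ∑ h ∈ Finset.Ico 2 H, (1 : ℝ) / (h : ℝ) ^ 2 ≤ 1 := by
  have key : ∀ H : ℕ, 2 ≤ H → ∑ h ∈ Finset.Ico 2 H, (1 : ℝ) / (h : ℝ) ^ 2
      ≤ 1 - 1 / ((H : ℝ) - 1) := by
    intro H hH
    induction H, hH using Nat.le_induction with
    | base => norm_num
    | succ n hn ih =>
      rw [Finset.sum_Ico_succ_top hn]
      have hn' : (2 : ℝ) ≤ n := by exact_mod_cast hn
      have h1 : (1 : ℝ) / (n : ℝ) ^ 2 ≤ 1 / ((n : ℝ) - 1) - 1 / (n : ℝ) := by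
        have e1 : (1 : ℝ) / ((n : ℝ) - 1) - 1 / (n : ℝ) = 1 / (((n : ℝ) - 1) * n) := by
          have : (n : ℝ) - 1 ≠ 0 := by linarith
          have : (n : ℝ) ≠ 0 := by linarith
          field_simp
          ring
        rw [e1]
        apply one_div_le_one_div_of_le
        · apply mul_pos <;> linarith
        · nlinarith
      push_cast
      have e2 : (n : ℝ) + 1 - 1 = n := by ring
      rw [e2]
      linarith
  by_cases hH : 2 ≤ H
  · refine (key H hH).trans ?_
    have : (2 : ℝ) ≤ H := by exact_mod_cast hH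
    have : (0 : ℝ) ≤ 1 / ((H : ℝ) - 1) := by
      apply div_nonneg <;> linarith
    linarith
  · rw [Finset.Ico_eq_empty (by omega)]
    simp

/-- a sign vector with sum one which is not a unit vector has two ones -/
lemma two_ones {p r : ℕ} [Fact p.Prime] (hr : r + 1 < p) (c : Fin r → ZMod p)
    (hc : ∀ l, HT p 1 (c l)) (hsum : ∑ i, c i = 1) (hne : ∀ i, c ≠ Pi.single i 1) :
    ∃ l l', l ≠ l' ∧ c l = 1 ∧ c l' = 1 := by
  classical
  have h1 : ∀ l, ∃ b : ℤ, |b| ≤ 1 ∧ c l = (b : ZMod p) := by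
    intro l
    obtain ⟨a, b, ha1, ha2, hb, hab⟩ := hc l
    have ha : a = 1 := by
      have : a ≤ 1 := by exact_mod_cast ha2
      linarith
    refine ⟨b, by exact_mod_cast hb, ?_⟩
    rw [← hab, ha]
    simp
  choose e he hce using h1
  have h2 : ((∑ i, e i - 1 : ℤ) : ZMod p) = 0 := by
    push_cast
    rw [← hsum, sub_eq_zero]
    exact Finset.sum_congr rfl (fun i _ => (hce i).symm)
  have h3 : |∑ i, e i| ≤ r := by
    calc |∑ i, e i| ≤ ∑ i, |e i| := Finset.abs_sum_le_sum_abs _ _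
      _ ≤ ∑ i : Fin r, (1 : ℤ) := Finset.sum_le_sum (fun i _ => he i)
      _ = r := by simp
  have h4 : ∑ i, e i = 1 := by
    rw [ZMod.intCast_zmod_eq_zero_iff_dvd] at h2
    have h5 : |∑ i, e i - 1| < p := by
      have : ((r : ℤ) + 1) < p := by exact_mod_cast hr
      calc |∑ i, e i - 1| ≤ |∑ i, e i| + |(1 : ℤ)| := abs_sub _ _
        _ ≤ r + 1 := by rw [abs_one]; linarith
        _ < p := this
    have := Int.eq_zero_of_abs_lt_dvd h2 h5
    linarith
  by_contra hcon
  push Not at hcon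
  have h6 : ∃ i, e i = 1 := by
    by_contra hno
    push Not at hno
    have : ∑ i, e i ≤ 0 := Finset.sum_nonpos (fun i _ => by
      have := (abs_le.1 (he i)).2
      have := hno i
      omega)
    linarith
  obtain ⟨i, hi⟩ := h6
  have hci : c i = 1 := by rw [hce, hi]; simp
  have h7 : ∀ j, j ≠ i → e j ≤ 0 := by
    intro j hj
    have h8 : e j ≠ 1 := by
      intro h9
      exact hcon j i hj (by rw [hce, h9]; simp) hci
    have := (abs_le.1 (he j)).2
    omega
  have h8 : ∑ j ∈ Finset.univ.erase i, e j = 0 := by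
    have := Finset.add_sum_erase Finset.univ e (Finset.mem_univ i)
    rw [h4, hi] at this
    linarith
  have h9 : ∀ j ∈ Finset.univ.erase i, e j = 0 := by
    have h10 := (Finset.sum_eq_zero_iff_of_nonpos (s := Finset.univ.erase i) (f := e)
      (fun j hj => h7 j (Finset.ne_of_mem_erase hj))).1 h8
    exact h10
  apply hne i
  ext j
  by_cases hj : j = i
  · rw [hj, hci, Pi.single_eq_same]
  · rw [Pi.single_eq_of_ne hj, hce, h9 j (Finset.mem_erase.2 ⟨hj, Finset.mem_univ j⟩)]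
    simp

open Classical in
lemma relCount_le {p N r : ℕ} [Fact p.Prime] (S : Finset (Fin N → ℤ)) :
    relCount p (S.image (lift p)) r ≤
      ∑ c ∈ Finset.univ.filter (fun c : Fin r → ZMod p => ∀ i, c ≠ Pi.single i 1),
        (XC p S c).card := by
  set F : Finset ((Fin r → ZMod p) × (Fin r → (Fin (N + 1) → ZMod p))) :=
    Finset.univ.filter (fun q => (∀ i, q.1 ≠ Pi.single i 1) ∧
      (∀ i, q.2 i ∈ S.image (lift p)) ∧ (∑ i, q.1 i • q.2 i) ∈ S.image (lift p)) with hF
  have h1 : relCount p (S.image (lift p)) r = F.card := by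
    unfold relCount
    exact Nat.subtype_card F (by intro x; rw [hF, Finset.mem_filter]; simp)
  rw [h1]
  have h2 : F ⊆ (Finset.univ.filter (fun c : Fin r → ZMod p => ∀ i, c ≠ Pi.single i 1)).biUnion
      (fun c => (XC p S c).image (fun v => (c, fun i => lift p (v i)))) := by
    intro q hq
    rw [hF, Finset.mem_filter] at hq
    obtain ⟨-, hq1, hq2, hq3⟩ := hq
    rw [Finset.mem_biUnion]
    refine ⟨q.1, Finset.mem_filter.2 ⟨Finset.mem_univ _, hq1⟩, ?_⟩
    rw [Finset.mem_image]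
    have h3 : ∀ i, ∃ v ∈ S, lift p v = q.2 i := fun i => Finset.mem_image.1 (hq2 i)
    choose v hv hv' using h3
    refine ⟨v, ?_, ?_⟩
    · unfold XC
      rw [Finset.mem_filter, Fintype.mem_piFinset]
      refine ⟨hv, ?_⟩
      have : ∑ i, q.1 i • lift p (v i) = ∑ i, q.1 i • q.2 i :=
        Finset.sum_congr rfl (fun i _ => by rw [hv'])
      rw [this]
      exact hq3
    · ext1
      · rfl
      · funext i
        exact hv' i
  refine (Finset.card_le_card h2).trans (Finset.card_biUnion_le.trans ?_)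
  exact Finset.sum_le_sum (fun c _ => Finset.card_image_le)

open Classical in
lemma card_all_HT (p h r : ℕ) [Fact p.Prime] (h1 : 1 ≤ h) :
    ((Finset.univ.filter (fun c : Fin r → ZMod p => ∀ l, HT p h (c l))).card : ℝ)
      ≤ ((h * (2 * h + 1) : ℕ) : ℝ) ^ r := by
  have h2 : Finset.univ.filter (fun c : Fin r → ZMod p => ∀ l, HT p h (c l)) =
      Fintype.piFinset (fun _ : Fin r => Finset.univ.filter (fun x : ZMod p => HT p h x)) := by
    ext c
    simp [Fintype.mem_piFinset]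
  rw [h2, Fintype.card_piFinset_const]
  have h3 := card_HT p h h1
  push_cast
  have h4 : ((Finset.univ.filter (fun x : ZMod p => HT p h x)).card : ℝ) ≤
      ((h * (2 * h + 1) : ℕ) : ℝ) := Nat.cast_le.2 h3
  push_cast at h4
  exact pow_le_pow_left₀ (by positivity) h4 r

/-- a bound for one coefficient vector -/
lemma bound_one (hA : S_COUNTA) (hB : S_COUNTB) {p N D H r : ℕ} [Fact p.Prime]
    (S : Finset (Fin N → ℤ)) (Q : Set (Fin N → ℝ)) (ρ : ℝ) (hρ : 0 ≤ ρ)
    (hH : 2 ≤ H) (hD1 : 4 * D ^ 2 < p) (hD2 : 3 * D < p) (hr : r + 1 < p)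
    (hdiam : ∀ v ∈ S, ∀ v' ∈ S, ∀ i, |v i - v' i| ≤ D) (hQm : MeasurableSet Q)
    (hQf : volume Q ≠ ⊤) (hC : CubesIn S H Q) (hvol : (volume Q).toReal ≤ ρ * S.card)
    (c : Fin r → ZMod p) (hc : ∀ i, c ≠ Pi.single i 1) (hX : (XC p S c).Nonempty) :
    ((∀ l, HT p 1 (c l)) ∧
      ((XC p S c).card : ℝ) ≤ (998 / 1000) ^ N * ρ ^ 2 * (S.card : ℝ) ^ r) ∨
    (∃ h ∈ Finset.Ico 2 H, (∀ l, HT p h (c l)) ∧
      ((XC p S c).card : ℝ) ≤ ρ * (S.card : ℝ) ^ r / (h : ℝ) ^ N) ∨
    ((XC p S c).card : ℝ) ≤ ρ * (S.card : ℝ) ^ r / (H : ℝ) ^ N := by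
  have hp : p.Prime := Fact.out
  obtain ⟨v, hv⟩ := hX
  rw [mem_XC] at hv
  obtain ⟨hv1, u, hu, hsum, -⟩ := hv
  have hV0 : 0 ≤ (volume Q).toReal := ENNReal.toReal_nonneg
  have key : ∀ H' : ℕ, 2 ≤ H' → H' ≤ H → (∃ l, ¬ HT p (H' - 1) (c l)) →
      ((XC p S c).card : ℝ) ≤ ρ * (S.card : ℝ) ^ r / (H' : ℝ) ^ N := by
    rintro H' h2 h3 ⟨l, hl⟩
    refine (cnt1 hA S Q hp h2 hD1 hdiam hQm hQf (hC.mono h3) c l hl u).trans ?_
    have hr1 : 1 ≤ r := by
      have := l.2
      omega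
    have e1 : (S.card : ℝ) ^ r = (S.card : ℝ) ^ (r - 1) * S.card := by
      rw [← pow_succ]
      congr 1
      omega
    rw [e1, mul_div_assoc']
    apply div_le_div_of_nonneg_right _ (by positivity)
    calc (S.card : ℝ) ^ (r - 1) * (volume Q).toReal
        ≤ (S.card : ℝ) ^ (r - 1) * (ρ * S.card) :=
          mul_le_mul_of_nonneg_left hvol (by positivity)
      _ = ρ * ((S.card : ℝ) ^ (r - 1) * S.card) := by ring
  by_cases h1 : ∀ l, HT p 1 (c l)
  · left
    refine ⟨h1, ?_⟩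
    obtain ⟨l, l', hll, hl, hl'⟩ := two_ones hr c h1 hsum hc
    have hr2 : 2 ≤ r := by
      have h3 := l.2
      have h4 := l'.2
      have h5 : (l : ℕ) ≠ l' := fun h => hll (Fin.ext h)
      omega
    refine (cnt2 hB S Q hD2 hdiam hQm hQf (hC.mono hH) c l l' hll hl hl' u).trans ?_
    have e1 : (S.card : ℝ) ^ r = (S.card : ℝ) ^ (r - 2) * (S.card : ℝ) ^ 2 := by
      rw [← pow_add]
      congr 1
      omega
    rw [e1]
    have h6 : (volume Q).toReal ^ 2 ≤ (ρ * S.card) ^ 2 := pow_le_pow_left₀ hV0 hvol 2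
    calc (S.card : ℝ) ^ (r - 2) * ((998 / 1000) ^ N * (volume Q).toReal ^ 2)
        ≤ (S.card : ℝ) ^ (r - 2) * ((998 / 1000) ^ N * (ρ * S.card) ^ 2) := by gcongr
      _ = (998 / 1000) ^ N * ρ ^ 2 * ((S.card : ℝ) ^ (r - 2) * (S.card : ℝ) ^ 2) := by ring
  · right
    push Not at h1
    obtain ⟨l1, hl1⟩ := h1
    by_cases h2 : ∀ l, HT p (H - 1) (c l)
    · left
      classical
      have hex : ∃ h : ℕ, ∀ l, HT p h (c l) := ⟨H - 1, h2⟩
      have hmin := @Nat.find_min _ _ hex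
      have hspec := Nat.find_spec hex
      have hle : Nat.find hex ≤ H - 1 := Nat.find_min' hex h2
      set h0 := Nat.find hex with hh0
      have g0 : h0 ≠ 0 := by
        intro h
        rw [h] at hspec
        obtain ⟨a, b, ha1, ha2, -⟩ := hspec l1
        push_cast at ha2
        omega
      have g1 : h0 ≠ 1 := by
        intro h
        rw [h] at hspec
        exact hl1 (hspec l1)
      refine ⟨h0, Finset.mem_Ico.2 ⟨by omega, by omega⟩, hspec, ?_⟩
      refine key h0 (by omega) (by omega) ?_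
      have := hmin (m := h0 - 1) (by omega)
      push Not at this
      exact this
    · right
      push Not at h2
      exact key H hH le_rfl h2

theorem count (hA : S_COUNTA) (hB : S_COUNTB) : S_COUNT := by
  classical
  intro p N D H r S Q ρ hp hρ hH hD1 hD2 hr hN hdiam hQm hQf hC hvol
  haveI : Fact p.Prime := ⟨hp⟩
  set A : ℝ := (998 / 1000) ^ N * ρ ^ 2 * (S.card : ℝ) ^ r with hAdef
  set E : ℝ := ρ * (S.card : ℝ) ^ r with hEdef
  have hA0 : 0 ≤ A := by positivity
  have hE0 : 0 ≤ E := by positivity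
  have h1 : ∀ c : Fin r → ZMod p, (∀ i, c ≠ Pi.single i 1) → ((XC p S c).card : ℝ) ≤
      (if ∀ l, HT p 1 (c l) then A else 0) +
        ∑ h ∈ Finset.Ico 2 H, (if ∀ l, HT p h (c l) then E / (h : ℝ) ^ N else 0) +
        E / (H : ℝ) ^ N := by
    intro c hc
    have t1 : (0 : ℝ) ≤ (if ∀ l, HT p 1 (c l) then A else 0) := by
      split_ifs <;> positivity
    have t2 : ∀ h ∈ Finset.Ico 2 H,
        (0 : ℝ) ≤ (if ∀ l, HT p h (c l) then E / (h : ℝ) ^ N else 0) := by
      intro h _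
      split_ifs <;> positivity
    have t3 : (0 : ℝ) ≤ E / (H : ℝ) ^ N := by positivity
    have t4 := Finset.sum_nonneg t2
    rcases (XC p S c).eq_empty_or_nonempty with hX | hX
    · rw [hX, Finset.card_empty]
      push_cast
      linarith
    · rcases bound_one hA hB S Q ρ hρ hH hD1 hD2 hr hdiam hQm hQf hC hvol c hc hX with
        ⟨h1, h2⟩ | ⟨h, hh, h1, h2⟩ | h2
      · rw [if_pos h1]
        linarith
      · have := Finset.single_le_sum t2 hh
        rw [if_pos h1] at this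
        linarith
      · linarith
  have h2 : (relCount p (S.image (lift p)) r : ℝ) ≤
      ∑ c : Fin r → ZMod p, ((if ∀ l, HT p 1 (c l) then A else 0) +
        ∑ h ∈ Finset.Ico 2 H, (if ∀ l, HT p h (c l) then E / (h : ℝ) ^ N else 0) +
        E / (H : ℝ) ^ N) := by
    refine (Nat.cast_le.2 (relCount_le S)).trans ?_
    push_cast
    refine (Finset.sum_le_sum (fun c hc => h1 c (Finset.mem_filter.1 hc).2)).trans ?_
    refine Finset.sum_le_univ_sum_of_nonneg (fun c => ?_)
    have t1 : (0 : ℝ) ≤ (if ∀ l, HT p 1 (c l) then A else 0) := by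
      split_ifs <;> positivity
    have t2 : ∀ h ∈ Finset.Ico 2 H,
        (0 : ℝ) ≤ (if ∀ l, HT p h (c l) then E / (h : ℝ) ^ N else 0) := by
      intro h _
      split_ifs <;> positivity
    have t3 : (0 : ℝ) ≤ E / (H : ℝ) ^ N := by positivity
    have t4 := Finset.sum_nonneg t2
    linarith
  refine h2.trans ?_
  rw [Finset.sum_add_distrib, Finset.sum_add_distrib, Finset.sum_comm]
  have e1 : ∑ c : Fin r → ZMod p, (if ∀ l, HT p 1 (c l) then A else 0) ≤ 3 ^ r * A := by
    rw [← Finset.sum_filter, Finset.sum_const, nsmul_eq_mul]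
    have := card_all_HT p 1 r le_rfl
    norm_num at this
    exact mul_le_mul_of_nonneg_right this hA0
  have e2 : ∑ h ∈ Finset.Ico 2 H, ∑ c : Fin r → ZMod p,
      (if ∀ l, HT p h (c l) then E / (h : ℝ) ^ N else 0) ≤
      E * 3 ^ r * 2 ^ (2 * r + 2) / 2 ^ N := by
    have e3 : ∀ h ∈ Finset.Ico 2 H, ∑ c : Fin r → ZMod p,
        (if ∀ l, HT p h (c l) then E / (h : ℝ) ^ N else 0) ≤
        (E * 3 ^ r * 2 ^ (2 * r + 2) / 2 ^ N) * (1 / (h : ℝ) ^ 2) := by
      intro h hh
      have hh2 : 2 ≤ h := (Finset.mem_Ico.1 hh).1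
      have hh3 : (2 : ℝ) ≤ h := by exact_mod_cast hh2
      rw [← Finset.sum_filter, Finset.sum_const, nsmul_eq_mul]
      have g1 := card_all_HT p h r (by omega)
      have g2 : ((h * (2 * h + 1) : ℕ) : ℝ) ≤ 3 * (h : ℝ) ^ 2 := by
        push_cast
        nlinarith
      have g3 : ((h * (2 * h + 1) : ℕ) : ℝ) ^ r ≤ (3 * (h : ℝ) ^ 2) ^ r :=
        pow_le_pow_left₀ (by positivity) g2 r
      refine (mul_le_mul_of_nonneg_right (g1.trans g3) (by positivity)).trans ?_
      obtain ⟨k, rfl⟩ := Nat.exists_eq_add_of_le hN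
      have g4 : (2 : ℝ) ^ k ≤ (h : ℝ) ^ k := pow_le_pow_left₀ (by norm_num) hh3 k
      have hhp : (0 : ℝ) < h := by linarith
      have g5 : (3 * (h : ℝ) ^ 2) ^ r * (E / (h : ℝ) ^ (2 * r + 2 + k)) =
          E * 3 ^ r * (1 / (h : ℝ) ^ 2) * (1 / (h : ℝ) ^ k) := by
        rw [mul_pow, pow_add (h : ℝ) (2 * r + 2) k, pow_add (h : ℝ) (2 * r) 2, pow_mul (h : ℝ) 2 r]
        field_simp
      have g6 : E * 3 ^ r * 2 ^ (2 * r + 2) / 2 ^ (2 * r + 2 + k) * (1 / (h : ℝ) ^ 2) =
          E * 3 ^ r * (1 / (h : ℝ) ^ 2) * (1 / (2 : ℝ) ^ k) := by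
        rw [pow_add (2 : ℝ) (2 * r + 2) k]
        field_simp
      rw [g5, g6]
      apply mul_le_mul_of_nonneg_left _ (by positivity)
      exact one_div_le_one_div_of_le (by positivity) g4
    refine (Finset.sum_le_sum e3).trans ?_
    rw [← Finset.mul_sum]
    have := sum_inv_sq H
    calc (E * 3 ^ r * 2 ^ (2 * r + 2) / 2 ^ N) * ∑ h ∈ Finset.Ico 2 H, (1 : ℝ) / (h : ℝ) ^ 2
        ≤ (E * 3 ^ r * 2 ^ (2 * r + 2) / 2 ^ N) * 1 :=
          mul_le_mul_of_nonneg_left this (by positivity)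
      _ = _ := mul_one _
  have e4 : ∑ c : Fin r → ZMod p, E / (H : ℝ) ^ N = (p : ℝ) ^ r * (E / (H : ℝ) ^ N) := by
    rw [Finset.sum_const, nsmul_eq_mul, Finset.card_univ, Fintype.card_fun, ZMod.card,
      Fintype.card_fin]
    push_cast
    rfl
  rw [e4]
  have e5 : (3 ^ r * (998 / 1000) ^ N * ρ ^ 2 + ρ * 3 ^ r * 2 ^ (2 * r + 2) / 2 ^ N
      + ρ * (p : ℝ) ^ r / (H : ℝ) ^ N) * (S.card : ℝ) ^ r =
      3 ^ r * A + E * 3 ^ r * 2 ^ (2 * r + 2) / 2 ^ N + (p : ℝ) ^ r * (E / (H : ℝ) ^ N) := by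
    rw [hAdef, hEdef]
    ring
  rw [e5]
  linarith

end Vale.Agent.P230
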