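import Vale.Agent.P230.Defs

/-!
# P230: module COVER
-/

open MeasureTheory Finset

namespace Vale.Agent.P230
namespace Cov

/-- the homomorphism defining the lattice -/
noncomputable def psi {N m p d : ℕ} (Φ : Matrix (Fin d) (Fin N) (ZMod p))
    (x : Fin m → (Fin d → ZMod p)) : (Fin N ⊕ Fin m → ℤ) →+ (Fin d → ZMod p) where
  toFun v := Φ.mulVec (fun i => (v (Sum.inl i) : ZMod p)) + ∑ j, v (Sum.inr j) • x j
  map_zero' := by
    have : (fun i : Fin N => (((0 : Fin N ⊕ Fin m → ℤ) (Sum.inl i) : ℤ) : ZMod p)) = 0 := by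
      funext i; simp
    rw [this]; simp
  map_add' v v' := by
    have : (fun i : Fin N => (((v + v') (Sum.inl i) : ℤ) : ZMod p))
        = (fun i => (v (Sum.inl i) : ZMod p)) + (fun i => (v' (Sum.inl i) : ZMod p)) := by
      funext i; simp
    rw [this, Matrix.mulVec_add]
    simp only [Pi.add_apply, add_smul, sum_add_distrib]
    abel

theorem psi_surj {N m p d : ℕ} [NeZero p] (Φ : Matrix (Fin d) (Fin N) (ZMod p))
    (x : Fin m → (Fin d → ZMod p)) (hΦ : Function.Surjective Φ.mulVec) :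
    Function.Surjective (psi Φ x) := by
  intro g
  obtain ⟨v, hv⟩ := hΦ g
  refine ⟨Sum.elim (fun i => ((v i).val : ℤ)) (fun _ => 0), ?_⟩
  change Φ.mulVec (fun i => (((v i).val : ℤ) : ZMod p)) + ∑ j, (0 : ℤ) • x j = g
  simp [hv]

/-- shrinking a normalised body -/
theorem shrink {N m : ℕ} {K : Set ((Fin N → ℝ) × (Fin m → ℝ))} (hN : 1 ≤ N) (hK : Normal N m K)
    (κ e : (Fin N → ℝ) × (Fin m → ℝ)) (hκ : κ ∈ K)
    (he1 : ∀ i, 0 ≤ e.1 i ∧ e.1 i ≤ 1 / ((N : ℝ) + m) ^ 2)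
    (he2 : ∀ j, 0 ≤ e.2 j ∧ e.2 j ≤ 1 / ((N : ℝ) + m) ^ 2) :
    (1 + 2 / ((N : ℝ) + m))⁻¹ • (κ + e) ∈ K := by
  have hN' : (1 : ℝ) ≤ N := by exact_mod_cast hN
  set n : ℝ := (N : ℝ) + m with hn
  have hn1 : 1 ≤ n := by
    have : (0 : ℝ) ≤ m := by positivity
    linarith
  have hbd : ∀ t : ℝ, 0 ≤ t → t ≤ 1 / n ^ 2 → 0 ≤ n / 2 * t ∧ n / 2 * t ≤ 1 / n := by
    intro t h0 h1
    refine ⟨by positivity, ?_⟩
    calc n / 2 * t ≤ n / 2 * (1 / n ^ 2) := by gcongr
      _ = 1 / n / 2 := by field_simp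
      _ ≤ 1 / n := by
        have : 0 ≤ 1 / n := by positivity
        linarith
  have hin : (n / 2) • e ∈ K := by
    apply hK.inner
    · intro i
      exact hbd _ (he1 i).1 (he1 i).2
    · intro j
      exact hbd _ (he2 j).1 (he2 j).2
  have hc := hK.convex hκ hin (a := n / (n + 2)) (b := 2 / (n + 2)) (by positivity) (by positivity)
    (by field_simp)
  have h1 : (1 + 2 / n)⁻¹ = n / (n + 2) := by field_simp
  rw [h1, smul_add]
  convert hc using 2
  rw [smul_smul]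
  congr 1
  field_simp

end Cov

open Cov in
theorem cover (hbasis : S_BASIS) : S_COVER := by
  intro N m K h τ M p d q Φ x hN hNm hK hh hτ hp hM hq hΦ hyp
  have : Fact p.Prime := ⟨hp⟩
  have : NeZero p := ⟨hp.ne_zero⟩
  have hN' : (1 : ℝ) ≤ N := by exact_mod_cast hN
  have hp0 : (0 : ℝ) < p := by exact_mod_cast hp.pos
  set n : ℝ := (N : ℝ) + m with hn
  have hn1 : 1 ≤ n := by
    have : (0 : ℝ) ≤ m := by positivity
    linarith
  have hn2 : 0 < n ^ 2 := by positivity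
  have hM0 : 0 < M := lt_of_lt_of_le hn2 hM
  have hq' : n ^ 2 ≤ (q : ℝ) := by rw [hn]; exact_mod_cast hq
  have hq0 : (0 : ℝ) < q := lt_of_lt_of_le hn2 hq'
  -- the lattice
  have hidx : (psi Φ x).ker.index = p ^ d := by
    rw [AddSubgroup.index_ker, AddMonoidHom.range_eq_top.2 (psi_surj Φ x hΦ)]
    simp [Nat.card_eq_fintype_card]
  obtain ⟨B, hBdet, hB⟩ := hbasis (Fin N ⊕ Fin m) (psi Φ x).ker
    (by rw [hidx]; exact pow_ne_zero _ hp.ne_zero)
  rw [hidx] at hBdet
  let D : Fin N ⊕ Fin m → ℝ := Sum.elim (fun _ => 1 / M) h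
  let s : ℝ := 1 + 2 / n
  have hs : 0 < s := by positivity
  let BR : Matrix (Fin N ⊕ Fin m) (Fin N ⊕ Fin m) ℝ := B.map (fun t : ℤ => (t : ℝ))
  have hBR : |BR.det| = (p : ℝ) ^ d := by
    have h1 : BR.det = ((B.det : ℤ) : ℝ) := (RingHom.map_det (Int.castRingHom ℝ) B).symm
    rw [h1, ← Int.cast_abs, Int.abs_eq_natAbs, hBdet]
    push_cast
    rfl
  have hDprod : ∏ i, D i = (1 / M) ^ N * ∏ j, h j := by
    rw [Fintype.prod_sum_type]
    simp [D]
  have hprod : 0 < ∏ j, h j := prod_pos fun j _ => (hh j).1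
  have hD0 : 0 < ∏ i, D i := by rw [hDprod]; positivity
  let A : Matrix (Fin N ⊕ Fin m) (Fin N ⊕ Fin m) ℝ := s⁻¹ • (Matrix.diagonal D * BR)
  have hAdet : |A.det| = (s⁻¹) ^ (N + m) * ((1 / M) ^ N * ∏ j, h j) * (p : ℝ) ^ d := by
    rw [Matrix.det_smul, Matrix.det_mul, Matrix.det_diagonal, hDprod, abs_mul, abs_mul, hBR,
      Fintype.card_sum, Fintype.card_fin, Fintype.card_fin, abs_of_pos (by positivity),
      abs_of_pos (by positivity)]
    ring
  have hAk : ∀ (k : Fin N ⊕ Fin m → ℤ) (i : Fin N ⊕ Fin m),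
      A.mulVec (fun j => (k j : ℝ)) i = s⁻¹ * (D i * ((B.mulVec k i : ℤ) : ℝ)) := by
    intro k i
    have h1 : BR.mulVec (fun j => (k j : ℝ)) = fun i => ((B.mulVec k i : ℤ) : ℝ) := by
      funext i
      simp [BR, Matrix.mulVec, dotProduct]
    rw [Matrix.smul_mulVec, ← Matrix.mulVec_mulVec, h1]
    simp [Matrix.mulVec_diagonal]
  refine ⟨A, ?_, ?_, ?_⟩
  · intro h0
    rw [h0, abs_zero] at hAdet
    have : 0 < (s⁻¹) ^ (N + m) * ((1 / M) ^ N * ∏ j, h j) * (p : ℝ) ^ d := by positivity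
    linarith
  · intro z
    let w : Fin N → ℤ := fun i => ⌊M * (s * z.1 i)⌋
    let a : Fin m → ℤ := fun j => ⌊q * (s * z.2 j) / h j⌋
    obtain ⟨u, μ, hu1, hu2⟩ := hyp w a
    let e : (Fin N → ℝ) × (Fin m → ℝ) :=
      (fun i => s * z.1 i - (w i : ℝ) / M, fun j => s * z.2 j - h j * (a j : ℝ) / q)
    have he1 : ∀ i, 0 ≤ e.1 i ∧ e.1 i ≤ 1 / n ^ 2 := by
      intro i
      have h1 := Int.floor_le (M * (s * z.1 i))
      have h2 := Int.lt_floor_add_one (M * (s * z.1 i))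
      constructor
      · change 0 ≤ s * z.1 i - (w i : ℝ) / M
        rw [sub_nonneg, div_le_iff₀ hM0]
        linarith
      · change s * z.1 i - (w i : ℝ) / M ≤ 1 / n ^ 2
        calc s * z.1 i - (w i : ℝ) / M ≤ 1 / M := by
              rw [sub_le_iff_le_add, ← add_div, le_div_iff₀ hM0]
              linarith
          _ ≤ 1 / n ^ 2 := by gcongr
    have he2 : ∀ j, 0 ≤ e.2 j ∧ e.2 j ≤ 1 / n ^ 2 := by
      intro j
      have hj := (hh j).1
      have h1 := Int.floor_le (q * (s * z.2 j) / h j)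
      have h2 := Int.lt_floor_add_one (q * (s * z.2 j) / h j)
      rw [le_div_iff₀ hj] at h1
      rw [div_lt_iff₀ hj] at h2
      constructor
      · change 0 ≤ s * z.2 j - h j * (a j : ℝ) / q
        rw [sub_nonneg, div_le_iff₀ hq0]
        calc h j * (a j : ℝ) = (⌊q * (s * z.2 j) / h j⌋ : ℝ) * h j := by ring
          _ ≤ q * (s * z.2 j) := h1
          _ = _ := by ring
      · change s * z.2 j - h j * (a j : ℝ) / q ≤ 1 / n ^ 2
        calc s * z.2 j - h j * (a j : ℝ) / q ≤ h j / q := by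
              rw [sub_le_iff_le_add, ← add_div, le_div_iff₀ hq0]
              calc s * z.2 j * q = q * (s * z.2 j) := by ring
                _ ≤ ((⌊q * (s * z.2 j) / h j⌋ : ℝ) + 1) * h j := h2.le
                _ = h j + h j * (a j : ℝ) := by ring
          _ ≤ 1 / q := by gcongr; exact (hh j).2
          _ ≤ 1 / n ^ 2 := by gcongr
    have hsh := shrink hN hK _ e hu1 he1 he2
    -- the lattice vector
    let v : Fin N ⊕ Fin m → ℤ := Sum.elim (fun i => w i - u i) (fun j => - μ j)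
    have hv : v ∈ (psi Φ x).ker := by
      rw [AddMonoidHom.mem_ker]
      change Φ.mulVec (fun i => ((w i - u i : ℤ) : ZMod p)) + ∑ j, (- μ j) • x j = 0
      have h1 : (fun i => ((w i - u i : ℤ) : ZMod p))
          = (fun i => (w i : ZMod p)) - (fun i => (u i : ZMod p)) := by
        funext i; simp
      rw [h1, Matrix.mulVec_sub, hu2]
      simp
    obtain ⟨k, hk⟩ := (hB v).1 hv
    refine ⟨k, ?_⟩
    convert hsh using 1
    apply Prod.ext
    · funext i
      change z.1 i - A.mulVec (fun j => (k j : ℝ)) (Sum.inl i)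
        = (1 + 2 / ((N : ℝ) + m))⁻¹ * ((u i : ℝ) / M + (s * z.1 i - (w i : ℝ) / M))
      rw [hAk, ← hk]
      change z.1 i - s⁻¹ * ((1 / M) * ((w i - u i : ℤ) : ℝ)) =
        s⁻¹ * ((u i : ℝ) / M + (s * z.1 i - (w i : ℝ) / M))
      push_cast
      field_simp
      ring
    · funext j
      change z.2 j - A.mulVec (fun j => (k j : ℝ)) (Sum.inr j)
        = (1 + 2 / ((N : ℝ) + m))⁻¹ * (h j * ((a j : ℝ) + q * μ j) / q
          + (s * z.2 j - h j * (a j : ℝ) / q))
      rw [hAk, ← hk]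
      change z.2 j - s⁻¹ * (h j * ((- μ j : ℤ) : ℝ)) =
        s⁻¹ * (h j * ((a j : ℝ) + q * μ j) / q + (s * z.2 j - h j * (a j : ℝ) / q))
      push_cast
      field_simp
      ring
  · rw [hAdet]
    have h1 : Real.exp 2 * (volume K).toReal * M ^ N / ((∏ j, h j) * (p : ℝ) ^ d)
        * (s⁻¹ ^ (N + m) * ((1 / M) ^ N * ∏ j, h j) * (p : ℝ) ^ d)
        = (Real.exp 2 * s⁻¹ ^ (N + m)) * (volume K).toReal := by
      rw [one_div, inv_pow M]
      field_simp
    rw [h1]
    have h2 : 1 ≤ Real.exp 2 * s⁻¹ ^ (N + m) := by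
      rw [inv_pow, ← div_eq_mul_inv, one_le_div (by positivity)]
      have h3 : s ≤ Real.exp (2 / n) := by
        have := Real.add_one_le_exp (2 / n)
        change 1 + 2 / n ≤ _
        linarith
      calc s ^ (N + m) ≤ Real.exp (2 / n) ^ (N + m) := pow_le_pow_left₀ hs.le h3 _
        _ = Real.exp 2 := by
          rw [← Real.exp_nat_mul]
          congr 1
          push_cast
          rw [← hn]
          field_simp
    have h3 : 0 ≤ (volume K).toReal := ENNReal.toReal_nonneg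
    nlinarith

end Vale.Agent.P230
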