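import Mathlib

/-!
# P230: every convex body in `ℝ^n` has a lattice covering of density `≤ C n (log n)^{5/2}`

Common definitions and the statements (as `Prop`s) of the modules.
-/

open MeasureTheory
open scoped ENNReal NNReal BigOperators

namespace Vale.Agent.P230

/-- convex body in `ℝ^ι` -/
structure IsConvexBody {ι : Type} [Fintype ι] (K : Set (ι → ℝ)) : Prop where
  compact : IsCompact K
  convex : Convex ℝ K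
  interior_nonempty : (interior K).Nonempty

/-- `K` has a lattice covering of density `≤ c`: there is an invertible matrix `A` with
`K + A ℤ^ι = ℝ^ι` and `vol K ≤ c |det A|`. -/
def LatCover {ι : Type} [Fintype ι] [DecidableEq ι] (K : Set (ι → ℝ)) (c : ℝ) : Prop :=
  ∃ A : Matrix ι ι ℝ, A.det ≠ 0 ∧
    (∀ x : ι → ℝ, ∃ z : ι → ℤ, x - A.mulVec (fun i => (z i : ℝ)) ∈ K) ∧
    (volume K).toReal ≤ c * |A.det|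

/-! ## 1. Prékopa–Leindler -/

def S_PL : Prop := ∀ (n : ℕ) (θ : ℝ) (f g h : (Fin n → ℝ) → ℝ≥0∞), 0 < θ → θ < 1 →
  Measurable f → Measurable g → Measurable h →
  (∀ x y, f x ^ (1 - θ) * g y ^ θ ≤ h ((1 - θ) • x + θ • y)) →
  (∫⁻ x, f x) ^ (1 - θ) * (∫⁻ x, g x) ^ θ ≤ ∫⁻ x, h x

/-! ## 2. the real lemma: `sup h Ψ(h) ≥ (1/e) ∫ Ψ` for log-concave `Ψ` on `(0,∞)` -/

def S_REAL : Prop := ∀ Ψ : ℝ → ℝ≥0∞, Measurable Ψ →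
  (∀ x y θ : ℝ, 0 < x → 0 < y → 0 < θ → θ < 1 →
    Ψ x ^ (1 - θ) * Ψ y ^ θ ≤ Ψ ((1 - θ) * x + θ * y)) →
  (∃ B : ℝ≥0∞, B ≠ ⊤ ∧ ∀ x, Ψ x ≤ B) → (∃ b : ℝ, ∀ x, b < x → Ψ x = 0) →
  (∫⁻ x in Set.Ioi (0 : ℝ), Ψ x) ≠ 0 →
  ∃ h : ℝ, 0 < h ∧ ∫⁻ x in Set.Ioi (0 : ℝ), Ψ x ≤ ENNReal.ofReal (Real.exp 1 * h) * Ψ h

/-! ## 3. the tree lemma -/

/-- `y` such that two consecutive points of `s + hℤ` over `y` are in `A` -/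
def redSet (h s : ℝ) {k : ℕ} (A : Set (Fin (k + 1) → ℝ)) : Set (Fin k → ℝ) :=
  {y | ∃ j : ℤ, (Fin.cons (s + j * h) y : Fin (k + 1) → ℝ) ∈ A ∧
    (Fin.cons (s + (j + 1) * h) y : Fin (k + 1) → ℝ) ∈ A}

/-- there is a binary tree of depth `m` in `(s + ⊕ hᵢℤ) ∩ A` -/
def TreeSet : (m : ℕ) → (Fin m → ℝ) → (Fin m → ℝ) → Set (Fin m → ℝ) → Prop
  | 0, _, _, A => (fun i => Fin.elim0 i) ∈ A
  | _ + 1, h, s, A => TreeSet _ (Fin.tail h) (Fin.tail s) (redSet (h 0) (s 0) A)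

/-- bounded lower semicontinuous log-concave functions supported in `[-1,1]^m` -/
structure LC {m : ℕ} (f : (Fin m → ℝ) → ℝ≥0∞) : Prop where
  lsc : ∀ τ, IsOpen {x | τ < f x}
  lc : ∀ (x y : Fin m → ℝ) (θ : ℝ), 0 < θ → θ < 1 →
    f x ^ (1 - θ) * f y ^ θ ≤ f ((1 - θ) • x + θ • y)
  bdd : ∃ B : ℝ≥0∞, B ≠ ⊤ ∧ ∀ x, f x ≤ B
  supp : ∀ x, f x ≠ 0 → ∀ i, |x i| ≤ 1

def S_TREE : Prop := ∀ (m : ℕ) (f : (Fin m → ℝ) → ℝ≥0∞), LC f → (∫⁻ x, f x) ≠ 0 →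
  ∃ h : Fin m → ℝ, (∀ i, 0 < h i ∧ h i ≤ 1) ∧ ∀ τ : ℝ≥0∞,
    ENNReal.ofReal ((2 * Real.exp 1) ^ m * ∏ i, h i) * τ < ∫⁻ x, f x →
    ∀ s : Fin m → ℝ, TreeSet m h s {x | τ < f x}

/-! ## 4. Young's inequality with an exponentially small constant -/

def S_YOUNG1 : Prop := ∀ f g h : ℝ → ℝ≥0∞, Measurable f → Measurable g → Measurable h →
  ∫⁻ x, ∫⁻ y, (f x * g y * h (x + y)) ^ (2 / 3 : ℝ) ≤
    ENNReal.ofReal (998 / 1000) * ((∫⁻ x, f x) * (∫⁻ x, g x) * (∫⁻ x, h x)) ^ (2 / 3 : ℝ)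

def S_YOUNG : Prop := ∀ (N : ℕ) (f g h : (Fin N → ℝ) → ℝ≥0∞),
  Measurable f → Measurable g → Measurable h →
  ∫⁻ x, ∫⁻ y, (f x * g y * h (x + y)) ^ (2 / 3 : ℝ) ≤
    ENNReal.ofReal ((998 / 1000) ^ N) *
      ((∫⁻ x, f x) * (∫⁻ x, g x) * (∫⁻ x, h x)) ^ (2 / 3 : ℝ)

/-! ## 5. counting relations -/

/-- all half-open cubes of side `H` at the points of `S` are contained in `Q` -/
def CubesIn {N : ℕ} (S : Finset (Fin N → ℤ)) (H : ℕ) (Q : Set (Fin N → ℝ)) : Prop :=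
  ∀ v ∈ S, ∀ x : Fin N → ℝ, (∀ i, (v i : ℝ) ≤ x i ∧ x i < v i + H) → x ∈ Q

/-- `x ∈ 𝔽_p` is a fraction `b/a` with `1 ≤ a ≤ H`, `|b| ≤ H` -/
def HT (p : ℕ) (H : ℕ) (x : ZMod p) : Prop :=
  ∃ a b : ℤ, 1 ≤ a ∧ a ≤ H ∧ |b| ≤ H ∧ (a : ZMod p) * x = (b : ZMod p)

/-- (P1) -/
def S_COUNTA : Prop := ∀ (p N D H : ℕ) (S : Finset (Fin N → ℤ)) (Q : Set (Fin N → ℝ))
  (x : ZMod p) (w : Fin N → ZMod p), p.Prime → 2 ≤ H → 4 * D ^ 2 < p →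
  (∀ v ∈ S, ∀ v' ∈ S, ∀ i, |v i - v' i| ≤ D) → MeasurableSet Q → volume Q ≠ ⊤ →
  CubesIn S H Q → ¬ HT p (H - 1) x →
  (Nat.card {v : Fin N → ℤ // v ∈ S ∧ ∃ u ∈ S, ∀ i, x * (v i : ZMod p) + w i = (u i : ZMod p)} : ℝ)
    * (H : ℝ) ^ N ≤ (volume Q).toReal

/-- (P2) -/
def S_COUNTB : Prop := ∀ (p N D : ℕ) (S : Finset (Fin N → ℤ)) (Q : Set (Fin N → ℝ))
  (w : Fin N → ZMod p), 3 * D < p →
  (∀ v ∈ S, ∀ v' ∈ S, ∀ i, |v i - v' i| ≤ D) → MeasurableSet Q → volume Q ≠ ⊤ →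
  CubesIn S 2 Q →
  (Nat.card {v : (Fin N → ℤ) × (Fin N → ℤ) // v.1 ∈ S ∧ v.2 ∈ S ∧
      ∃ u ∈ S, ∀ i, (v.1 i : ZMod p) + (v.2 i : ZMod p) + w i = (u i : ZMod p)} : ℝ)
    ≤ (998 / 1000) ^ N * (volume Q).toReal ^ 2

/-- the vector `(1, v) mod p` -/
def lift (p : ℕ) {N : ℕ} (v : Fin N → ℤ) : Fin (N + 1) → ZMod p :=
  Fin.cons 1 (fun i => (v i : ZMod p))

/-- number of pairs (coefficient vector `c` which is not a unit vector, `r`-tuple `s` in `S`)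
with `∑ cᵢ sᵢ ∈ S` -/
noncomputable def relCount (p : ℕ) {k : ℕ} (S : Finset (Fin k → ZMod p)) (r : ℕ) : ℕ :=
  Nat.card {q : (Fin r → ZMod p) × (Fin r → (Fin k → ZMod p)) //
    (∀ i, q.1 ≠ Pi.single i 1) ∧ (∀ i, q.2 i ∈ S) ∧ (∑ i, q.1 i • q.2 i) ∈ S}

open Classical in
def S_COUNT : Prop := ∀ (p N D H r : ℕ) (S : Finset (Fin N → ℤ)) (Q : Set (Fin N → ℝ)) (ρ : ℝ),
  p.Prime → 0 ≤ ρ → 2 ≤ H → 4 * D ^ 2 < p → 3 * D < p → r + 1 < p → 2 * r + 2 ≤ N →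
  (∀ v ∈ S, ∀ v' ∈ S, ∀ i, |v i - v' i| ≤ D) → MeasurableSet Q → volume Q ≠ ⊤ →
  CubesIn S H Q → (volume Q).toReal ≤ ρ * S.card →
  (relCount p (S.image (lift p)) r : ℝ) ≤
    (3 ^ r * (998 / 1000) ^ N * ρ ^ 2 + ρ * 3 ^ r * 2 ^ (2 * r + 2) / 2 ^ N
      + ρ * (p : ℝ) ^ r / (H : ℝ) ^ N) * (S.card : ℝ) ^ r

/-! ## 6. the base lemma -/

def S_BASE : Prop := ∀ (p k d l : ℕ) (S : Finset (Fin k → ZMod p)) (π : ℝ), p.Prime → 0 ≤ π →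
  (∀ r ≤ 4 * l, (relCount p S r : ℝ) ≤ π * (S.card : ℝ) ^ r) →
  (Nat.card {L : Matrix (Fin d) (Fin k) (ZMod p) // ∀ s ∈ S, L.mulVec s ≠ 0} : ℝ) ≤
    (Real.exp (-(S.card / (p : ℝ) ^ d)) + (S.card / (p : ℝ) ^ d) ^ (2 * l + 1) / (2 * l + 1).factorial
      + 2 * Real.exp (2 * (S.card / (p : ℝ) ^ d)) * π) * (p : ℝ) ^ (d * k)

/-! ## 7. greedy choice -/

def redZ (q a : ℤ) {k : ℕ} (A : Set (Fin (k + 1) → ℤ)) : Set (Fin k → ℤ) :=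
  {y | ∃ j : ℤ, (Fin.cons (a + j * q) y : Fin (k + 1) → ℤ) ∈ A ∧
    (Fin.cons (a + (j + 1) * q) y : Fin (k + 1) → ℤ) ∈ A}

def TreeZ : (m : ℕ) → ℤ → (Fin m → ℤ) → Set (Fin m → ℤ) → Prop
  | 0, _, _, A => (fun i => Fin.elim0 i) ∈ A
  | _ + 1, q, a, A => TreeZ _ q (Fin.tail a) (redZ q (a 0) A)

def S_GREEDY : Prop := ∀ (G : Type) [AddCommGroup G] [Fintype G] [DecidableEq G] (m : ℕ) (q : ℤ)
  (A : Finset (Fin m → ℤ)) (U : (Fin m → ℤ) → Finset G) (W δ : ℝ), 0 < q → 0 < W → 0 ≤ δ →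
  (A.card : ℝ) ≤ W → (∀ a ∈ A, ((U a).card : ℝ) ≤ δ * Fintype.card G) →
  (W * δ) ^ 2 ^ m * Fintype.card G < W →
  ∃ x : Fin m → G, ∀ a : Fin m → ℤ, TreeZ m q a A → ∀ g : G, ∃ μ : Fin m → ℤ,
    g - ∑ i, μ i • x i ∉ U (fun i => a i + q * μ i)

/-! ## 8. selection of `Φ` -/

def S_SELECT : Prop := ∀ (p N d : ℕ) (I : Type) (A : Finset I) (S : I → Finset (Fin N → ℤ))
  (δ : ℝ), p.Prime →
  (∀ a ∈ A, (Nat.card {L : Matrix (Fin d) (Fin (N + 1)) (ZMod p) //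
      ∀ s ∈ S a, L.mulVec (lift p s) ≠ 0} : ℝ) ≤ δ * (p : ℝ) ^ (d * (N + 1))) →
  ∃ Φ : Matrix (Fin d) (Fin N) (ZMod p), ∀ a ∈ A,
    (Nat.card {b : Fin d → ZMod p // ∀ s ∈ S a, Φ.mulVec (fun i => (s i : ZMod p)) ≠ b} : ℝ)
      ≤ A.card * δ * (p : ℝ) ^ d

/-! ## 9. slices of a normalised body -/

/-- `[0,1/n]^n ⊆ K ⊆ [-1,1]^n`, `K` compact convex, in `ℝ^N × ℝ^m`, `n = N + m` -/
structure Normal (N m : ℕ) (K : Set ((Fin N → ℝ) × (Fin m → ℝ))) : Prop where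
  compact : IsCompact K
  convex : Convex ℝ K
  inner : ∀ z : (Fin N → ℝ) × (Fin m → ℝ), (∀ i, 0 ≤ z.1 i ∧ z.1 i ≤ 1 / ((N : ℝ) + m)) →
    (∀ j, 0 ≤ z.2 j ∧ z.2 j ≤ 1 / ((N : ℝ) + m)) → z ∈ K
  outer : ∀ z ∈ K, (∀ i, |z.1 i| ≤ 1) ∧ ∀ j, |z.2 j| ≤ 1

/-- the slice over `t` -/
def slice {N m : ℕ} (K : Set ((Fin N → ℝ) × (Fin m → ℝ))) (t : Fin m → ℝ) : Set (Fin N → ℝ) :=
  {y | (y, t) ∈ K}

/-- the eroded slice -/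
def eslice {N m : ℕ} (K : Set ((Fin N → ℝ) × (Fin m → ℝ))) (t : Fin m → ℝ) : Set (Fin N → ℝ) :=
  {y | ∀ u : Fin N → ℝ, (∀ i, |u i| ≤ 1 / (2 * ((N : ℝ) + m) ^ 2)) → (y + u, t) ∈ K}

def S_BODY : Prop := ∀ (N m : ℕ) (K : Set ((Fin N → ℝ) × (Fin m → ℝ))), 1 ≤ N → 2 ≤ N + m →
  Normal N m K → ∃ (h : Fin m → ℝ) (τ : ℝ), (∀ j, 0 < h j ∧ h j ≤ 1) ∧ 0 < τ ∧
    (volume K).toReal ≤ 8 * (2 * Real.exp 1) ^ m * (∏ j, h j) * τ ∧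
    (∀ s, TreeSet m h s {t | τ < (volume (eslice K t)).toReal}) ∧
    (∀ t, (volume (slice K t)).toReal ≤ 32 * (6 * ((N : ℝ) + m) ^ 2) ^ m * τ) ∧
    1 / (32 * (6 * ((N : ℝ) + m) ^ 2) ^ m) ≤ ∏ j, h j ∧
    1 / (8 * 6 ^ m * ((N : ℝ) + m) ^ (N + m)) ≤ τ ∧ τ ≤ 2 ^ N

/-- fattening a slice by a small cube -/
def S_FAT : Prop := ∀ (N m : ℕ) (K : Set ((Fin N → ℝ) × (Fin m → ℝ))) (t : Fin m → ℝ) (ε : ℝ),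
  1 ≤ N → 2 ≤ N + m → Normal N m K → (eslice K t).Nonempty → 0 ≤ ε →
  ε ≤ 1 / (2 * ((N : ℝ) + m) ^ 3) →
  (volume {y : Fin N → ℝ | ∃ u : Fin N → ℝ, (∀ i, 0 ≤ u i ∧ u i ≤ ε) ∧ y - u ∈ slice K t}).toReal
    ≤ 3 * (volume (slice K t)).toReal

/-! ## 10. lattices -/

def S_BASIS : Prop := ∀ (ι : Type) [Fintype ι] [DecidableEq ι] (L : AddSubgroup (ι → ℤ)),
  L.index ≠ 0 → ∃ B : Matrix ι ι ℤ, B.det.natAbs = L.index ∧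
    ∀ v : ι → ℤ, v ∈ L ↔ ∃ z : ι → ℤ, v = B.mulVec z

/-! ## 11. normalisation -/

def S_NORM : Prop := ∀ (n : ℕ) (K : Set (Fin n → ℝ)), 1 ≤ n → IsConvexBody K →
  ∃ (B : Matrix (Fin n) (Fin n) ℝ) (b : Fin n → ℝ), B.det ≠ 0 ∧
    (∀ x : Fin n → ℝ, (∀ i, 0 ≤ x i ∧ x i ≤ 1 / (n : ℝ)) → B.mulVec x + b ∈ K) ∧
    (∀ x : Fin n → ℝ, B.mulVec x + b ∈ K → ∀ i, |x i| ≤ 1)

def S_AFF : Prop := ∀ (ι : Type) [Fintype ι] [DecidableEq ι] (K : Set (ι → ℝ)) (B : Matrix ι ι ℝ)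
  (b : ι → ℝ) (c : ℝ), B.det ≠ 0 → MeasurableSet K →
  LatCover {x | B.mulVec x + b ∈ K} c → LatCover K c

/-- the product form of the covering statement -/
def ProdCover {N m : ℕ} (K : Set ((Fin N → ℝ) × (Fin m → ℝ))) (c : ℝ) : Prop :=
  ∃ A : Matrix (Fin N ⊕ Fin m) (Fin N ⊕ Fin m) ℝ, A.det ≠ 0 ∧
    (∀ z : (Fin N → ℝ) × (Fin m → ℝ), ∃ k : Fin N ⊕ Fin m → ℤ,
      (z.1 - fun i => A.mulVec (fun j => (k j : ℝ)) (Sum.inl i),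
        z.2 - fun i => A.mulVec (fun j => (k j : ℝ)) (Sum.inr i)) ∈ K) ∧
    (volume K).toReal ≤ c * |A.det|

/-- from the product form to `Fin n` -/
def S_SPLIT : Prop := ∀ (N m : ℕ) (c : ℝ),
  (∀ K : Set ((Fin N → ℝ) × (Fin m → ℝ)), Normal N m K → ProdCover K c) →
  ∀ K : Set (Fin (N + m) → ℝ), IsCompact K → Convex ℝ K →
    (∀ x : Fin (N + m) → ℝ, (∀ i, 0 ≤ x i ∧ x i ≤ 1 / ((N + m : ℕ) : ℝ)) → x ∈ K) →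
    (∀ x ∈ K, ∀ i, |x i| ≤ 1) → LatCover K c

/-! ## 12. assembly -/

/-- the deterministic part of the assembly: everything except the numerical choice of the
parameters -/
def S_COVER : Prop := ∀ (N m : ℕ) (K : Set ((Fin N → ℝ) × (Fin m → ℝ))) (h : Fin m → ℝ) (τ M : ℝ)
  (p d : ℕ) (q : ℕ) (Φ : Matrix (Fin d) (Fin N) (ZMod p)) (x : Fin m → (Fin d → ZMod p)),
  1 ≤ N → 2 ≤ N + m → Normal N m K → (∀ j, 0 < h j ∧ h j ≤ 1) → 0 < τ → p.Prime →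
  ((N : ℝ) + m) ^ 2 ≤ M → (N + m) ^ 2 ≤ q →
  Function.Surjective Φ.mulVec →
  (∀ (w : Fin N → ℤ) (a : Fin m → ℤ), ∃ (u : Fin N → ℤ) (μ : Fin m → ℤ),
    ((fun i => (u i : ℝ) / M), (fun j => h j * ((a j : ℝ) + q * μ j) / q)) ∈ K ∧
    Φ.mulVec (fun i => (u i : ZMod p)) =
      Φ.mulVec (fun i => (w i : ZMod p)) - ∑ j, μ j • x j) →
  ProdCover K (Real.exp 2 * (volume K).toReal * M ^ N / ((∏ j, h j) * (p : ℝ) ^ d))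

end Vale.Agent.P230
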