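import Vale.Agent.P230.Defs

open MeasureTheory
open scoped ENNReal NNReal BigOperators

namespace Vale.Agent.P230

theorem fat_slice_fin {N m : ℕ} {K : Set ((Fin N → ℝ) × (Fin m → ℝ))} (hK : Normal N m K)
    (t : Fin m → ℝ) : volume (slice K t) ≠ ⊤ := by
  have h1 : slice K t ⊆ Metric.closedBall 0 1 := by
    intro y hy
    rw [mem_closedBall_zero_iff, pi_norm_le_iff_of_nonneg zero_le_one]
    intro i
    exact (hK.outer _ hy).1 i
  exact (measure_lt_top_mono h1 measure_closedBall_lt_top).ne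

theorem fat_pow (N m : ℕ) (hn : 2 ≤ N + m) :
    (1 + 1 / ((N : ℝ) + m)) ^ N ≤ 3 := by
  have hn' : (0 : ℝ) < (N : ℝ) + m := by
    have : 0 < N + m := by omega
    exact_mod_cast this
  have h1 : 1 + 1 / ((N : ℝ) + m) ≤ Real.exp (1 / ((N : ℝ) + m)) := by
    rw [add_comm]; exact Real.add_one_le_exp _
  calc (1 + 1 / ((N : ℝ) + m)) ^ N ≤ Real.exp (1 / ((N : ℝ) + m)) ^ N := by gcongr
    _ = Real.exp (N * (1 / ((N : ℝ) + m))) := (Real.exp_nat_mul _ _).symm
    _ ≤ Real.exp 1 := by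
        apply Real.exp_le_exp.2
        rw [mul_one_div, div_le_one hn']
        have : (0 : ℝ) ≤ m := Nat.cast_nonneg m
        linarith
    _ ≤ 3 := by
        have := Real.exp_one_lt_d9
        linarith

theorem fat : S_FAT := by
  intro N m K t ε hN hn hK hne hε0 hε
  obtain ⟨y0, hy0⟩ := hne
  have hn' : (0 : ℝ) < (N : ℝ) + m := by
    have : 0 < N + m := by omega
    exact_mod_cast this
  set n : ℝ := (N : ℝ) + m with hndef
  set C : Set (Fin N → ℝ) := slice K t with hC
  have hconv : Convex ℝ C := by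
    intro a ha b hb p q hp hq hpq
    have h1 := hK.convex ha hb hp hq hpq
    have h2 : p • ((a, t) : (Fin N → ℝ) × (Fin m → ℝ)) + q • (b, t) = (p • a + q • b, t) := by
      ext i
      · simp
      · simp only [Prod.smul_mk, Prod.mk_add_mk]
        rw [← add_smul, hpq, one_smul]
    rw [h2] at h1
    exact h1
  have hsub : {y : Fin N → ℝ | ∃ u : Fin N → ℝ, (∀ i, 0 ≤ u i ∧ u i ≤ ε) ∧ y - u ∈ C} ⊆
      AffineMap.homothety y0 (1 + 1 / n) '' C := by
    rintro y ⟨u, hu, hyu⟩
    have h1 : y0 + n • u ∈ C := by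
      refine hy0 (n • u) fun i => ?_
      rw [Pi.smul_apply, smul_eq_mul, abs_of_nonneg (mul_nonneg hn'.le (hu i).1)]
      calc n * u i ≤ n * (1 / (2 * n ^ 3)) := by
            apply mul_le_mul_of_nonneg_left ((hu i).2.trans hε) hn'.le
        _ = 1 / (2 * n ^ 2) := by field_simp
    have h2 := hconv hyu h1 (a := n / (n + 1)) (b := 1 / (n + 1)) (by positivity) (by positivity)
      (by field_simp)
    refine ⟨_, h2, ?_⟩
    rw [AffineMap.homothety_apply]
    ext i
    simp only [vsub_eq_sub, vadd_eq_add, Pi.add_apply, Pi.smul_apply, Pi.sub_apply, smul_eq_mul]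
    field_simp
    ring
  have hvol : volume {y : Fin N → ℝ | ∃ u : Fin N → ℝ, (∀ i, 0 ≤ u i ∧ u i ≤ ε) ∧ y - u ∈ C} ≤
      ENNReal.ofReal ((1 + 1 / n) ^ N) * volume C := by
    refine (measure_mono hsub).trans (le_of_eq ?_)
    rw [Measure.addHaar_image_homothety, abs_of_nonneg (by positivity)]
    simp
  have hfin : volume C ≠ ⊤ := fat_slice_fin hK t
  calc (volume {y : Fin N → ℝ | ∃ u : Fin N → ℝ, (∀ i, 0 ≤ u i ∧ u i ≤ ε) ∧ y - u ∈ C}).toReal
      ≤ (ENNReal.ofReal ((1 + 1 / n) ^ N) * volume C).toReal :=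
        ENNReal.toReal_mono (ENNReal.mul_ne_top ENNReal.ofReal_ne_top hfin) hvol
    _ = (1 + 1 / n) ^ N * (volume C).toReal := by
        rw [ENNReal.toReal_mul, ENNReal.toReal_ofReal (by positivity)]
    _ ≤ 3 * (volume C).toReal := by
        apply mul_le_mul_of_nonneg_right (fat_pow N m hn) ENNReal.toReal_nonneg

end Vale.Agent.P230
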