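import Vale.Agent.P230.Defs

/-! Module NORM: normalisation by a simplex of maximal volume. -/

open MeasureTheory Set
open scoped ENNReal NNReal BigOperators

namespace Vale.Agent.P230

/-- matrix with columns `V j - b`. -/
private def colMat {n : ℕ} (b : Fin n → ℝ) (V : Fin n → Fin n → ℝ) : Matrix (Fin n) (Fin n) ℝ :=
  Matrix.of (fun i j => V j i - b i)

private theorem colMat_mulVec {n : ℕ} (b : Fin n → ℝ) (V : Fin n → Fin n → ℝ) (x : Fin n → ℝ) :
    (colMat b V).mulVec x = ∑ j, x j • (V j - b) := by
  ext i
  simp [colMat, Matrix.mulVec, dotProduct, Finset.sum_apply, mul_comm]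

private theorem colMat_update {n : ℕ} (b : Fin n → ℝ) (V : Fin n → Fin n → ℝ) (i : Fin n)
    (y : Fin n → ℝ) :
    colMat b (Function.update V i y) = (colMat b V).updateCol i (y - b) := by
  ext k j
  by_cases h : j = i
  · subst h
    simp [colMat]
  · simp [colMat, Matrix.updateCol_ne, h]

private theorem det_update {n : ℕ} (B : Matrix (Fin n) (Fin n) ℝ) (x : Fin n → ℝ) (i : Fin n) :
    (B.updateCol i (B.mulVec x)).det = B.det * x i := by
  rw [← Matrix.cramer_apply, Matrix.cramer_eq_adjugate_mulVec, Matrix.mulVec_mulVec,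
    Matrix.adjugate_mul, Matrix.smul_mulVec, Matrix.one_mulVec]
  simp

theorem norm_lemma : S_NORM := by
  intro n K hn hK
  obtain ⟨hcomp, hconv, x0, hx0⟩ := hK
  have hx0K : x0 ∈ K := interior_subset hx0
  -- the compact set of simplices
  have hcpt : IsCompact (K ×ˢ (Set.pi univ (fun _ : Fin n => K))) :=
    hcomp.prod (isCompact_univ_pi (fun _ => hcomp))
  have hne : (K ×ˢ (Set.pi univ (fun _ : Fin n => K))).Nonempty :=
    ⟨(x0, fun _ => x0), hx0K, fun _ _ => hx0K⟩
  have hcont : Continuous (fun q : (Fin n → ℝ) × (Fin n → Fin n → ℝ) => |(colMat q.1 q.2).det|) := by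
    refine continuous_abs.comp (Continuous.matrix_det ?_)
    unfold colMat
    refine continuous_matrix (fun i j => ?_)
    simp only [Matrix.of_apply]
    fun_prop
  obtain ⟨⟨b, V⟩, ⟨hbK, hVK⟩, hmax⟩ := hcpt.exists_isMaxOn hne hcont.continuousOn
  have hV : ∀ j, V j ∈ K := fun j => hVK j (mem_univ j)
  have hmax' : ∀ (b' : Fin n → ℝ) (V' : Fin n → Fin n → ℝ), b' ∈ K → (∀ j, V' j ∈ K) →
      |(colMat b' V').det| ≤ |(colMat b V).det| := by
    intro b' V' h1 h2
    exact hmax (a := (b', V')) ⟨h1, fun j _ => h2 j⟩
  -- positivity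
  have hpos : 0 < |(colMat b V).det| := by
    have hnhds : K ∈ nhds x0 := mem_interior_iff_mem_nhds.mp hx0
    obtain ⟨ε, hε, hball⟩ := Metric.mem_nhds_iff.mp hnhds
    have hmem : ∀ j : Fin n, x0 + (ε / 2) • (Pi.single j (1 : ℝ)) ∈ K := by
      intro j
      apply hball
      rw [Metric.mem_ball, dist_eq_norm, add_sub_cancel_left, norm_smul]
      have h1 : ‖(Pi.single j (1 : ℝ) : Fin n → ℝ)‖ = 1 := by
        rw [Pi.norm_single]; simp
      rw [h1, mul_one, Real.norm_eq_abs, abs_of_pos (by linarith)]
      linarith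
    have h2 := hmax' x0 (fun j => x0 + (ε / 2) • (Pi.single j (1 : ℝ))) hx0K hmem
    have h3 : colMat x0 (fun j => x0 + (ε / 2) • (Pi.single j (1 : ℝ)))
        = (ε / 2) • (1 : Matrix (Fin n) (Fin n) ℝ) := by
      ext i j
      simp [colMat, Matrix.one_apply, Pi.single_apply]
    rw [h3, Matrix.det_smul, Matrix.det_one, mul_one] at h2
    refine lt_of_lt_of_le ?_ h2
    rw [abs_pos]
    exact pow_ne_zero _ (by linarith)
  have hdet : (colMat b V).det ≠ 0 := abs_pos.mp hpos
  refine ⟨colMat b V, b, hdet, ?_, ?_⟩
  · intro x hx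
    rw [colMat_mulVec]
    have hn0 : (0 : ℝ) < n := by exact_mod_cast hn
    have hsum : ∑ j, x j ≤ 1 := by
      calc ∑ j, x j ≤ ∑ _j : Fin n, 1 / (n : ℝ) := Finset.sum_le_sum (fun j _ => (hx j).2)
        _ = 1 := by
          rw [Finset.sum_const, Finset.card_univ, Fintype.card_fin, nsmul_eq_mul]
          field_simp
    have h1 : (∑ j, x j • (V j - b)) + b = (∑ j, x j • V j) + (1 - ∑ j, x j) • b := by
      simp only [smul_sub, Finset.sum_sub_distrib, ← Finset.sum_smul, sub_smul, one_smul]
      abel
    rw [h1]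
    -- convex combination indexed by `Option (Fin n)`
    have h2 := hconv.sum_mem (t := (Finset.univ : Finset (Option (Fin n))))
      (w := fun o => o.elim (1 - ∑ j, x j) x) (z := fun o => o.elim b V) ?_ ?_ ?_
    · rw [Fintype.sum_option] at h2
      simp only [Option.elim_none, Option.elim_some] at h2
      rw [add_comm]
      exact h2
    · intro o _
      cases o with
      | none => simp only [Option.elim_none]; linarith
      | some j => simp only [Option.elim_some]; exact (hx j).1
    · rw [Fintype.sum_option]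
      simp
    · intro o _
      cases o with
      | none => simpa using hbK
      | some j => simpa using hV j
  · intro x hx i
    have h1 : (colMat b V).mulVec x = ((colMat b V).mulVec x + b) - b := by abel
    have h2 := hmax' b (Function.update V i ((colMat b V).mulVec x + b)) hbK ?_
    · rw [colMat_update, ← h1, det_update, abs_mul] at h2
      by_contra hcon
      push Not at hcon
      have : |(colMat b V).det| * 1 < |(colMat b V).det| * |x i| :=
        mul_lt_mul_of_pos_left hcon hpos
      linarith
    · intro j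
      by_cases h : j = i
      · subst h
        simpa using hx
      · rw [Function.update_of_ne h]
        exact hV j

end Vale.Agent.P230
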