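import Vale.Agent.P230.Defs
import Vale.Agent.P074.OneDimPL

/-!
# P230: Prékopa–Leindler on `Fin n → ℝ`, general weights, unbounded functions
-/

open MeasureTheory Set Filter
open scoped ENNReal NNReal Topology

namespace Vale.Agent.P230

/-- One-dimensional Prékopa–Leindler, bounded case. -/
theorem pl_one_bdd {θ : ℝ} (h0 : 0 < θ) (h1 : θ < 1) {f g h : ℝ → ℝ≥0∞} (hf : Measurable f)
    (hg : Measurable g) (hh : Measurable h)
    (N : ℝ≥0∞) (hN : N ≠ ⊤) (hfN : ∀ x, f x ≤ N) (hgN : ∀ x, g x ≤ N)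
    (H : ∀ x y, f x ^ (1 - θ) * g y ^ θ ≤ h ((1 - θ) * x + θ * y)) :
    (∫⁻ x, f x) ^ (1 - θ) * (∫⁻ x, g x) ^ θ ≤ ∫⁻ x, h x := by
  have h1' : 0 < 1 - θ := by linarith
  set h' : ℝ → ℝ≥0∞ := fun x => min (h x) N with hh'
  have hft : ∀ x, f x ≠ ⊤ := fun x => ne_top_of_le_ne_top hN (hfN x)
  have hgt : ∀ x, g x ≠ ⊤ := fun x => ne_top_of_le_ne_top hN (hgN x)
  have hht : ∀ x, h' x ≠ ⊤ := fun x => ne_top_of_le_ne_top hN (min_le_right _ _)
  have key : ∀ x y, f x ^ (1 - θ) * g y ^ θ ≤ h' ((1 - θ) * x + θ * y) := by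
    intro x y
    refine le_min (H x y) ?_
    calc f x ^ (1 - θ) * g y ^ θ ≤ N ^ (1 - θ) * N ^ θ :=
          mul_le_mul' (ENNReal.rpow_le_rpow (hfN x) h1'.le) (ENNReal.rpow_le_rpow (hgN y) h0.le)
      _ = N := by
          by_cases hN0 : N = 0
          · rw [hN0, ENNReal.zero_rpow_of_pos h0, mul_zero]
          · rw [← ENNReal.rpow_add _ _ hN0 hN]; simp
  have hpl := Vale.Agent.P074.OneDim.pl1 (f := fun x => (f x).toReal) (g := fun x => (g x).toReal)
    (h := fun x => (h' x).toReal) hf.ennreal_toReal hg.ennreal_toReal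
    (hh.min measurable_const).ennreal_toReal (fun _ => ENNReal.toReal_nonneg)
    (fun _ => ENNReal.toReal_nonneg) (fun _ => ENNReal.toReal_nonneg)
    ⟨N.toReal, by rintro _ ⟨x, rfl⟩; exact ENNReal.toReal_mono hN (hfN x)⟩
    ⟨N.toReal, by rintro _ ⟨x, rfl⟩; exact ENNReal.toReal_mono hN (hgN x)⟩
    (t := θ) h0 h1 (by
      intro x y
      have h2 := ENNReal.toReal_mono (hht _) (key x y)
      rwa [ENNReal.toReal_mul, ← ENNReal.toReal_rpow, ← ENNReal.toReal_rpow] at h2)
  simp only [ENNReal.ofReal_toReal (hft _), ENNReal.ofReal_toReal (hgt _),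
    ENNReal.ofReal_toReal (hht _)] at hpl
  exact hpl.trans (lintegral_mono fun x => min_le_left _ _)

/-- One-dimensional Prékopa–Leindler. -/
theorem pl_one {θ : ℝ} (h0 : 0 < θ) (h1 : θ < 1) {f g h : ℝ → ℝ≥0∞} (hf : Measurable f)
    (hg : Measurable g) (hh : Measurable h)
    (H : ∀ x y, f x ^ (1 - θ) * g y ^ θ ≤ h ((1 - θ) * x + θ * y)) :
    (∫⁻ x, f x) ^ (1 - θ) * (∫⁻ x, g x) ^ θ ≤ ∫⁻ x, h x := by
  have h1' : 0 < 1 - θ := by linarith
  have hsup : ∀ u : ℝ → ℝ≥0∞, Measurable u →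
      Tendsto (fun n : ℕ => ∫⁻ x, min (u x) (n : ℝ≥0∞)) atTop (𝓝 (∫⁻ x, u x)) := by
    intro u hu
    refine lintegral_tendsto_of_tendsto_of_monotone (fun n => (hu.min measurable_const).aemeasurable)
      (ae_of_all _ fun x => ?_) (ae_of_all _ fun x => ?_)
    · intro m n hmn
      exact min_le_min le_rfl (by exact_mod_cast hmn)
    · have h1 : Tendsto (fun n : ℕ => min (u x) (n : ℝ≥0∞)) atTop (𝓝 (min (u x) ⊤)) :=
        tendsto_const_nhds.min ENNReal.tendsto_nat_nhds_top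
      simpa using h1
  by_cases hf0 : (∫⁻ x, f x) = 0
  · rw [hf0, ENNReal.zero_rpow_of_pos h1', zero_mul]; exact bot_le
  by_cases hg0 : (∫⁻ x, g x) = 0
  · rw [hg0, ENNReal.zero_rpow_of_pos h0, mul_zero]; exact bot_le
  have e1 : (∫⁻ x, f x) ^ (1 - θ) ≠ 0 := by
    simp only [ne_eq, ENNReal.rpow_eq_zero_iff, not_or, not_and, not_lt]
    exact ⟨fun h => absurd h hf0, fun _ => h1'.le⟩
  have e2 : (∫⁻ x, g x) ^ θ ≠ 0 := by
    simp only [ne_eq, ENNReal.rpow_eq_zero_iff, not_or, not_and, not_lt]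
    exact ⟨fun h => absurd h hg0, fun _ => h0.le⟩
  refine le_of_tendsto (ENNReal.Tendsto.mul ((hsup f hf).ennrpow_const (1 - θ)) (Or.inl e1)
    ((hsup g hg).ennrpow_const θ) (Or.inl e2)) (Eventually.of_forall fun n => ?_)
  refine pl_one_bdd h0 h1 (hf.min measurable_const) (hg.min measurable_const) hh n (by finiteness)
    (fun x => min_le_right _ _) (fun x => min_le_right _ _) fun x y => ?_
  exact (mul_le_mul' (ENNReal.rpow_le_rpow (min_le_left _ _) h1'.le)
    (ENNReal.rpow_le_rpow (min_le_left _ _) h0.le)).trans (H x y)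

/-- Prékopa–Leindler on `Fin n → ℝ`. -/
theorem pl : S_PL := by
  intro n
  induction n with
  | zero =>
    intro θ f g h h0 h1 hf hg hh H
    rw [lintegral_unique, lintegral_unique, lintegral_unique]
    have h1 : (volume : Measure (Fin 0 → ℝ)) univ = 1 := by
      rw [Measure.volume_pi_eq_dirac default]; simp
    simp only [h1, mul_one]
    refine (H _ _).trans (le_of_eq ?_)
    exact congrArg h (Subsingleton.elim _ _)
  | succ n ih =>
    intro θ f g h h0 h1 hf hg hh H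
    have e := volume_preserving_piFinSuccAbove (fun _ : Fin (n + 1) => ℝ) 0
    set E := MeasurableEquiv.piFinSuccAbove (fun _ : Fin (n + 1) => ℝ) 0 with hE
    have hint : ∀ u : (Fin (n + 1) → ℝ) → ℝ≥0∞, Measurable u →
        ∫⁻ x, u x = ∫⁻ s : ℝ, ∫⁻ x' : Fin n → ℝ, u (E.symm (s, x')) := by
      intro u hu
      rw [← lintegral_prod (fun p => u (E.symm p)) (hu.comp E.symm.measurable).aemeasurable]
      have h1 := e.symm.lintegral_comp_emb E.symm.measurableEmbedding u
      rw [← h1]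
      rfl
    have hmeas : ∀ u : (Fin (n + 1) → ℝ) → ℝ≥0∞, Measurable u →
        Measurable fun s : ℝ => ∫⁻ x' : Fin n → ℝ, u (E.symm (s, x')) := fun u hu =>
      (hu.comp E.symm.measurable).lintegral_prod_right'
    rw [hint f hf, hint g hg, hint h hh]
    refine pl_one h0 h1 (hmeas f hf) (hmeas g hg) (hmeas h hh) fun s t => ?_
    refine ih θ _ _ _ h0 h1 (hf.comp (E.symm.measurable.comp measurable_prodMk_left))
      (hg.comp (E.symm.measurable.comp measurable_prodMk_left))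
      (hh.comp (E.symm.measurable.comp measurable_prodMk_left)) fun x y => ?_
    have h1 : E.symm ((1 - θ) * s + θ * t, (1 - θ) • x + θ • y) =
        (1 - θ) • E.symm (s, x) + θ • E.symm (t, y) := by
      ext j
      refine Fin.cases ?_ (fun k => ?_) j
      · simp [hE, MeasurableEquiv.piFinSuccAbove]
      · simp [hE, MeasurableEquiv.piFinSuccAbove]
    show f _ ^ (1 - θ) * g _ ^ θ ≤ h (E.symm ((1 - θ) * s + θ * t, (1 - θ) • x + θ • y))
    rw [h1]
    exact H _ _

end Vale.Agent.P230
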