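import Vale.Agent.P230.Defs

/-! Module REAL. -/

open MeasureTheory Set
open scoped ENNReal NNReal BigOperators

namespace Vale.Agent.P230

/-- supporting line of a function which is concave on the positive reals where it is defined. -/
private theorem support_line {C : Set ℝ} {u : ℝ → ℝ} {a x1 x2 : ℝ} (hx1 : x1 ∈ C) (hx2 : x2 ∈ C)
    (h1 : x1 < a) (h2 : a < x2)
    (hconc : ∀ x ∈ C, ∀ y ∈ C, x < a → a < y →
      (y - a) * u x + (a - x) * u y ≤ (y - x) * u a) :
    ∃ κ : ℝ, ∀ x ∈ C, u x ≤ u a + κ * (x - a) := by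
  have key : ∀ x ∈ C, ∀ y ∈ C, x < a → a < y → (u y - u a) / (y - a) ≤ (u a - u x) / (a - x) := by
    intro x hx y hy hxa hay
    rw [div_le_div_iff₀ (by linarith) (by linarith)]
    have := hconc x hx y hy hxa hay
    nlinarith
  set R : Set ℝ := {s | ∃ y ∈ C, a < y ∧ s = (u y - u a) / (y - a)} with hR
  have hRne : R.Nonempty := ⟨_, x2, hx2, h2, rfl⟩
  have hRb : BddAbove R := by
    refine ⟨(u a - u x1) / (a - x1), ?_⟩
    rintro s ⟨y, hy, hay, rfl⟩
    exact key x1 hx1 y hy h1 hay
  refine ⟨sSup R, ?_⟩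
  intro x hx
  rcases lt_trichotomy x a with h | h | h
  · have h3 : sSup R ≤ (u a - u x) / (a - x) := by
      refine csSup_le hRne ?_
      rintro s ⟨y, hy, hay, rfl⟩
      exact key x hx y hy h hay
    rw [le_div_iff₀ (by linarith)] at h3
    linarith
  · subst h
    simp
  · have h3 : (u x - u a) / (x - a) ≤ sSup R := le_csSup hRb ⟨x, hx, h, rfl⟩
    rw [div_le_iff₀ (by linarith)] at h3
    linarith

theorem real_lemma : S_REAL := by
  intro Ψ hmeas hlc hbdd hsupp hne
  obtain ⟨B, hB, hΨB⟩ := hbdd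
  obtain ⟨b0, hb0⟩ := hsupp
  obtain ⟨b, hb1, hb⟩ : ∃ b : ℝ, 1 ≤ b ∧ ∀ x, b < x → Ψ x = 0 :=
    ⟨max b0 1, le_max_right _ _, fun x hx => hb0 x (lt_of_le_of_lt (le_max_left _ _) hx)⟩
  have hbpos : 0 < b := by linarith
  set ψ : ℝ → ℝ := fun x => (Ψ x).toReal with hψ
  have hfin : ∀ x, Ψ x ≠ ⊤ := fun x => ne_top_of_le_ne_top hB (hΨB x)
  have hof : ∀ x, ENNReal.ofReal (ψ x) = Ψ x := fun x => ENNReal.ofReal_toReal (hfin x)
  have hψ0 : ∀ x, 0 ≤ ψ x := fun x => ENNReal.toReal_nonneg
  have hψB : ∀ x, ψ x ≤ B.toReal := fun x => ENNReal.toReal_mono hB (hΨB x)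
  have hψm : Measurable ψ := hmeas.ennreal_toReal
  set μ : Measure ℝ := volume.restrict (Ioc 0 b) with hμ
  have hμfin : IsFiniteMeasure μ := by
    rw [hμ]
    exact ⟨by rw [Measure.restrict_apply_univ, Real.volume_Ioc]; exact ENNReal.ofReal_lt_top⟩
  have hmem : ∀ᵐ x ∂μ, x ∈ Ioc 0 b := ae_restrict_mem measurableSet_Ioc
  have hint : Integrable ψ μ := by
    refine Integrable.of_bound hψm.aestronglyMeasurable B.toReal ?_
    filter_upwards with x
    rw [Real.norm_eq_abs, abs_of_nonneg (hψ0 x)]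
    exact hψB x
  have hintx : Integrable (fun x => x * ψ x) μ := by
    refine Integrable.of_bound (measurable_id.mul hψm).aestronglyMeasurable (b * B.toReal) ?_
    filter_upwards [hmem] with x hx
    rw [Real.norm_eq_abs, abs_of_nonneg (mul_nonneg hx.1.le (hψ0 x))]
    exact mul_le_mul hx.2 (hψB x) (hψ0 x) hbpos.le
  set I : ℝ := ∫ x, ψ x ∂μ with hI
  have hI0 : 0 ≤ I := integral_nonneg hψ0
  have hlin : ∫⁻ x in Ioi (0 : ℝ), Ψ x = ENNReal.ofReal I := by
    have h1 : ∫⁻ x in Ioi (0 : ℝ), Ψ x = ∫⁻ x in Ioc (0 : ℝ) b, Ψ x := by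
      rw [← Ioc_union_Ioi_eq_Ioi hbpos.le, lintegral_union measurableSet_Ioi
        (Set.Ioc_disjoint_Ioi le_rfl)]
      have h2 : ∫⁻ x in Ioi b, Ψ x = 0 := by
        rw [setLIntegral_congr_fun measurableSet_Ioi (g := fun _ => 0) (fun x hx => hb x hx)]
        simp
      rw [h2, add_zero]
    rw [h1, hI, ofReal_integral_eq_lintegral_ofReal hint (Filter.Eventually.of_forall hψ0)]
    exact lintegral_congr (fun x => (hof x).symm)
  have hIpos : 0 < I := by
    rcases hI0.lt_or_eq with h | h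
    · exact h
    · exfalso
      apply hne
      rw [hlin, ← h, ENNReal.ofReal_zero]
  set J : ℝ := ∫ x, x * ψ x ∂μ with hJ
  set a : ℝ := J / I with ha
  have hJa : J = a * I := by
    rw [ha]; field_simp
  -- no mass at a single point
  have hnull : ∀ c : ℝ, (∀ᵐ x ∂μ, (x - c) * ψ x = 0) → False := by
    intro c hc
    have h1 : ∀ᵐ x ∂μ, x ≠ c := by
      rw [hμ]
      refine ae_restrict_of_ae ?_
      rw [ae_iff]
      simp
    have h2 : ψ =ᵐ[μ] 0 := by
      filter_upwards [hc, h1] with x hx hxc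
      rcases mul_eq_zero.mp hx with h | h
      · exact absurd (by linarith) hxc
      · exact h
    have h3 : I = 0 := by
      rw [hI, integral_congr_ae h2]
      simp
    linarith
  have hcent : ∫ x, (x - a) * ψ x ∂μ = 0 := by
    have h1 : ∫ x, (x - a) * ψ x ∂μ = J - a * I := by
      rw [hJ, hI, ← integral_const_mul, ← integral_sub hintx (hint.const_mul a)]
      refine integral_congr_ae (Filter.Eventually.of_forall (fun x => ?_))
      simp only
      ring
    rw [h1, hJa]; ring
  have hintc : Integrable (fun x => (x - a) * ψ x) μ := by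
    have h1 := hintx.sub (hint.const_mul a)
    refine h1.congr (Filter.Eventually.of_forall (fun x => ?_))
    simp only [Pi.sub_apply]
    ring
  have hJpos : 0 < J := by
    have h1 : 0 ≤ J := by
      rw [hJ]
      refine integral_nonneg_of_ae ?_
      filter_upwards [hmem] with x hx
      exact mul_nonneg hx.1.le (hψ0 x)
    rcases h1.lt_or_eq with h | h
    · exact h
    · exfalso
      refine hnull 0 ?_
      have h2 : ∫ x, x * ψ x ∂μ = 0 := by rw [← hJ]; exact h.symm
      have h3 : 0 ≤ᵐ[μ] fun x => x * ψ x := by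
        filter_upwards [hmem] with x hx
        exact mul_nonneg hx.1.le (hψ0 x)
      rw [integral_eq_zero_iff_of_nonneg_ae h3 hintx] at h2
      filter_upwards [h2] with x hx
      simpa using hx
  have hapos : 0 < a := div_pos hJpos hIpos
  -- points on both sides
  obtain ⟨x2, hx2a, hx2⟩ : ∃ x2, a < x2 ∧ 0 < ψ x2 := by
    by_contra hcon
    push Not at hcon
    refine hnull a ?_
    have h3 : 0 ≤ᵐ[μ] fun x => -((x - a) * ψ x) := by
      filter_upwards [hmem] with x hx
      rcases le_or_gt x a with h | h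
      · have := mul_nonneg (sub_nonneg.mpr h) (hψ0 x)
        simp only [Pi.zero_apply]
        linarith
      · have h4 := le_antisymm (hcon x h) (hψ0 x)
        simp [h4]
    have h2 : ∫ x, -((x - a) * ψ x) ∂μ = 0 := by rw [integral_neg, hcent, neg_zero]
    rw [integral_eq_zero_iff_of_nonneg_ae h3 hintc.neg] at h2
    filter_upwards [h2] with x hx
    simpa using hx
  obtain ⟨x1, hx10, hx1a, hx1⟩ : ∃ x1, 0 < x1 ∧ x1 < a ∧ 0 < ψ x1 := by
    by_contra hcon
    push Not at hcon
    refine hnull a ?_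
    have h3 : 0 ≤ᵐ[μ] fun x => ((x - a) * ψ x) := by
      filter_upwards [hmem] with x hx
      rcases lt_or_ge x a with h | h
      · have h4 := le_antisymm (hcon x hx.1 h) (hψ0 x)
        simp [h4]
      · have := mul_nonneg (sub_nonneg.mpr h) (hψ0 x)
        simp only [Pi.zero_apply]
        linarith
    have h2 := hcent
    rw [integral_eq_zero_iff_of_nonneg_ae h3 hintc] at h2
    filter_upwards [h2] with x hx
    simpa using hx
  -- log-concavity in real form
  have hlcR : ∀ x y θ : ℝ, 0 < x → 0 < y → 0 < θ → θ < 1 →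
      ψ x ^ (1 - θ) * ψ y ^ θ ≤ ψ ((1 - θ) * x + θ * y) := by
    intro x y θ hx hy h0 h1
    have h2 := ENNReal.toReal_mono (hfin _) (hlc x y θ hx hy h0 h1)
    rw [ENNReal.toReal_mul, ← ENNReal.toReal_rpow, ← ENNReal.toReal_rpow] at h2
    exact h2
  have hcomb : ∀ x y : ℝ, 0 < x → x < a → a < y →
      0 < ψ x → 0 < ψ y → 0 < ψ a ∧
      (y - a) * Real.log (ψ x) + (a - x) * Real.log (ψ y) ≤ (y - x) * Real.log (ψ a) := by
    intro x y hx hxa hay h1 h2
    have hyx : 0 < y - x := by linarith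
    have hθ0 : 0 < (a - x) / (y - x) := div_pos (by linarith) hyx
    have hθ1 : (a - x) / (y - x) < 1 := by
      rw [div_lt_one hyx]; linarith
    have h3 := hlcR x y ((a - x) / (y - x)) hx (by linarith) hθ0 hθ1
    have h4 : (1 - (a - x) / (y - x)) * x + (a - x) / (y - x) * y = a := by
      field_simp
      ring
    rw [h4] at h3
    have h5 : 0 < ψ x ^ (1 - (a - x) / (y - x)) * ψ y ^ ((a - x) / (y - x)) :=
      mul_pos (Real.rpow_pos_of_pos h1 _) (Real.rpow_pos_of_pos h2 _)
    have h6 : 0 < ψ a := lt_of_lt_of_le h5 h3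
    refine ⟨h6, ?_⟩
    have h7 := Real.log_le_log h5 h3
    rw [Real.log_mul (Real.rpow_pos_of_pos h1 _).ne' (Real.rpow_pos_of_pos h2 _).ne',
      Real.log_rpow h1, Real.log_rpow h2] at h7
    have h8 : (y - x) * ((1 - (a - x) / (y - x)) * Real.log (ψ x)
        + (a - x) / (y - x) * Real.log (ψ y))
        = (y - a) * Real.log (ψ x) + (a - x) * Real.log (ψ y) := by
      field_simp
      ring
    rw [← h8]
    exact mul_le_mul_of_nonneg_left h7 hyx.le
  have hψa : 0 < ψ a := (hcomb x1 x2 hx10 hx1a hx2a hx1 hx2).1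
  obtain ⟨κ, hκ⟩ := support_line (C := {x | 0 < x ∧ 0 < ψ x}) (u := fun x => Real.log (ψ x))
    (a := a) (x1 := x1) (x2 := x2) ⟨hx10, hx1⟩ ⟨hapos.trans hx2a, hx2⟩ hx1a hx2a
    (fun x hx y hy hxa hay => (hcomb x y hx.1 hxa hay hx.2 hy.2).2)
  -- the pointwise inequality
  have hpt : ∀ x, 0 < x →
      ψ x - ψ a * Real.exp (1 - x / a) ≤ (κ + 1 / a) * ((x - a) * ψ x) := by
    intro x hx
    rcases (hψ0 x).lt_or_eq with h | h
    · have h1 := hκ x ⟨hx, h⟩
      have hE : 0 < ψ a * Real.exp (1 - x / a) := mul_pos hψa (Real.exp_pos _)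
      have h2 := Real.log_le_sub_one_of_pos (div_pos hE h)
      rw [Real.log_div hE.ne' h.ne', Real.log_mul hψa.ne' (Real.exp_pos _).ne', Real.log_exp] at h2
      have h3 : ψ x * (Real.log (ψ a) + (1 - x / a) - Real.log (ψ x))
          ≤ ψ a * Real.exp (1 - x / a) - ψ x := by
        have h4 := mul_le_mul_of_nonneg_left h2 h.le
        have h5 : ψ x * (ψ a * Real.exp (1 - x / a) / ψ x - 1)
            = ψ a * Real.exp (1 - x / a) - ψ x := by
          field_simp
        rw [h5] at h4
        exact h4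
      have h6 : ψ x * (Real.log (ψ x) - Real.log (ψ a)) ≤ ψ x * (κ * (x - a)) :=
        mul_le_mul_of_nonneg_left (by linarith) h.le
      have h7 : (κ + 1 / a) * ((x - a) * ψ x) = ψ x * (κ * (x - a)) + ψ x * (x / a - 1) := by
        field_simp
      rw [h7]
      nlinarith
    · rw [← h]
      have : 0 ≤ ψ a * Real.exp (1 - x / a) := mul_nonneg hψa.le (Real.exp_pos _).le
      simp only [mul_zero]
      linarith
  -- integrate
  have hEint : Integrable (fun x => ψ a * Real.exp (1 - x / a)) μ := by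
    refine Integrable.of_bound (Measurable.aestronglyMeasurable (by fun_prop))
      (ψ a * Real.exp 1) ?_
    filter_upwards [hmem] with x hx
    rw [Real.norm_eq_abs, abs_of_nonneg (mul_nonneg hψa.le (Real.exp_pos _).le)]
    refine mul_le_mul_of_nonneg_left (Real.exp_le_exp.mpr ?_) hψa.le
    have : 0 ≤ x / a := div_nonneg hx.1.le hapos.le
    linarith
  have hEle : ∫ x, ψ a * Real.exp (1 - x / a) ∂μ ≤ ψ a * (a * Real.exp 1) := by
    rw [integral_const_mul]
    refine mul_le_mul_of_nonneg_left ?_ hψa.le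
    have h1 : ∫ x, Real.exp (1 - x / a) ∂μ = ∫ x in (0 : ℝ)..b, Real.exp (1 - x / a) := by
      rw [intervalIntegral.integral_of_le hbpos.le]
    rw [h1]
    have h2 : ∀ x ∈ Set.uIcc (0 : ℝ) b,
        HasDerivAt (fun x => -a * Real.exp (1 - x / a)) (Real.exp (1 - x / a)) x := by
      intro x _
      have h3 : HasDerivAt (fun x : ℝ => 1 - x / a) (-(1 / a)) x := by
        have := ((hasDerivAt_id x).div_const a).const_sub 1
        simpa using this
      have h4 := (h3.exp).const_mul (-a)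
      have h5 : -a * (Real.exp (1 - x / a) * -(1 / a)) = Real.exp (1 - x / a) := by
        field_simp
      rw [h5] at h4
      exact h4
    rw [intervalIntegral.integral_eq_sub_of_hasDerivAt h2
      (Continuous.intervalIntegrable (by fun_prop) _ _)]
    have h6 : 0 ≤ a * Real.exp (1 - b / a) := mul_nonneg hapos.le (Real.exp_pos _).le
    simp only [zero_div, sub_zero]
    linarith
  have hfinal : I ≤ ψ a * (a * Real.exp 1) := by
    have h1 : ∫ x, (ψ x - ψ a * Real.exp (1 - x / a)) ∂μ
        ≤ ∫ x, (κ + 1 / a) * ((x - a) * ψ x) ∂μ := by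
      refine integral_mono_ae (hint.sub hEint) (hintc.const_mul _) ?_
      filter_upwards [hmem] with x hx
      exact hpt x hx.1
    have h2 : ∫ x, (κ + 1 / a) * ((x - a) * ψ x) ∂μ = 0 := by
      rw [integral_const_mul, hcent, mul_zero]
    rw [h2, integral_sub hint hEint] at h1
    linarith
  refine ⟨a, hapos, ?_⟩
  rw [hlin, ← hof a, ← ENNReal.ofReal_mul (by positivity)]
  refine ENNReal.ofReal_le_ofReal ?_
  calc I ≤ ψ a * (a * Real.exp 1) := hfinal
    _ = Real.exp 1 * a * ψ a := by ring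

end Vale.Agent.P230
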