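import Vale.Agent.P230.Defs

/-!
# P230: selection of the linear part `Φ`
-/

open scoped BigOperators

namespace Vale.Agent.P230

theorem select_card (p N d : ℕ) [Fact p.Prime] (T : Finset (Fin N → ℤ)) :
    Nat.card {L : Matrix (Fin d) (Fin (N + 1)) (ZMod p) // ∀ s ∈ T, L.mulVec (lift p s) ≠ 0} =
      ∑ Φ : Matrix (Fin d) (Fin N) (ZMod p),
        Nat.card {b : Fin d → ZMod p // ∀ s ∈ T, Φ.mulVec (fun i => (s i : ZMod p)) ≠ b} := by
  rw [← Nat.card_sigma]
  have key : ∀ (L : Matrix (Fin d) (Fin (N + 1)) (ZMod p)) (s : Fin N → ℤ),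
      L.mulVec (lift p s) = (Matrix.mulVec (fun i j => L i j.succ : Matrix (Fin d) (Fin N) (ZMod p))
        (fun i => (s i : ZMod p))) - fun i => -L i 0 := by
    intro L s
    ext i
    simp only [Matrix.mulVec, dotProduct, lift, Fin.sum_univ_succ, Fin.cons_zero, Fin.cons_succ,
      Pi.sub_apply, mul_one, sub_neg_eq_add]
    ring
  refine Nat.card_congr
    { toFun := fun L => ⟨fun i j => L.1 i j.succ, ⟨fun i => -L.1 i 0, fun s hs h => ?_⟩⟩
      invFun := fun q => ⟨fun i => Fin.cons (-(q.2.1 i)) (q.1 i), fun s hs h => ?_⟩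
      left_inv := fun L => ?_
      right_inv := fun q => ?_ }
  · exact L.2 s hs (by rw [key, sub_eq_zero]; exact h)
  · refine q.2.2 s hs ?_
    have h' := key (fun i => (Fin.cons (-(q.2.1 i)) (q.1 i) : Fin (N + 1) → ZMod p)) s
    rw [h] at h'
    have h2 := (sub_eq_zero.1 h'.symm)
    simp only [Fin.cons_succ, Fin.cons_zero, neg_neg] at h2
    exact h2
  · ext i j
    refine Fin.cases ?_ (fun k => ?_) j
    · simp
    · simp
  · obtain ⟨Φ, b, hb⟩ := q
    simp only [Fin.cons_zero, neg_neg]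
    rfl

theorem select : S_SELECT := by
  classical
  intro p N d I A S δ hp hA
  have := Fact.mk hp
  by_contra hcon
  push Not at hcon
  have h1 : ∑ a ∈ A, (Nat.card {L : Matrix (Fin d) (Fin (N + 1)) (ZMod p) //
      ∀ s ∈ S a, L.mulVec (lift p s) ≠ 0} : ℝ) ≤ A.card * (δ * (p : ℝ) ^ (d * (N + 1))) := by
    refine (Finset.sum_le_sum hA).trans ?_
    simp
  simp only [select_card, Nat.cast_sum] at h1
  rw [Finset.sum_comm] at h1
  have h2 : ∀ Φ : Matrix (Fin d) (Fin N) (ZMod p), (A.card : ℝ) * δ * (p : ℝ) ^ d <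
      ∑ a ∈ A, (Nat.card {b : Fin d → ZMod p //
        ∀ s ∈ S a, Φ.mulVec (fun i => (s i : ZMod p)) ≠ b} : ℝ) := by
    intro Φ
    obtain ⟨a, ha, hlt⟩ := hcon Φ
    exact hlt.trans_le (Finset.single_le_sum (f := fun a => (Nat.card {b : Fin d → ZMod p //
        ∀ s ∈ S a, Φ.mulVec (fun i => (s i : ZMod p)) ≠ b} : ℝ))
      (fun _ _ => Nat.cast_nonneg _) ha)
  have h3 : ∑ Φ : Matrix (Fin d) (Fin N) (ZMod p), (A.card : ℝ) * δ * (p : ℝ) ^ d <
      ∑ Φ : Matrix (Fin d) (Fin N) (ZMod p), ∑ a ∈ A, (Nat.card {b : Fin d → ZMod p //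
        ∀ s ∈ S a, Φ.mulVec (fun i => (s i : ZMod p)) ≠ b} : ℝ) :=
    Finset.sum_lt_sum_of_nonempty Finset.univ_nonempty fun Φ _ => h2 Φ
  refine absurd (h3.trans_le h1) (not_lt.2 (le_of_eq ?_))
  have h4 : Fintype.card (Matrix (Fin d) (Fin N) (ZMod p)) = p ^ (d * N) := by
    rw [← Nat.card_eq_fintype_card]
    show Nat.card (Fin d → Fin N → ZMod p) = _
    rw [Nat.card_fun, Nat.card_fun, Nat.card_zmod, Nat.card_fin, Nat.card_fin, ← pow_mul, mul_comm]
  rw [Finset.sum_const, Finset.card_univ, h4, nsmul_eq_mul]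
  push_cast
  rw [mul_add, mul_one, pow_add]
  ring

end Vale.Agent.P230
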