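import Vale.Agent.P230.Defs

/-!
# P230: from the product form to `Fin (N + m)`
-/

open MeasureTheory
open scoped ENNReal NNReal BigOperators

namespace Vale.Agent.P230

theorem volume_append (N m : ℕ) (K : Set (Fin (N + m) → ℝ)) :
    volume {z : (Fin N → ℝ) × (Fin m → ℝ) | Fin.append z.1 z.2 ∈ K} = volume K := by
  have e1 := volume_measurePreserving_sumPiEquivProdPi_symm (fun _ : Fin N ⊕ Fin m => ℝ)
  have e2 := volume_measurePreserving_piCongrLeft (fun _ : Fin (N + m) => ℝ)
    (finSumFinEquiv (m := N) (n := m))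
  have e3 := e2.comp e1
  have h := MeasurePreserving.measure_preimage_equiv (f := (MeasurableEquiv.sumPiEquivProdPi
    (fun _ : Fin N ⊕ Fin m => ℝ)).symm.trans (MeasurableEquiv.piCongrLeft
      (fun _ : Fin (N + m) => ℝ) (finSumFinEquiv (m := N) (n := m)))) e3 K
  rw [← h]
  congr 1
  ext z
  simp only [Set.mem_ofPred_eq, Set.mem_preimage]
  have : (Fin.append z.1 z.2 : Fin (N + m) → ℝ) = ((MeasurableEquiv.sumPiEquivProdPi
    (fun _ : Fin N ⊕ Fin m => ℝ)).symm.trans (MeasurableEquiv.piCongrLeft
      (fun _ : Fin (N + m) => ℝ) (finSumFinEquiv (m := N) (n := m)))) z := by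
    ext i
    obtain ⟨j, rfl⟩ := (finSumFinEquiv (m := N) (n := m)).surjective i
    have h1 := Equiv.piCongrLeft_apply_apply (fun _ : Fin (N + m) => ℝ)
      (finSumFinEquiv (m := N) (n := m))
      ((MeasurableEquiv.sumPiEquivProdPi (fun _ : Fin N ⊕ Fin m => ℝ)).symm z) j
    refine Eq.trans ?_ h1.symm
    rcases j with j | j
    · simp [MeasurableEquiv.sumPiEquivProdPi]
    · simp [MeasurableEquiv.sumPiEquivProdPi]
  rw [this]

theorem split : S_SPLIT := by
  intro N m c H K hcomp hconv hin hout
  set K2 : Set ((Fin N → ℝ) × (Fin m → ℝ)) := {z | Fin.append z.1 z.2 ∈ K} with hK2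
  have hnorm : Normal N m K2 := by
    refine ⟨?_, ?_, ?_, ?_⟩
    · have h1 : K2 = (fun x : Fin (N + m) → ℝ => ((fun i => x (Fin.castAdd m i)),
          (fun j => x (Fin.natAdd N j)))) '' K := by
        ext z
        constructor
        · intro hz
          refine ⟨Fin.append z.1 z.2, hz, ?_⟩
          simp
        · rintro ⟨x, hx, rfl⟩
          show Fin.append (fun i => x (Fin.castAdd m i)) (fun j => x (Fin.natAdd N j)) ∈ K
          rwa [Fin.append_castAdd_natAdd]
      rw [h1]
      exact hcomp.image (by fun_prop)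
    · intro z hz w hw a b ha hb hab
      have h1 := hconv hz hw ha hb hab
      show Fin.append (a • z + b • w).1 (a • z + b • w).2 ∈ K
      convert h1 using 1
      ext i
      refine Fin.addCases (fun j => ?_) (fun j => ?_) i <;> simp
    · intro z hz1 hz2
      refine hin _ fun i => ?_
      push_cast
      refine Fin.addCases (fun j => ?_) (fun j => ?_) i
      · simpa using hz1 j
      · simpa using hz2 j
    · intro z hz
      have h1 := hout _ hz
      exact ⟨fun i => by simpa using h1 (Fin.castAdd m i), fun j => by simpa using h1 (Fin.natAdd N j)⟩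
  obtain ⟨A, hA, hcov, hvol⟩ := H K2 hnorm
  refine ⟨A.submatrix finSumFinEquiv.symm finSumFinEquiv.symm, ?_, fun x => ?_, ?_⟩
  · rwa [Matrix.det_submatrix_equiv_self]
  · obtain ⟨k, hk⟩ := hcov ((fun i => x (Fin.castAdd m i)), (fun j => x (Fin.natAdd N j)))
    refine ⟨fun i => k (finSumFinEquiv.symm i), ?_⟩
    rw [Matrix.submatrix_mulVec_equiv]
    change Fin.append _ _ ∈ K at hk
    convert hk using 1
    ext i
    refine Fin.addCases (fun j => ?_) (fun j => ?_) i
    · simp [Function.comp_def]
    · simp [Function.comp_def]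
  · rw [Matrix.det_submatrix_equiv_self, ← volume_append]
    exact hvol

end Vale.Agent.P230
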