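import Vale.Agent.P230.Defs

/-!
# P230: the tree lemma
-/

open MeasureTheory Set Filter
open scoped ENNReal NNReal Topology BigOperators

namespace Vale.Agent.P230

/-- the reduced function -/
noncomputable def redF {k : ℕ} (f : (Fin (k + 1) → ℝ) → ℝ≥0∞) (h : ℝ) (y : Fin k → ℝ) : ℝ≥0∞ :=
  ⨆ x : ℝ, min (f (Fin.cons (x - h) y)) (f (Fin.cons (x + h) y))

theorem lt_redF {k : ℕ} {f : (Fin (k + 1) → ℝ) → ℝ≥0∞} {h : ℝ} {y : Fin k → ℝ} {τ : ℝ≥0∞} :
    τ < redF f h y ↔ ∃ x, τ < f (Fin.cons (x - h) y) ∧ τ < f (Fin.cons (x + h) y) := by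
  simp [redF, lt_iSup_iff]

theorem cons_comb {k : ℕ} (θ a b : ℝ) (y z : Fin k → ℝ) :
    (1 - θ) • (Fin.cons a y : Fin (k + 1) → ℝ) + θ • (Fin.cons b z : Fin (k + 1) → ℝ)
      = Fin.cons ((1 - θ) * a + θ * b) ((1 - θ) • y + θ • z) := by
  ext j
  refine Fin.cases ?_ (fun i => ?_) j <;> simp

theorem redF_lc {k : ℕ} {f : (Fin (k + 1) → ℝ) → ℝ≥0∞} (hf : LC f) (h h' θ : ℝ) (h0 : 0 < θ)
    (h1 : θ < 1) (y z : Fin k → ℝ) :
    redF f h y ^ (1 - θ) * redF f h' z ^ θ ≤
      redF f ((1 - θ) * h + θ * h') ((1 - θ) • y + θ • z) := by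
  have h1' : 0 < 1 - θ := by linarith
  have e1 : redF f h y ^ (1 - θ) =
      ⨆ x, (min (f (Fin.cons (x - h) y)) (f (Fin.cons (x + h) y))) ^ (1 - θ) :=
    (ENNReal.orderIsoRpow (1 - θ) h1').map_iSup _
  have e2 : redF f h' z ^ θ =
      ⨆ x, (min (f (Fin.cons (x - h') z)) (f (Fin.cons (x + h') z))) ^ θ :=
    (ENNReal.orderIsoRpow θ h0).map_iSup _
  rw [e1, e2, ENNReal.iSup_mul]
  refine iSup_le fun x => ?_
  rw [ENNReal.mul_iSup]
  refine iSup_le fun x' => ?_
  refine le_trans ?_ (le_iSup _ ((1 - θ) * x + θ * x'))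
  refine le_min ?_ ?_
  · refine (mul_le_mul' (ENNReal.rpow_le_rpow (min_le_left _ _) h1'.le)
      (ENNReal.rpow_le_rpow (min_le_left _ _) h0.le)).trans ?_
    refine (hf.lc _ _ θ h0 h1).trans (le_of_eq ?_)
    rw [cons_comb]
    congr 2
    ring
  · refine (mul_le_mul' (ENNReal.rpow_le_rpow (min_le_right _ _) h1'.le)
      (ENNReal.rpow_le_rpow (min_le_right _ _) h0.le)).trans ?_
    refine (hf.lc _ _ θ h0 h1).trans (le_of_eq ?_)
    rw [cons_comb]
    congr 2
    ring

/-- quasi-concavity -/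
theorem qc {m : ℕ} {f : (Fin m → ℝ) → ℝ≥0∞} (hf : LC f) {τ : ℝ≥0∞} {a b : Fin m → ℝ}
    (ha : τ < f a) (hb : τ < f b) {θ : ℝ} (h0 : 0 ≤ θ) (h1 : θ ≤ 1) :
    τ < f ((1 - θ) • a + θ • b) := by
  rcases h0.eq_or_lt with rfl | h0
  · simpa using ha
  rcases h1.eq_or_lt with rfl | h1
  · simpa using hb
  have h1' : 0 < 1 - θ := by linarith
  refine lt_of_lt_of_le (lt_min ha hb) ?_
  refine le_trans ?_ (hf.lc a b θ h0 h1)
  calc min (f a) (f b) = min (f a) (f b) ^ (1 - θ) * min (f a) (f b) ^ θ := by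
        rw [← ENNReal.rpow_add_of_nonneg _ _ h1'.le h0.le]; simp
    _ ≤ _ := mul_le_mul' (ENNReal.rpow_le_rpow (min_le_left _ _) h1'.le)
        (ENNReal.rpow_le_rpow (min_le_right _ _) h0.le)

theorem treeSet_mono : ∀ (m : ℕ) (h s : Fin m → ℝ) {A B : Set (Fin m → ℝ)}, A ⊆ B →
    TreeSet m h s A → TreeSet m h s B := by
  intro m
  induction m with
  | zero => intro h s A B hAB hA; exact hAB hA
  | succ k ih =>
    intro h s A B hAB hA
    refine ih (Fin.tail h) (Fin.tail s) ?_ hA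
    rintro y ⟨j, h1, h2⟩
    exact ⟨j, hAB h1, hAB h2⟩

theorem redSet_of_redF {k : ℕ} {f : (Fin (k + 1) → ℝ) → ℝ≥0∞} (hf : LC f) {h : ℝ} (hh : 0 < h)
    (s : ℝ) (τ : ℝ≥0∞) : {y | τ < redF f h y} ⊆ redSet h s {x | τ < f x} := by
  intro y hy
  obtain ⟨x, h1, h2⟩ := lt_redF.1 hy
  have key : ∀ z, x - h ≤ z → z ≤ x + h → τ < f (Fin.cons z y) := by
    intro z hz1 hz2
    have := qc hf h1 h2 (θ := (z - (x - h)) / (2 * h)) (div_nonneg (by linarith) (by linarith))
      ((div_le_one (by linarith)).2 (by linarith))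
    rw [cons_comb] at this
    convert this using 3
    · field_simp
      ring
    · rw [← add_smul]; simp
  have hj := Int.le_ceil ((x - h - s) / h)
  have hj2 := Int.ceil_lt_add_one ((x - h - s) / h)
  rw [div_le_iff₀ hh] at hj
  rw [← sub_lt_iff_lt_add, lt_div_iff₀ hh] at hj2
  refine ⟨⌈(x - h - s) / h⌉, key _ ?_ ?_, key _ ?_ ?_⟩ <;> nlinarith

/-- one-dimensional inequality -/
theorem half_int (g : ℝ → ℝ≥0∞) (hm : Measurable g)
    (hopen : ∀ τ, IsOpen {x | τ < g x}) (hqc : ∀ τ, OrdConnected {x | τ < g x})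
    (B : ℝ≥0∞) (hB : B ≠ ⊤) (hbdd : ∀ x, g x ≤ B) (hsupp : ∀ x, g x ≠ 0 → |x| ≤ 1) :
    ∫⁻ x, g x ≤ 2 * ∫⁻ h in Ioi (0 : ℝ), ⨆ x, min (g (x - h)) (g (x + h)) := by
  set φ : ℝ → ℝ≥0∞ := fun h => ⨆ x, min (g (x - h)) (g (x + h)) with hφ
  have hφlt : ∀ τ h, τ < φ h ↔ ∃ x, τ < g (x - h) ∧ τ < g (x + h) := by
    intro τ h; simp [hφ, lt_iSup_iff]
  have hφo : ∀ τ, IsOpen {h | τ < φ h} := by
    intro τ
    have : {h | τ < φ h} = ⋃ x, {h | τ < g (x - h)} ∩ {h | τ < g (x + h)} := by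
      ext h; simp [hφlt]
    rw [this]
    refine isOpen_iUnion fun x => IsOpen.inter ?_ ?_
    · exact (hopen τ).preimage (continuous_const.sub continuous_id)
    · exact (hopen τ).preimage (continuous_const.add continuous_id)
  have hφm : Measurable φ := measurable_of_Ioi fun τ => (hφo τ).measurableSet
  have hφB : ∀ h, φ h ≤ B := fun h => iSup_le fun x => (min_le_left _ _).trans (hbdd _)
  have hgt : ∀ x, g x ≠ ⊤ := fun x => ne_top_of_le_ne_top hB (hbdd x)
  have hφt : ∀ x, φ x ≠ ⊤ := fun x => ne_top_of_le_ne_top hB (hφB x)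
  have L1 := lintegral_eq_lintegral_meas_lt (volume : Measure ℝ) (f := fun x => (g x).toReal)
    (Eventually.of_forall fun _ => ENNReal.toReal_nonneg) hm.ennreal_toReal.aemeasurable
  have L2 := lintegral_eq_lintegral_meas_lt ((volume : Measure ℝ).restrict (Ioi 0))
    (f := fun x => (φ x).toReal)
    (Eventually.of_forall fun _ => ENNReal.toReal_nonneg) hφm.ennreal_toReal.aemeasurable
  simp only [ENNReal.ofReal_toReal (hgt _)] at L1
  simp only [ENNReal.ofReal_toReal (hφt _)] at L2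
  rw [L1, L2, ← lintegral_const_mul']
  · refine lintegral_mono_ae ?_
    refine (ae_restrict_iff' measurableSet_Ioi).2 (Eventually.of_forall fun t ht => ?_)
    have ht : 0 < t := ht
    have s1 : {x | t < (g x).toReal} = {x | ENNReal.ofReal t < g x} := by
      ext x; exact (ENNReal.ofReal_lt_iff_lt_toReal ht.le (hgt x)).symm
    have s2 : {x | t < (φ x).toReal} = {x | ENNReal.ofReal t < φ x} := by
      ext x; exact (ENNReal.ofReal_lt_iff_lt_toReal ht.le (hφt x)).symm
    rw [s1, s2, Measure.restrict_apply (hφo _).measurableSet]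
    set τ := ENNReal.ofReal t
    set O := {x | τ < g x} with hO
    rcases O.eq_empty_or_nonempty with he | hne
    · rw [he]; simp
    have hOsub : ∀ x ∈ O, -1 ≤ x ∧ x ≤ 1 := by
      intro x hx
      have : g x ≠ 0 := fun h => by
        have hx' : τ < g x := hx
        rw [h] at hx'
        exact not_lt_bot hx'
      exact abs_le.1 (hsupp x this)
    have hbb : BddBelow O := ⟨-1, fun x hx => (hOsub x hx).1⟩
    have hba : BddAbove O := ⟨1, fun x hx => (hOsub x hx).2⟩
    have hsub : O ⊆ Icc (sInf O) (sSup O) := fun x hx => ⟨csInf_le hbb hx, le_csSup hba hx⟩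
    have hsub2 : Ioo 0 ((sSup O - sInf O) / 2) ⊆ {x | τ < φ x} ∩ Ioi 0 := by
      rintro h ⟨h1, h2⟩
      refine ⟨(hφlt _ _).2 ⟨(sInf O + sSup O) / 2, ?_⟩, h1⟩
      obtain ⟨o1, ho1, ho1'⟩ := exists_lt_of_csInf_lt hne
        (show sInf O < (sInf O + sSup O) / 2 - h by linarith)
      obtain ⟨o2, ho2, ho2'⟩ := exists_lt_of_lt_csSup hne
        (show (sInf O + sSup O) / 2 + h < sSup O by linarith)
      constructor
      · exact (hqc τ).out ho1 ho2 ⟨ho1'.le, by linarith⟩
      · exact (hqc τ).out ho1 ho2 ⟨by linarith, ho2'.le⟩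
    calc volume O ≤ volume (Icc (sInf O) (sSup O)) := measure_mono hsub
      _ = ENNReal.ofReal (2 * ((sSup O - sInf O) / 2)) := by
          rw [Real.volume_Icc]; congr 1; ring
      _ = 2 * volume (Ioo 0 ((sSup O - sInf O) / 2)) := by
          rw [Real.volume_Ioo, ENNReal.ofReal_mul (by norm_num), sub_zero]; simp
      _ ≤ _ := by gcongr
  · simp

theorem isOpen_redF {k : ℕ} {f : (Fin (k + 1) → ℝ) → ℝ≥0∞} (hf : LC f) (τ : ℝ≥0∞) :
    IsOpen {p : ℝ × (Fin k → ℝ) | τ < redF f p.1 p.2} := by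
  have : {p : ℝ × (Fin k → ℝ) | τ < redF f p.1 p.2} =
      ⋃ x : ℝ, {p : ℝ × (Fin k → ℝ) | τ < f (Fin.cons (x - p.1) p.2)} ∩
        {p : ℝ × (Fin k → ℝ) | τ < f (Fin.cons (x + p.1) p.2)} := by
    ext p; simp [lt_redF]
  rw [this]
  refine isOpen_iUnion fun x => IsOpen.inter ?_ ?_
  · refine (hf.lsc τ).preimage (f := fun p : ℝ × (Fin k → ℝ) =>
      (Fin.cons (x - p.1) p.2 : Fin (k + 1) → ℝ)) ?_
    refine continuous_pi fun j => ?_
    refine Fin.cases ?_ (fun i => ?_) j
    · simp only [Fin.cons_zero]; fun_prop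
    · simp only [Fin.cons_succ]; fun_prop
  · refine (hf.lsc τ).preimage (f := fun p : ℝ × (Fin k → ℝ) =>
      (Fin.cons (x + p.1) p.2 : Fin (k + 1) → ℝ)) ?_
    refine continuous_pi fun j => ?_
    refine Fin.cases ?_ (fun i => ?_) j
    · simp only [Fin.cons_zero]; fun_prop
    · simp only [Fin.cons_succ]; fun_prop

theorem redF_supp {k : ℕ} {f : (Fin (k + 1) → ℝ) → ℝ≥0∞} (hf : LC f) {h : ℝ} {y : Fin k → ℝ}
    (hy : redF f h y ≠ 0) : h ≤ 1 ∧ ∀ i, |y i| ≤ 1 := by
  obtain ⟨x, h1, h2⟩ := lt_redF.1 (pos_iff_ne_zero.2 hy)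
  have H1 := hf.supp _ h1.ne'
  have H2 := hf.supp _ h2.ne'
  have a1 := H1 0
  have a2 := H2 0
  simp only [Fin.cons_zero] at a1 a2
  rw [abs_le] at a1 a2
  refine ⟨by linarith [a1.1, a2.2], fun i => ?_⟩
  have := H1 i.succ
  simpa using this

theorem redF_LC {k : ℕ} {f : (Fin (k + 1) → ℝ) → ℝ≥0∞} (hf : LC f) (h : ℝ) : LC (redF f h) where
  lsc := fun τ => (isOpen_redF hf τ).preimage (f := fun y : Fin k → ℝ => (h, y)) (by fun_prop)
  lc := fun x y θ h0 h1 => by
    have := redF_lc hf h h θ h0 h1 x y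
    have e : (1 - θ) * h + θ * h = h := by ring
    rwa [e] at this
  bdd := by
    obtain ⟨B, hB, hB2⟩ := hf.bdd
    exact ⟨B, hB, fun x => iSup_le fun _ => (min_le_left _ _).trans (hB2 _)⟩
  supp := fun x hx => (redF_supp hf hx).2

theorem LC.measurable {m : ℕ} {f : (Fin m → ℝ) → ℝ≥0∞} (hf : LC f) : Measurable f :=
  measurable_of_Ioi fun τ => (hf.lsc τ).measurableSet

theorem LC.lintegral_le {m : ℕ} {f : (Fin m → ℝ) → ℝ≥0∞} (hf : LC f) {B : ℝ≥0∞}
    (hB : ∀ x, f x ≤ B) : ∫⁻ x, f x ≤ B * 2 ^ m := by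
  have h1 : ∀ x, f x ≤ (Icc (fun _ => (-1 : ℝ)) (fun _ => 1)).indicator (fun _ => B) x := by
    intro x
    by_cases hx : f x = 0
    · rw [hx]; exact bot_le
    · rw [Set.indicator_of_mem]
      · exact hB x
      · exact ⟨fun i => (abs_le.1 (hf.supp x hx i)).1, fun i => (abs_le.1 (hf.supp x hx i)).2⟩
  refine (lintegral_mono h1).trans (le_of_eq ?_)
  rw [lintegral_indicator measurableSet_Icc, lintegral_const, Measure.restrict_apply_univ,
    Real.volume_Icc_pi]
  congr 1
  simp only [Finset.prod_const, Finset.card_univ, Fintype.card_fin]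
  congr 1
  norm_num

theorem tree (hPL : S_PL) (hREAL : S_REAL) : S_TREE := by
  intro m
  induction m with
  | zero =>
    intro f hf hne
    refine ⟨fun i => 1, fun i => i.elim0, fun τ hτ s => ?_⟩
    show τ < f _
    rw [lintegral_unique] at hτ
    have h1 : (volume : Measure (Fin 0 → ℝ)) univ = 1 := by
      rw [Measure.volume_pi_eq_dirac default]; simp
    simp only [h1, mul_one, pow_zero, Finset.univ_eq_empty, Finset.prod_empty,
      ENNReal.ofReal_one, one_mul] at hτ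
    refine hτ.trans_le (le_of_eq ?_)
    exact congrArg f (Subsingleton.elim _ _)
  | succ k ih =>
    intro f hf hne
    obtain ⟨B, hBt, hB⟩ := hf.bdd
    have e := volume_preserving_piFinSuccAbove (fun _ : Fin (k + 1) => ℝ) 0
    set E := MeasurableEquiv.piFinSuccAbove (fun _ : Fin (k + 1) => ℝ) 0 with hE
    have hEc : ∀ (s : ℝ) (y : Fin k → ℝ), E.symm (s, y) = Fin.cons s y := by
      intro s y
      ext j
      refine Fin.cases ?_ (fun i => ?_) j
      · simp [hE, MeasurableEquiv.piFinSuccAbove]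
      · simp [hE, MeasurableEquiv.piFinSuccAbove]
    have hfm := hf.measurable
    have hmj : Measurable fun p : ℝ × (Fin k → ℝ) => f (Fin.cons p.1 p.2) := by
      have h1 := hfm.comp E.symm.measurable
      have h2 : (f ∘ E.symm) = fun p : ℝ × (Fin k → ℝ) => f (Fin.cons p.1 p.2) := by
        ext p
        exact congrArg f (hEc p.1 p.2)
      rwa [h2] at h1
    have hint : ∫⁻ x, f x = ∫⁻ y : Fin k → ℝ, ∫⁻ s : ℝ, f (Fin.cons s y) := by
      have h1 := e.symm.lintegral_comp_emb E.symm.measurableEmbedding f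
      rw [← h1, lintegral_lintegral_swap hmj.aemeasurable.prod_swap,
        ← lintegral_prod _ hmj.aemeasurable]
      refine lintegral_congr fun p => congrArg f ?_
      exact hEc p.1 p.2
    have hredm : Measurable fun p : ℝ × (Fin k → ℝ) => redF f p.1 p.2 :=
      measurable_of_Ioi fun τ => (isOpen_redF hf τ).measurableSet
    set Ψ : ℝ → ℝ≥0∞ := fun h => ∫⁻ y, redF f h y with hΨ
    have hΨm : Measurable Ψ := hredm.lintegral_prod_right'
    have hle : ∫⁻ x, f x ≤ 2 * ∫⁻ h in Ioi (0 : ℝ), Ψ h := by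
      have h2 : ∀ y : Fin k → ℝ, ∫⁻ s : ℝ, f (Fin.cons s y) ≤
          2 * ∫⁻ h in Ioi (0 : ℝ), redF f h y := by
        intro y
        have hc : Continuous fun s : ℝ => (Fin.cons s y : Fin (k + 1) → ℝ) := by
          refine continuous_pi fun j => ?_
          refine Fin.cases ?_ (fun i => ?_) j
          · simp only [Fin.cons_zero]; fun_prop
          · simp only [Fin.cons_succ]; fun_prop
        refine half_int (fun s => f (Fin.cons s y)) (hfm.comp hc.measurable)
          (fun τ => (hf.lsc τ).preimage hc) (fun τ => ⟨?_⟩) B hBt (fun x => hB _) ?_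
        · rintro a ha b hb z ⟨hz1, hz2⟩
          rcases hz1.eq_or_lt with rfl | hz1
          · exact ha
          have hab : 0 < b - a := by linarith
          have := qc hf (show τ < f (Fin.cons a y) from ha) (show τ < f (Fin.cons b y) from hb)
            (θ := (z - a) / (b - a)) (div_nonneg (by linarith) hab.le)
            ((div_le_one hab).2 (by linarith))
          rw [cons_comb] at this
          show τ < f (Fin.cons z y)
          convert this using 3
          · field_simp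
            ring
          · rw [← add_smul]; simp
        · intro x hx
          simpa using hf.supp _ hx 0
      rw [hint]
      refine (lintegral_mono h2).trans ?_
      rw [lintegral_const_mul' _ _ (by simp)]
      gcongr 2 * ?_
      rw [hΨ, lintegral_lintegral_swap]
      exact (hredm.comp measurable_swap).aemeasurable
    have hΨlc : ∀ x y θ : ℝ, 0 < x → 0 < y → 0 < θ → θ < 1 →
        Ψ x ^ (1 - θ) * Ψ y ^ θ ≤ Ψ ((1 - θ) * x + θ * y) := by
      intro x y θ _ _ h0 h1
      exact hPL k θ _ _ _ h0 h1 (redF_LC hf x).measurable (redF_LC hf y).measurable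
        (redF_LC hf _).measurable fun a b => redF_lc hf x y θ h0 h1 a b
    have hΨb : ∀ x, Ψ x ≤ B * 2 ^ k := fun x =>
      (redF_LC hf x).lintegral_le fun y => iSup_le fun _ => (min_le_left _ _).trans (hB _)
    have hΨ1 : ∀ x, 1 < x → Ψ x = 0 := by
      intro x hx
      have : ∀ y, redF f x y = 0 := by
        intro y
        by_contra hy
        exact absurd (redF_supp hf hy).1 (not_le.2 hx)
      simp [hΨ, this]
    have hΨ0 : ∫⁻ h in Ioi (0 : ℝ), Ψ h ≠ 0 := by
      intro h0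
      rw [h0, mul_zero] at hle
      exact hne (le_antisymm hle bot_le)
    obtain ⟨h0, hh0, hh⟩ := hREAL Ψ hΨm hΨlc ⟨B * 2 ^ k, by finiteness, hΨb⟩ ⟨1, hΨ1⟩ hΨ0
    have hne0 : Ψ h0 ≠ 0 := by
      intro h
      rw [h, mul_zero] at hh
      exact hΨ0 (le_antisymm hh bot_le)
    have hh1 : h0 ≤ 1 := by
      by_contra h
      exact hne0 (hΨ1 h0 (not_le.1 h))
    obtain ⟨h', hh', hτ'⟩ := ih (redF f h0) (redF_LC hf h0) hne0
    refine ⟨Fin.cons h0 h', ?_, ?_⟩
    · intro i
      refine Fin.cases ?_ (fun j => ?_) i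
      · simpa using ⟨hh0, hh1⟩
      · simpa using hh' j
    · intro τ hτ s
      have hτ2 : ENNReal.ofReal ((2 * Real.exp 1) ^ k * ∏ i, h' i) * τ < ∫⁻ y, redF f h0 y := by
        by_contra hcon
        rw [not_lt] at hcon
        refine absurd hτ (not_lt.2 ?_)
        calc ∫⁻ x, f x ≤ 2 * (ENNReal.ofReal (Real.exp 1 * h0) * Ψ h0) :=
              hle.trans (by gcongr)
          _ = ENNReal.ofReal (2 * Real.exp 1 * h0) * Ψ h0 := by
              rw [← mul_assoc]
              congr 1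
              rw [mul_assoc 2, ENNReal.ofReal_mul (by norm_num : (0 : ℝ) ≤ 2)]
              simp
          _ ≤ ENNReal.ofReal (2 * Real.exp 1 * h0) *
                (ENNReal.ofReal ((2 * Real.exp 1) ^ k * ∏ i, h' i) * τ) := by
              gcongr
          _ = _ := by
              rw [← mul_assoc, ← ENNReal.ofReal_mul (by positivity)]
              congr 2
              rw [Fin.prod_univ_succ]
              simp only [Fin.cons_zero, Fin.cons_succ]
              ring
      have h3 := hτ' τ hτ2 (Fin.tail s)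
      show TreeSet k (Fin.tail (Fin.cons h0 h' : Fin (k + 1) → ℝ)) (Fin.tail s)
        (redSet ((Fin.cons h0 h' : Fin (k + 1) → ℝ) 0) (s 0) {x | τ < f x})
      rw [Fin.tail_cons, Fin.cons_zero]
      exact treeSet_mono k h' (Fin.tail s) (redSet_of_redF hf hh0 (s 0) τ) h3

end Vale.Agent.P230
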