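import Vale.Agent.P230.Defs

open MeasureTheory
open scoped ENNReal NNReal BigOperators

namespace Vale.Agent.P230

theorem yg_cons_meas (N : ℕ) :
    Measurable fun p : ℝ × (Fin N → ℝ) => (Fin.cons p.1 p.2 : Fin (N + 1) → ℝ) := by
  rw [measurable_pi_iff]
  intro i
  refine Fin.cases ?_ (fun j => ?_) i
  · simpa using measurable_fst
  · simp only [Fin.cons_succ]
    exact (measurable_pi_apply j).comp measurable_snd

theorem yg_lint_cons (N : ℕ) (F : (Fin (N + 1) → ℝ) → ℝ≥0∞) (hF : Measurable F) :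
    ∫⁻ x, F x = ∫⁻ s : ℝ, ∫⁻ x' : Fin N → ℝ, F (Fin.cons s x') := by
  have e := (volume_preserving_piFinSuccAbove (fun _ : Fin (N + 1) => ℝ) 0).symm
  rw [← e.lintegral_comp hF]
  have h1 : Measurable fun p : ℝ × (Fin N → ℝ) =>
      F ((MeasurableEquiv.piFinSuccAbove (fun _ : Fin (N + 1) => ℝ) 0).symm p) :=
    hF.comp (MeasurableEquiv.measurable _)
  rw [Measure.volume_eq_prod, lintegral_prod _ h1.aemeasurable]
  refine lintegral_congr fun s => lintegral_congr fun x' => ?_
  have h2 : (MeasurableEquiv.piFinSuccAbove (fun _ : Fin (N + 1) => ℝ) 0).symm (s, x') =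
      Fin.cons s x' := by
    funext j
    refine Fin.cases ?_ (fun k => ?_) j
    · simp [MeasurableEquiv.piFinSuccAbove]
    · simp [MeasurableEquiv.piFinSuccAbove]
  rw [h2]

theorem young (hY : S_YOUNG1) : S_YOUNG := by
  intro N
  induction N with
  | zero =>
    intro f g h _ _ _
    rw [Measure.volume_pi_eq_dirac (fun i => Fin.elim0 i)]
    simp only [pow_zero, ENNReal.ofReal_one, one_mul]
    rw [lintegral_dirac, lintegral_dirac, lintegral_dirac, lintegral_dirac, lintegral_dirac]
    refine le_of_eq ?_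
    congr 2
    congr 1
    exact Subsingleton.elim _ _
  | succ N ih =>
    intro f g h hf hg hh
    have hcons := yg_cons_meas N
    set F : ℝ → ℝ≥0∞ := fun s => ∫⁻ x' : Fin N → ℝ, f (Fin.cons s x') with hF
    set G : ℝ → ℝ≥0∞ := fun s => ∫⁻ x' : Fin N → ℝ, g (Fin.cons s x') with hG
    set H : ℝ → ℝ≥0∞ := fun s => ∫⁻ x' : Fin N → ℝ, h (Fin.cons s x') with hH
    have hFm : Measurable F := (hf.comp hcons).lintegral_prod_right'
    have hGm : Measurable G := (hg.comp hcons).lintegral_prod_right'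
    have hHm : Measurable H := (hh.comp hcons).lintegral_prod_right'
    have hmul : ∀ s t : ℝ, ∀ x y : Fin N → ℝ,
        (Fin.cons s x : Fin (N + 1) → ℝ) + Fin.cons t y = Fin.cons (s + t) (x + y) := by
      intro s t x y
      funext i
      refine Fin.cases ?_ (fun j => ?_) i
      · simp
      · simp
    have hcf : ∀ s : ℝ, Measurable fun x : Fin N → ℝ => (Fin.cons s x : Fin (N + 1) → ℝ) :=
      fun s => hcons.comp (measurable_const.prodMk measurable_id)
    -- rewriting the left side
    have h1 : ∫⁻ x, ∫⁻ y, (f x * g y * h (x + y)) ^ (2 / 3 : ℝ) =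
        ∫⁻ s : ℝ, ∫⁻ t : ℝ, ∫⁻ x' : Fin N → ℝ, ∫⁻ y' : Fin N → ℝ,
          (f (Fin.cons s x') * g (Fin.cons t y') * h (Fin.cons (s + t) (x' + y'))) ^
            (2 / 3 : ℝ) := by
      have hm0 : Measurable fun p : (Fin (N + 1) → ℝ) × (Fin (N + 1) → ℝ) =>
          (f p.1 * g p.2 * h (p.1 + p.2)) ^ (2 / 3 : ℝ) :=
        (((hf.comp measurable_fst).mul (hg.comp measurable_snd)).mul
          (hh.comp (measurable_fst.add measurable_snd))).pow_const _
      rw [yg_lint_cons N _ hm0.lintegral_prod_right']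
      refine lintegral_congr fun s => ?_
      rw [lintegral_lintegral_swap (f := fun t x' => ∫⁻ y' : Fin N → ℝ,
          (f (Fin.cons s x') * g (Fin.cons t y') * h (Fin.cons (s + t) (x' + y'))) ^
            (2 / 3 : ℝ))]
      · refine lintegral_congr fun x' => ?_
        have hm1 : Measurable fun y : Fin (N + 1) → ℝ =>
            (f (Fin.cons s x') * g y * h (Fin.cons s x' + y)) ^ (2 / 3 : ℝ) :=
          hm0.comp (measurable_const.prodMk measurable_id)
        rw [yg_lint_cons N _ hm1]
        refine lintegral_congr fun t => lintegral_congr fun y' => ?_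
        rw [hmul]
      · apply Measurable.aemeasurable
        have hm2 : Measurable fun p : (ℝ × (Fin N → ℝ)) × (Fin N → ℝ) =>
            (f (Fin.cons s p.1.2) * g (Fin.cons p.1.1 p.2) *
              h (Fin.cons (s + p.1.1) (p.1.2 + p.2))) ^ (2 / 3 : ℝ) := by
          have a1 : Measurable fun p : (ℝ × (Fin N → ℝ)) × (Fin N → ℝ) =>
              f (Fin.cons s p.1.2) := hf.comp ((hcf s).comp (measurable_snd.comp measurable_fst))
          have a2 : Measurable fun p : (ℝ × (Fin N → ℝ)) × (Fin N → ℝ) =>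
              g (Fin.cons p.1.1 p.2) :=
            hg.comp (hcons.comp ((measurable_fst.comp measurable_fst).prodMk measurable_snd))
          have a3 : Measurable fun p : (ℝ × (Fin N → ℝ)) × (Fin N → ℝ) =>
              h (Fin.cons (s + p.1.1) (p.1.2 + p.2)) :=
            hh.comp (hcons.comp (((measurable_fst.comp measurable_fst).const_add s).prodMk
              ((measurable_snd.comp measurable_fst).add measurable_snd)))
          exact ((a1.mul a2).mul a3).pow_const _
        exact hm2.lintegral_prod_right'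
    rw [h1, yg_lint_cons N f hf, yg_lint_cons N g hg, yg_lint_cons N h hh]
    calc ∫⁻ s : ℝ, ∫⁻ t : ℝ, ∫⁻ x' : Fin N → ℝ, ∫⁻ y' : Fin N → ℝ,
          (f (Fin.cons s x') * g (Fin.cons t y') * h (Fin.cons (s + t) (x' + y'))) ^ (2 / 3 : ℝ)
        ≤ ∫⁻ s : ℝ, ∫⁻ t : ℝ, ENNReal.ofReal ((998 / 1000) ^ N) *
            (F s * G t * H (s + t)) ^ (2 / 3 : ℝ) := by
          refine lintegral_mono fun s => lintegral_mono fun t => ?_
          exact ih (fun x' => f (Fin.cons s x')) (fun y' => g (Fin.cons t y'))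
            (fun z' => h (Fin.cons (s + t) z')) (hf.comp (hcf s)) (hg.comp (hcf t))
            (hh.comp (hcf (s + t)))
      _ = ENNReal.ofReal ((998 / 1000) ^ N) *
            ∫⁻ s : ℝ, ∫⁻ t : ℝ, (F s * G t * H (s + t)) ^ (2 / 3 : ℝ) := by
          rw [← lintegral_const_mul' _ _ ENNReal.ofReal_ne_top]
          refine lintegral_congr fun s => ?_
          rw [lintegral_const_mul' _ _ ENNReal.ofReal_ne_top]
      _ ≤ ENNReal.ofReal ((998 / 1000) ^ N) * (ENNReal.ofReal (998 / 1000) *
            ((∫⁻ x, F x) * (∫⁻ x, G x) * (∫⁻ x, H x)) ^ (2 / 3 : ℝ)) := by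
          gcongr
          exact hY F G H hFm hGm hHm
      _ = ENNReal.ofReal ((998 / 1000) ^ (N + 1)) *
            ((∫⁻ x, F x) * (∫⁻ x, G x) * (∫⁻ x, H x)) ^ (2 / 3 : ℝ) := by
          rw [← mul_assoc, ← ENNReal.ofReal_mul (by positivity), pow_succ]

end Vale.Agent.P230
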