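import Vale.Agent.P230.Defs

/-! Module YOUNG1: one-dimensional Young inequality with a constant `< 1`. -/

open MeasureTheory ProbabilityTheory Filter Topology Set
open scoped ENNReal NNReal

namespace Vale.Agent.P230

/-- quantiles exist -/
theorem quantile (f : ℝ → ℝ≥0∞) (hf : Measurable f) (h1 : ∫⁻ x, f x = 1) (c : ℝ)
    (h0 : 0 < c) (hc : c < 1) : ∃ a, ∫⁻ x in Iic a, f x = ENNReal.ofReal c := by
  set μ : Measure ℝ := volume.withDensity f with hμ
  haveI : IsProbabilityMeasure μ := ⟨by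
    rw [hμ, withDensity_apply _ MeasurableSet.univ, Measure.restrict_univ, h1]⟩
  have hatom : ∀ a, μ {a} = 0 := fun a =>
    withDensity_absolutelyContinuous volume f (measure_singleton a)
  have hcont : Continuous (cdf μ) := by
    rw [continuous_iff_continuousAt]
    intro a
    rw [(monotone_cdf μ).continuousAt_iff_leftLim_eq_rightLim, (cdf μ).rightLim_eq]
    have h2 := (cdf μ).measure_singleton a
    rw [measure_cdf, hatom, eq_comm, ENNReal.ofReal_eq_zero] at h2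
    have h3 := (monotone_cdf μ).leftLim_le (le_refl a)
    linarith
  obtain ⟨a1, ha1⟩ := ((tendsto_cdf_atBot μ).eventually (gt_mem_nhds h0)).exists
  obtain ⟨a2, ha2⟩ := ((tendsto_cdf_atTop μ).eventually (lt_mem_nhds hc)).exists
  obtain ⟨a, ha⟩ := mem_range_of_exists_le_of_exists_ge hcont ⟨a1, ha1.le⟩ ⟨a2, ha2.le⟩
  refine ⟨a, ?_⟩
  rw [← ha, ofReal_cdf, hμ, withDensity_apply _ measurableSet_Iic]

/-- pointwise inequality of the means -/
theorem amgm3 (f g h : ℝ≥0∞) (p q r : ℝ≥0) (hpqr : p * q * r = 1) :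
    (f * g * h) ^ (2 / 3 : ℝ) ≤ (p * (f * g) + q * (g * h) + r * (f * h)) / 3 := by
  have hp : p ≠ 0 := by rintro rfl; simp at hpqr
  have hq : q ≠ 0 := by rintro rfl; simp at hpqr
  have hr : r ≠ 0 := by rintro rfl; simp at hpqr
  have hzero : f * g * h = 0 →
      (f * g * h) ^ (2 / 3 : ℝ) ≤ (p * (f * g) + q * (g * h) + r * (f * h)) / 3 := by
    intro h0
    rw [h0, ENNReal.zero_rpow_of_pos (by norm_num)]
    exact zero_le
  have htop : (p * (f * g) + q * (g * h) + r * (f * h) : ℝ≥0∞) = ∞ →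
      (f * g * h) ^ (2 / 3 : ℝ) ≤ (p * (f * g) + q * (g * h) + r * (f * h)) / 3 := by
    intro h0
    rw [h0, ENNReal.top_div_of_ne_top (by norm_num)]
    exact le_top
  by_cases hf0 : f = 0
  · exact hzero (by simp [hf0])
  by_cases hg0 : g = 0
  · exact hzero (by simp [hg0])
  by_cases hh0 : h = 0
  · exact hzero (by simp [hh0])
  by_cases hft : f = ∞
  · refine htop ?_
    have : (p * (f * g) : ℝ≥0∞) = ∞ := by
      rw [hft, ENNReal.top_mul hg0, ENNReal.mul_top (by exact_mod_cast hp)]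
    rw [this]; simp
  by_cases hgt : g = ∞
  · refine htop ?_
    have : (p * (f * g) : ℝ≥0∞) = ∞ := by
      rw [hgt, ENNReal.mul_top hf0, ENNReal.mul_top (by exact_mod_cast hp)]
    rw [this]; simp
  by_cases hht : h = ∞
  · refine htop ?_
    have : (q * (g * h) : ℝ≥0∞) = ∞ := by
      rw [hht, ENNReal.mul_top hg0, ENNReal.mul_top (by exact_mod_cast hq)]
    rw [this]; simp
  lift f to ℝ≥0 using hft
  lift g to ℝ≥0 using hgt
  lift h to ℝ≥0 using hht
  have key := NNReal.geom_mean_le_arith_mean3_weighted (1 / 3) (1 / 3) (1 / 3)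
    (p * (f * g)) (q * (g * h)) (r * (f * h)) (by norm_num [← add_div])
  have e1 : (p * (f * g)) ^ (((1 / 3 : ℝ≥0)) : ℝ) * (q * (g * h)) ^ (((1 / 3 : ℝ≥0)) : ℝ) *
      (r * (f * h)) ^ (((1 / 3 : ℝ≥0)) : ℝ) = (f * g * h) ^ (2 / 3 : ℝ) := by
    rw [← NNReal.mul_rpow, ← NNReal.mul_rpow]
    have : p * (f * g) * (q * (g * h)) * (r * (f * h)) = (f * g * h) ^ (2 : ℝ) := by
      rw [show (2 : ℝ) = ((2 : ℕ) : ℝ) by norm_num, NNReal.rpow_natCast]
      calc p * (f * g) * (q * (g * h)) * (r * (f * h)) = (p * q * r) * (f * g * h) ^ 2 := by ring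
        _ = (f * g * h) ^ 2 := by rw [hpqr, one_mul]
    rw [this, ← NNReal.rpow_mul]
    congr 1
    push_cast
    norm_num
  rw [e1] at key
  have key2 : (((f * g * h) ^ (2 / 3 : ℝ) : ℝ≥0) : ℝ≥0∞) ≤
      ((1 / 3 * (p * (f * g)) + 1 / 3 * (q * (g * h)) + 1 / 3 * (r * (f * h)) : ℝ≥0) : ℝ≥0∞) := by
    exact_mod_cast key
  rw [ENNReal.coe_rpow_of_nonneg _ (by norm_num)] at key2
  push_cast at key2
  refine key2.trans (le_of_eq ?_)
  simp only [ENNReal.div_eq_inv_mul, mul_one, mul_add]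

theorem core_case {f g h : ℝ → ℝ≥0∞} (hf : Measurable f) (hg : Measurable g) (hh : Measurable h)
    (hf1 : ∫⁻ x, f x = 1) (hg1 : ∫⁻ x, g x = 1) (hh1 : ∫⁻ x, h x = 1)
    (E : Set (ℝ × ℝ)) (hE : MeasurableSet E)
    (hα : ∫⁻ z in E, f z.1 * g z.2 = ENNReal.ofReal (3 / 16))
    (hβ : ∫⁻ z in E, f z.1 * h (z.1 + z.2) ≤ ENNReal.ofReal (1 / 8) ∨
      ∫⁻ z in E, g z.2 * h (z.1 + z.2) ≤ ENNReal.ofReal (1 / 8)) :
    ∫⁻ z : ℝ × ℝ, (f z.1 * g z.2 * h (z.1 + z.2)) ^ (2 / 3 : ℝ) ≤ ENNReal.ofReal (998 / 1000) := by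
  have mA : Measurable fun z : ℝ × ℝ => f z.1 * g z.2 := by fun_prop
  have mB : Measurable fun z : ℝ × ℝ => g z.2 * h (z.1 + z.2) := by fun_prop
  have mC : Measurable fun z : ℝ × ℝ => f z.1 * h (z.1 + z.2) := by fun_prop
  have iA : ∫⁻ z : ℝ × ℝ, f z.1 * g z.2 = 1 := by
    rw [Measure.volume_eq_prod, lintegral_prod_mul hf.aemeasurable hg.aemeasurable, hf1, hg1,
      one_mul]
  have iC : ∫⁻ z : ℝ × ℝ, f z.1 * h (z.1 + z.2) = 1 := by
    rw [Measure.volume_eq_prod, lintegral_prod _ mC.aemeasurable]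
    have : ∀ x, ∫⁻ y, f x * h (x + y) = f x := by
      intro x
      rw [lintegral_const_mul _ (by fun_prop), lintegral_add_left_eq_self, hh1, mul_one]
    simp_rw [this]
    exact hf1
  have iB : ∫⁻ z : ℝ × ℝ, g z.2 * h (z.1 + z.2) = 1 := by
    rw [Measure.volume_eq_prod, lintegral_prod_symm _ mB.aemeasurable]
    have : ∀ y, ∫⁻ x, g y * h (x + y) = g y := by
      intro y
      rw [lintegral_const_mul _ (by fun_prop), lintegral_add_right_eq_self, hh1, mul_one]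
    simp_rw [this]
    exact hg1
  have sA := lintegral_add_compl (μ := (volume : Measure (ℝ × ℝ)))
    (fun z : ℝ × ℝ => f z.1 * g z.2) hE
  have sB := lintegral_add_compl (μ := (volume : Measure (ℝ × ℝ)))
    (fun z : ℝ × ℝ => g z.2 * h (z.1 + z.2)) hE
  have sC := lintegral_add_compl (μ := (volume : Measure (ℝ × ℝ)))
    (fun z : ℝ × ℝ => f z.1 * h (z.1 + z.2)) hE
  have sF := lintegral_add_compl (μ := (volume : Measure (ℝ × ℝ)))
    (fun z : ℝ × ℝ => (f z.1 * g z.2 * h (z.1 + z.2)) ^ (2 / 3 : ℝ)) hE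
  rw [iA, hα] at sA
  rw [iB] at sB
  rw [iC] at sC
  rw [← sF]
  set A2 := ∫⁻ z in Eᶜ, f z.1 * g z.2 with hA2
  set B1 := ∫⁻ z in E, g z.2 * h (z.1 + z.2) with hB1
  set B2 := ∫⁻ z in Eᶜ, g z.2 * h (z.1 + z.2) with hB2
  set C1 := ∫⁻ z in E, f z.1 * h (z.1 + z.2) with hC1
  set C2 := ∫⁻ z in Eᶜ, f z.1 * h (z.1 + z.2) with hC2
  have tA2 : A2 ≠ ∞ := by intro h; rw [h] at sA; simp at sA
  have tB1 : B1 ≠ ∞ := by intro h; rw [h] at sB; simp at sB
  have tB2 : B2 ≠ ∞ := by intro h; rw [h] at sB; simp at sB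
  have tC1 : C1 ≠ ∞ := by intro h; rw [h] at sC; simp at sC
  have tC2 : C2 ≠ ∞ := by intro h; rw [h] at sC; simp at sC
  -- integrated AM-GM on a set
  have hint : ∀ (s : Set (ℝ × ℝ)) (p q r : ℝ≥0), p * q * r = 1 →
      ∫⁻ z in s, (f z.1 * g z.2 * h (z.1 + z.2)) ^ (2 / 3 : ℝ) ≤
        (p * ∫⁻ z in s, f z.1 * g z.2) / 3 + (q * ∫⁻ z in s, g z.2 * h (z.1 + z.2)) / 3 +
          (r * ∫⁻ z in s, f z.1 * h (z.1 + z.2)) / 3 := by
    intro s p q r hpqr
    calc ∫⁻ z in s, (f z.1 * g z.2 * h (z.1 + z.2)) ^ (2 / 3 : ℝ)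
        ≤ ∫⁻ z in s, (p * (f z.1 * g z.2) + q * (g z.2 * h (z.1 + z.2)) +
            r * (f z.1 * h (z.1 + z.2))) / 3 := lintegral_mono fun z => amgm3 _ _ _ p q r hpqr
      _ = _ := by
          simp_rw [ENNReal.div_eq_inv_mul]
          rw [lintegral_const_mul _ (by fun_prop), lintegral_add_right _ (by fun_prop),
            lintegral_add_right _ (by fun_prop), lintegral_const_mul _ mA,
            lintegral_const_mul _ mB, lintegral_const_mul _ mC, mul_add, mul_add]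
  rw [show (3 : ℝ) / 16 = ((3 / 16 : ℝ≥0) : ℝ) by push_cast; ring, ENNReal.ofReal_coe_nnreal]
    at hα sA
  rw [show (998 : ℝ) / 1000 = ((998 / 1000 : ℝ≥0) : ℝ) by push_cast; ring,
    ENNReal.ofReal_coe_nnreal]
  rw [show (1 : ℝ) / 8 = ((1 / 8 : ℝ≥0) : ℝ) by push_cast; ring, ENNReal.ofReal_coe_nnreal] at hβ
  clear_value A2 B1 B2 C1 C2
  lift A2 to ℝ≥0 using tA2
  lift B1 to ℝ≥0 using tB1
  lift B2 to ℝ≥0 using tB2
  lift C1 to ℝ≥0 using tC1
  lift C2 to ℝ≥0 using tC2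
  have sA' : (3 / 16 : ℝ) + A2 = 1 := by
    have : ((3 / 16 : ℝ≥0)) + A2 = 1 := by exact_mod_cast sA
    have h2 := congrArg (fun t : ℝ≥0 => (t : ℝ)) this
    push_cast at h2
    exact h2
  have sB' : (B1 : ℝ) + B2 = 1 := by exact_mod_cast sB
  have sC' : (C1 : ℝ) + C2 = 1 := by exact_mod_cast sC
  have key : ∀ (p q r p' q' r' : ℝ≥0), p * q * r = 1 → p' * q' * r' = 1 →
      ((p : ℝ) * (3 / 16) / 3 + q * B1 / 3 + r * C1 / 3) +
        (p' * A2 / 3 + q' * B2 / 3 + r' * C2 / 3) ≤ 998 / 1000 →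
      (∫⁻ z in E, (f z.1 * g z.2 * h (z.1 + z.2)) ^ (2 / 3 : ℝ)) +
        (∫⁻ z in Eᶜ, (f z.1 * g z.2 * h (z.1 + z.2)) ^ (2 / 3 : ℝ)) ≤
          ((998 / 1000 : ℝ≥0) : ℝ≥0∞) := by
    intro p q r p' q' r' h1 h2 h3
    have k1 := hint E p q r h1
    have k2 := hint Eᶜ p' q' r' h2
    rw [hα, ← hB1, ← hC1] at k1
    rw [← hA2, ← hB2, ← hC2] at k2
    refine (add_le_add k1 k2).trans ?_
    have e : ((p * ((3 / 16 : ℝ≥0) : ℝ≥0∞)) / 3 + (q * (B1 : ℝ≥0∞)) / 3 +
        (r * (C1 : ℝ≥0∞)) / 3) + ((p' * (A2 : ℝ≥0∞)) / 3 + (q' * (B2 : ℝ≥0∞)) / 3 +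
        (r' * (C2 : ℝ≥0∞)) / 3) =
        (((p * (3 / 16) / 3 + q * B1 / 3 + r * C1 / 3) +
          (p' * A2 / 3 + q' * B2 / 3 + r' * C2 / 3) : ℝ≥0) : ℝ≥0∞) := by
      push_cast
      rfl
    rw [e, ENNReal.coe_le_coe, ← NNReal.coe_le_coe]
    push_cast
    exact h3
  rcases hβ with hβ | hβ
  · have hβ' : (C1 : ℝ) ≤ 1 / 8 := by
      have h1 : C1 ≤ 1 / 8 := by exact_mod_cast hβ
      have := NNReal.coe_le_coe.mpr h1
      push_cast at this
      exact this
    refine key (4 / 5) 1 (5 / 4) (28 / 27) 1 (27 / 28) (by norm_num) (by norm_num) ?_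
    push_cast
    nlinarith
  · have hβ' : (B1 : ℝ) ≤ 1 / 8 := by
      have h1 : B1 ≤ 1 / 8 := by exact_mod_cast hβ
      have := NNReal.coe_le_coe.mpr h1
      push_cast at this
      exact this
    refine key (4 / 5) (5 / 4) 1 (28 / 27) (27 / 28) 1 (by norm_num) (by norm_num) ?_
    push_cast
    nlinarith

theorem shift_Iic (h : ℝ → ℝ≥0∞) (a b x : ℝ) (hx : x ≤ a) :
    ∫⁻ y in Iic b, h (x + y) ≤ ∫⁻ z in Iic (a + b), h z := by
  rw [← lintegral_indicator measurableSet_Iic, ← lintegral_indicator measurableSet_Iic,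
    ← lintegral_add_left_eq_self ((Iic (a + b)).indicator h) x]
  refine lintegral_mono fun y => ?_
  by_cases hy : y ≤ b
  · rw [indicator_of_mem (mem_Iic.mpr hy), indicator_of_mem (mem_Iic.mpr (by linarith))]
  · rw [indicator_of_notMem (by simpa using hy)]
    exact zero_le

theorem shift_Ioi (h : ℝ → ℝ≥0∞) (a b y : ℝ) (hy : b < y) :
    ∫⁻ x in Ioi a, h (x + y) ≤ ∫⁻ z in Ioi (a + b), h z := by
  rw [← lintegral_indicator measurableSet_Ioi, ← lintegral_indicator measurableSet_Ioi,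
    ← lintegral_add_right_eq_self ((Ioi (a + b)).indicator h) y]
  refine lintegral_mono fun x => ?_
  by_cases hx : a < x
  · rw [indicator_of_mem (mem_Ioi.mpr hx), indicator_of_mem (mem_Ioi.mpr (by linarith))]
  · rw [indicator_of_notMem (by simpa using hx)]
    exact zero_le

theorem compl_mass (f : ℝ → ℝ≥0∞) (h1 : ∫⁻ x, f x = 1) (a c : ℝ) (hc0 : 0 ≤ c) (hc1 : c ≤ 1)
    (ha : ∫⁻ x in Iic a, f x = ENNReal.ofReal c) :
    ∫⁻ x in Ioi a, f x = ENNReal.ofReal (1 - c) := by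
  have h2 := lintegral_add_compl (μ := volume) f (measurableSet_Iic (a := a))
  rw [compl_Iic, ha, h1] at h2
  have h3 : ENNReal.ofReal c + ENNReal.ofReal (1 - c) = 1 := by
    rw [← ENNReal.ofReal_add hc0 (by linarith)]
    simp
  rw [← h3] at h2
  exact (ENNReal.add_right_inj ENNReal.ofReal_ne_top).mp h2

theorem young1_normalized {f g h : ℝ → ℝ≥0∞} (hf : Measurable f) (hg : Measurable g)
    (hh : Measurable h)
    (hf1 : ∫⁻ x, f x = 1) (hg1 : ∫⁻ x, g x = 1) (hh1 : ∫⁻ x, h x = 1) :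
    ∫⁻ z : ℝ × ℝ, (f z.1 * g z.2 * h (z.1 + z.2)) ^ (2 / 3 : ℝ) ≤ ENNReal.ofReal (998 / 1000) := by
  obtain ⟨a, ha⟩ := quantile f hf hf1 (1 / 4) (by norm_num) (by norm_num)
  obtain ⟨b, hb⟩ := quantile g hg hg1 (3 / 4) (by norm_num) (by norm_num)
  have mB : Measurable fun z : ℝ × ℝ => g z.2 * h (z.1 + z.2) := by fun_prop
  have mC : Measurable fun z : ℝ × ℝ => f z.1 * h (z.1 + z.2) := by fun_prop
  by_cases hγ2 : ∫⁻ z in Iic (a + b), h z ≤ ENNReal.ofReal (1 / 2)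
  · refine core_case hf hg hh hf1 hg1 hh1 (Iic a ×ˢ Iic b)
      (measurableSet_Iic.prod measurableSet_Iic) ?_ (Or.inl ?_)
    · rw [Measure.volume_eq_prod, ← Measure.prod_restrict,
        lintegral_prod_mul hf.aemeasurable.restrict hg.aemeasurable.restrict, ha, hb,
        ← ENNReal.ofReal_mul (by norm_num)]
      norm_num
    · rw [Measure.volume_eq_prod, ← Measure.prod_restrict, lintegral_prod _ mC.aemeasurable]
      calc ∫⁻ x in Iic a, ∫⁻ y in Iic b, f x * h (x + y)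
          ≤ ∫⁻ x in Iic a, f x * ENNReal.ofReal (1 / 2) := by
            refine setLIntegral_mono' measurableSet_Iic fun x hx => ?_
            rw [lintegral_const_mul _ (by fun_prop)]
            gcongr
            exact (shift_Iic h a b x hx).trans hγ2
        _ = ENNReal.ofReal (1 / 8) := by
            rw [lintegral_mul_const _ hf, ha, ← ENNReal.ofReal_mul (by norm_num)]
            norm_num
  · refine core_case hf hg hh hf1 hg1 hh1 (Ioi a ×ˢ Ioi b)
      (measurableSet_Ioi.prod measurableSet_Ioi) ?_ (Or.inr ?_)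
    · rw [Measure.volume_eq_prod, ← Measure.prod_restrict,
        lintegral_prod_mul hf.aemeasurable.restrict hg.aemeasurable.restrict,
        compl_mass f hf1 a (1 / 4) (by norm_num) (by norm_num) ha,
        compl_mass g hg1 b (3 / 4) (by norm_num) (by norm_num) hb,
        ← ENNReal.ofReal_mul (by norm_num)]
      norm_num
    · have hγ3 : ∫⁻ z in Ioi (a + b), h z ≤ ENNReal.ofReal (1 / 2) := by
        have h2 := lintegral_add_compl (μ := volume) h (measurableSet_Iic (a := a + b))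
        rw [compl_Iic, hh1] at h2
        have h3 : ENNReal.ofReal (1 / 2) + ENNReal.ofReal (1 / 2) = 1 := by
          rw [← ENNReal.ofReal_add (by norm_num) (by norm_num)]
          norm_num
        by_contra h4
        push Not at h4 hγ2
        have h5 := ENNReal.add_lt_add hγ2 h4
        rw [h2, h3] at h5
        exact lt_irrefl _ h5
      rw [Measure.volume_eq_prod, ← Measure.prod_restrict, lintegral_prod_symm _ mB.aemeasurable]
      calc ∫⁻ y in Ioi b, ∫⁻ x in Ioi a, g y * h (x + y)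
          ≤ ∫⁻ y in Ioi b, g y * ENNReal.ofReal (1 / 2) := by
            refine setLIntegral_mono' measurableSet_Ioi fun y hy => ?_
            rw [lintegral_const_mul _ (by fun_prop)]
            gcongr
            exact (shift_Ioi h a b y hy).trans hγ3
        _ = ENNReal.ofReal (1 / 8) := by
            rw [lintegral_mul_const _ hg,
              compl_mass g hg1 b (3 / 4) (by norm_num) (by norm_num) hb,
              ← ENNReal.ofReal_mul (by norm_num)]
            norm_num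

theorem young1 : S_YOUNG1 := by
  intro f g h hf hg hh
  have two3 : (0 : ℝ) < 2 / 3 := by norm_num
  by_cases hF0 : ∫⁻ x, f x = 0
  · have h1 := (lintegral_eq_zero_iff hf).mp hF0
    have h2 : ∫⁻ x, ∫⁻ y, (f x * g y * h (x + y)) ^ (2 / 3 : ℝ) = 0 := by
      rw [lintegral_eq_zero_of_ae_eq_zero]
      filter_upwards [h1] with x hx
      rw [hx]
      simp [ENNReal.zero_rpow_of_pos two3]
    rw [h2]; exact zero_le
  by_cases hG0 : ∫⁻ x, g x = 0
  · have h1 := (lintegral_eq_zero_iff hg).mp hG0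
    have h2 : ∀ x, ∫⁻ y, (f x * g y * h (x + y)) ^ (2 / 3 : ℝ) = 0 := by
      intro x
      rw [lintegral_eq_zero_of_ae_eq_zero]
      filter_upwards [h1] with y hy
      rw [hy]
      simp [ENNReal.zero_rpow_of_pos two3]
    simp_rw [h2]; simp
  by_cases hH0 : ∫⁻ x, h x = 0
  · have h2 : ∀ x, ∫⁻ y, (f x * g y * h (x + y)) ^ (2 / 3 : ℝ) = 0 := by
      intro x
      have h1 : ∫⁻ y, h (x + y) = 0 := by rw [lintegral_add_left_eq_self, hH0]
      have h1 := (lintegral_eq_zero_iff (by fun_prop)).mp h1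
      rw [lintegral_eq_zero_of_ae_eq_zero]
      filter_upwards [h1] with y hy
      rw [hy]
      simp [ENNReal.zero_rpow_of_pos two3]
    simp_rw [h2]; simp
  have c0 : ENNReal.ofReal (998 / 1000) ≠ 0 := by
    rw [Ne, ENNReal.ofReal_eq_zero]; norm_num
  by_cases htop : (∫⁻ x, f x) * (∫⁻ x, g x) * (∫⁻ x, h x) = ∞
  · rw [htop, ENNReal.top_rpow_of_pos two3, ENNReal.mul_top c0]
    exact le_top
  have hFt : ∫⁻ x, f x ≠ ∞ := by
    intro h1; apply htop; rw [h1, ENNReal.top_mul hG0, ENNReal.top_mul hH0]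
  have hGt : ∫⁻ x, g x ≠ ∞ := by
    intro h1; apply htop; rw [h1, ENNReal.mul_top hF0, ENNReal.top_mul hH0]
  have hHt : ∫⁻ x, h x ≠ ∞ := by
    intro h1; apply htop; rw [h1, ENNReal.mul_top (mul_ne_zero hF0 hG0)]
  set F := ∫⁻ x, f x with hF
  set G := ∫⁻ x, g x with hG
  set H := ∫⁻ x, h x with hH
  have nf : ∫⁻ x, F⁻¹ * f x = 1 := by
    rw [lintegral_const_mul _ hf, ← hF, ENNReal.inv_mul_cancel hF0 hFt]
  have ng : ∫⁻ x, G⁻¹ * g x = 1 := by
    rw [lintegral_const_mul _ hg, ← hG, ENNReal.inv_mul_cancel hG0 hGt]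
  have nh : ∫⁻ x, H⁻¹ * h x = 1 := by
    rw [lintegral_const_mul _ hh, ← hH, ENNReal.inv_mul_cancel hH0 hHt]
  have main := young1_normalized (f := fun x => F⁻¹ * f x) (g := fun x => G⁻¹ * g x)
    (h := fun x => H⁻¹ * h x) (by fun_prop) (by fun_prop) (by fun_prop) nf ng nh
  have hpt : ∀ x y : ℝ, (f x * g y * h (x + y)) ^ (2 / 3 : ℝ) =
      (F * G * H) ^ (2 / 3 : ℝ) *
        ((F⁻¹ * f x) * (G⁻¹ * g y) * (H⁻¹ * h (x + y))) ^ (2 / 3 : ℝ) := by
    intro x y
    rw [← ENNReal.mul_rpow_of_nonneg _ _ two3.le]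
    congr 1
    calc f x * g y * h (x + y) = (F * F⁻¹) * (G * G⁻¹) * (H * H⁻¹) * (f x * g y * h (x + y)) := by
          rw [ENNReal.mul_inv_cancel hF0 hFt, ENNReal.mul_inv_cancel hG0 hGt,
            ENNReal.mul_inv_cancel hH0 hHt]
          simp
      _ = _ := by ring
  simp_rw [hpt]
  have mm : Measurable fun z : ℝ × ℝ =>
      ((F⁻¹ * f z.1) * (G⁻¹ * g z.2) * (H⁻¹ * h (z.1 + z.2))) ^ (2 / 3 : ℝ) := by fun_prop
  rw [Measure.volume_eq_prod, lintegral_prod _ mm.aemeasurable] at main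
  have e1 : ∀ x : ℝ, ∫⁻ y, (F * G * H) ^ (2 / 3 : ℝ) *
        ((F⁻¹ * f x) * (G⁻¹ * g y) * (H⁻¹ * h (x + y))) ^ (2 / 3 : ℝ) =
      (F * G * H) ^ (2 / 3 : ℝ) * ∫⁻ y,
        ((F⁻¹ * f x) * (G⁻¹ * g y) * (H⁻¹ * h (x + y))) ^ (2 / 3 : ℝ) := by
    intro x
    rw [lintegral_const_mul _ (by fun_prop)]
  simp_rw [e1]
  rw [lintegral_const_mul _ mm.lintegral_prod_right', mul_comm]
  gcongr

end Vale.Agent.P230
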