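import Vale.Agent.P230.Num
import Vale.Agent.P230.Tree
import Vale.Agent.P230.Select
import Vale.Agent.P230.Aff
import Vale.Agent.P230.Split
import Vale.Agent.P230.Base
import Vale.Agent.P230.Cover
import Vale.Agent.P230.Basis
import Vale.Agent.P230.Fat
import Vale.Agent.P230.Young
import Vale.Agent.P230.Young1
import Vale.Agent.P230.Real
import Vale.Agent.P230.Norm
import Vale.Agent.P230.CountA
import Vale.Agent.P230.CountB
import Vale.Agent.P230.CountC
import Vale.Agent.P230.Greedy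
import Vale.Agent.P230.PL

/-!
# P230: the covering theorem in matrix form
-/

open MeasureTheory Set Filter
open scoped ENNReal NNReal BigOperators Topology

namespace Vale.Agent.P230

theorem LatCover.mono {ι : Type} [Fintype ι] [DecidableEq ι] {K : Set (ι → ℝ)} {c c' : ℝ}
    (h : LatCover K c) (hc : c ≤ c') : LatCover K c' := by
  obtain ⟨A, h1, h2, h3⟩ := h
  exact ⟨A, h1, h2, h3.trans (mul_le_mul_of_nonneg_right hc (abs_nonneg _))⟩

theorem ProdCover.mono {N m : ℕ} {K : Set ((Fin N → ℝ) × (Fin m → ℝ))} {c c' : ℝ}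
    (h : ProdCover K c) (hc : c ≤ c') : ProdCover K c' := by
  obtain ⟨A, h1, h2, h3⟩ := h
  exact ⟨A, h1, h2, h3.trans (mul_le_mul_of_nonneg_right hc (abs_nonneg _))⟩

/-- normalised bodies have coverings of density `(2n)^n` -/
theorem small_cover {n : ℕ} (hn : 1 ≤ n) (K : Set (Fin n → ℝ))
    (h1 : ∀ x : Fin n → ℝ, (∀ i, 0 ≤ x i ∧ x i ≤ 1 / (n : ℝ)) → x ∈ K)
    (h2 : ∀ x ∈ K, ∀ i, |x i| ≤ 1) : LatCover K ((2 * n : ℝ) ^ n) := by
  have hn0 : (0 : ℝ) < n := by exact_mod_cast hn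
  refine ⟨(1 / (n : ℝ)) • (1 : Matrix (Fin n) (Fin n) ℝ), ?_, ?_, ?_⟩
  · rw [Matrix.det_smul, Matrix.det_one, mul_one]; positivity
  · intro x
    refine ⟨fun i => ⌊x i * n⌋, h1 _ fun i => ?_⟩
    rw [Matrix.smul_mulVec, Matrix.one_mulVec]
    simp only [Pi.sub_apply, Pi.smul_apply, smul_eq_mul]
    have a1 := Int.floor_le (x i * n)
    have a2 := (Int.lt_floor_add_one (x i * n)).le
    have e1 : x i - 1 / (n : ℝ) * (⌊x i * n⌋ : ℝ) = (x i * n - ⌊x i * n⌋) / n := by
      field_simp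
    rw [e1]
    constructor
    · exact div_nonneg (by linarith) hn0.le
    · exact div_le_div_of_nonneg_right (by linarith) hn0.le
  · rw [Matrix.det_smul, Matrix.det_one, mul_one, Fintype.card_fin, abs_of_pos (by positivity)]
    have hsub : K ⊆ Set.Icc (fun _ => (-1 : ℝ)) (fun _ => 1) := by
      intro x hx
      exact ⟨fun i => (abs_le.1 (h2 x hx i)).1, fun i => (abs_le.1 (h2 x hx i)).2⟩
    have hv : volume K ≤ ENNReal.ofReal (2 ^ n) := by
      refine (measure_mono hsub).trans (le_of_eq ?_)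
      rw [Real.volume_Icc_pi]
      simp only [sub_neg_eq_add, Finset.prod_const, Finset.card_univ, Fintype.card_fin]
      rw [← ENNReal.ofReal_pow (by norm_num)]
      norm_num
    have hv2 := ENNReal.toReal_le_of_le_ofReal (by positivity) hv
    refine hv2.trans (le_of_eq ?_)
    rw [mul_pow, mul_assoc, ← mul_pow, mul_one_div, div_self hn0.ne', one_pow, mul_one]

/-- reduction to normalised bodies -/
theorem reduce_normal {n : ℕ} (hn : 1 ≤ n) {c : ℝ}
    (H : ∀ K : Set (Fin n → ℝ), IsCompact K → Convex ℝ K →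
      (∀ x : Fin n → ℝ, (∀ i, 0 ≤ x i ∧ x i ≤ 1 / (n : ℝ)) → x ∈ K) →
      (∀ x ∈ K, ∀ i, |x i| ≤ 1) → LatCover K c)
    (K : Set (Fin n → ℝ)) (hK : IsConvexBody K) : LatCover K c := by
  obtain ⟨B, b, hB, h1, h2⟩ := norm_lemma n K hn hK
  have hcont : Continuous fun x : Fin n → ℝ => B.mulVec x + b := by
    have : Continuous fun x : Fin n → ℝ => B.mulVec x :=
      Continuous.matrix_mulVec continuous_const continuous_id
    exact this.add continuous_const
  refine aff (Fin n) K B b c hB hK.compact.measurableSet (H _ ?_ ?_ h1 h2)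
  · refine Metric.isCompact_of_isClosed_isBounded (hK.compact.isClosed.preimage hcont) ?_
    refine (Metric.isBounded_closedBall (x := (0 : Fin n → ℝ)) (r := 1)).subset ?_
    intro x hx
    rw [mem_closedBall_zero_iff, pi_norm_le_iff_of_nonneg zero_le_one]
    exact h2 x hx
  · intro x hx y hy a b' ha hb hab
    have e1 : B.mulVec (a • x + b' • y) + b = a • (B.mulVec x + b) + b' • (B.mulVec y + b) := by
      rw [Matrix.mulVec_add, Matrix.mulVec_smul, Matrix.mulVec_smul]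
      have : b = a • b + b' • b := by rw [← add_smul, hab, one_smul]
      nth_rewrite 1 [this]
      module
    show B.mulVec (a • x + b' • y) + b ∈ K
    rw [e1]
    exact hK.convex hx hy ha hb hab

theorem two_e_pow {m : ℕ} {y : ℝ} (h : (2 : ℝ) ^ m ≤ y) :
    (2 * Real.exp 1) ^ m ≤ y ^ (5 / 2 : ℝ) := by
  have hy : 0 ≤ y := le_trans (by positivity) h
  have h1 : ((2 * Real.exp 1) ^ m) ^ 2 ≤ (y ^ (5 / 2 : ℝ)) ^ 2 := by
    have e1 : (y ^ (5 / 2 : ℝ)) ^ 2 = y ^ 5 := by
      rw [← Real.rpow_natCast, ← Real.rpow_mul hy]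
      norm_num
    rw [e1, ← pow_mul, mul_comm m 2, pow_mul]
    calc ((2 * Real.exp 1) ^ 2) ^ m ≤ ((2 : ℝ) ^ 5) ^ m := by
          refine pow_le_pow_left₀ (by positivity) ?_ m
          nlinarith [Real.exp_one_lt_d9, Real.exp_pos 1]
      _ = ((2 : ℝ) ^ m) ^ 5 := by rw [← pow_mul, ← pow_mul, mul_comm]
      _ ≤ y ^ 5 := pow_le_pow_left₀ (by positivity) h 5
  exact le_of_sq_le_sq h1 (by positivity)

/-- **Main theorem**, matrix form. -/
theorem main_cover (hBODY : S_BODY) : ∃ C : ℝ, 0 < C ∧ ∀ n : ℕ, 2 ≤ n → ∀ K : Set (Fin n → ℝ),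
    IsConvexBody K → LatCover K (C * n * Real.log n ^ (5 / 2 : ℝ)) := by
  obtain ⟨n0, hn0⟩ : ∃ n0 : ℕ, ∀ n ≥ n0, 1 ≤ n ∧ 100 ≤ Real.log n ∧
      10000000 * (Real.log n) ^ 2 ≤ (n : ℝ) := by
    have t1 : Tendsto (fun n : ℕ => Real.log (n : ℝ)) atTop atTop :=
      Real.tendsto_log_atTop.comp tendsto_natCast_atTop_atTop
    have t2 : (fun x : ℝ => Real.log x ^ 2) =o[atTop] (fun x : ℝ => x) := by
      have := isLittleO_log_rpow_rpow_atTop (r := 2) (s := 1) one_pos
      simpa using this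
    have t3 := (t2.comp_tendsto tendsto_natCast_atTop_atTop).bound
      (show (0 : ℝ) < 1 / 10000000 by norm_num)
    have t4 := (t1.eventually_ge_atTop 100).and (t3.and (eventually_ge_atTop 1))
    obtain ⟨n0, h⟩ := eventually_atTop.1 t4
    refine ⟨n0, fun n hn => ?_⟩
    obtain ⟨a1, a2, a3⟩ := h n hn
    refine ⟨a3, a1, ?_⟩
    simp only [Function.comp, Real.norm_eq_abs] at a2
    rw [abs_of_nonneg (by positivity), abs_of_nonneg (by positivity)] at a2
    linarith
  set C1 : ℝ := Real.exp 2 * 8 * (600001 : ℝ) ^ (5 / 2 : ℝ) with hC1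
  set C2 : ℝ := (2 * (n0 + 1) : ℝ) ^ (n0 + 1) / Real.log 2 ^ (5 / 2 : ℝ) with hC2
  have hl2 : 0 < Real.log 2 := Real.log_pos (by norm_num)
  have hC1p : 0 < C1 := by positivity
  have hC2p : 0 < C2 := by positivity
  refine ⟨C1 + C2, by positivity, fun n hn K hK => ?_⟩
  have hnR : (2 : ℝ) ≤ n := by exact_mod_cast hn
  have hlog0 : 0 < Real.log n := Real.log_pos (by linarith)
  refine reduce_normal (by omega) (fun K hKc hKv h1 h2 => ?_) K hK
  by_cases hbig : n0 ≤ n
  · obtain ⟨b1, b2, b3⟩ := hn0 n hbig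
    obtain ⟨N, m, d, l, p, V, δ, ρ, W, hNm, P, hm, hV⟩ := params_exist b1 b2 b3
    subst hNm
    refine LatCover.mono ?_ (show Real.exp 2 * (8 * (2 * Real.exp 1) ^ m * V) ≤ _ from ?_)
    · refine split N m _ (fun K' hK' => ?_) K hKc hKv h1 h2
      exact assemble hBODY fat (count countA (countB (young young1))) base select greedy
        (cover basis) P K' hK'
    · have hV0 : 0 ≤ V := le_trans zero_le_one P.hV
      have e1 := two_e_pow hm
      rw [Real.mul_rpow (by norm_num) hlog0.le] at e1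
      calc Real.exp 2 * (8 * (2 * Real.exp 1) ^ m * V)
          ≤ Real.exp 2 * (8 * ((600001 : ℝ) ^ (5 / 2 : ℝ) *
              Real.log ((N + m : ℕ) : ℝ) ^ (5 / 2 : ℝ)) * ((N + m : ℕ) : ℝ)) := by gcongr
        _ = C1 * ((N + m : ℕ) : ℝ) * Real.log ((N + m : ℕ) : ℝ) ^ (5 / 2 : ℝ) := by
            rw [hC1]; ring
        _ ≤ (C1 + C2) * ((N + m : ℕ) : ℝ) * Real.log ((N + m : ℕ) : ℝ) ^ (5 / 2 : ℝ) := by
            gcongr
            linarith
  · push Not at hbig
    refine (small_cover (by omega) K h1 h2).mono ?_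
    have e0 : (2 * n : ℝ) ^ n ≤ (2 * (n0 + 1) : ℝ) ^ (n0 + 1) := by
      have : (n : ℝ) ≤ n0 + 1 := by
        have : (n : ℝ) ≤ n0 := by exact_mod_cast hbig.le
        linarith
      calc (2 * n : ℝ) ^ n ≤ (2 * (n0 + 1) : ℝ) ^ n := pow_le_pow_left₀ (by positivity)
            (by linarith) n
        _ ≤ _ := pow_le_pow_right₀ (by linarith) (by omega)
    have e1 : Real.log 2 ^ (5 / 2 : ℝ) ≤ Real.log n ^ (5 / 2 : ℝ) :=
      Real.rpow_le_rpow hl2.le (Real.log_le_log (by norm_num) hnR) (by norm_num)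
    have e2 : (2 * (n0 + 1) : ℝ) ^ (n0 + 1) = C2 * Real.log 2 ^ (5 / 2 : ℝ) := by
      rw [hC2]; field_simp
    calc (2 * n : ℝ) ^ n ≤ C2 * Real.log 2 ^ (5 / 2 : ℝ) := by rw [← e2]; exact e0
      _ ≤ C2 * Real.log n ^ (5 / 2 : ℝ) := by gcongr
      _ = C2 * 1 * Real.log n ^ (5 / 2 : ℝ) := by ring
      _ ≤ (C1 + C2) * n * Real.log n ^ (5 / 2 : ℝ) := by
          gcongr
          · linarith
          · linarith

/-- From the matrix form to Mathlib lattices. -/
theorem lattice_of_matrix {n : ℕ} (A : Matrix (Fin n) (Fin n) ℝ) (hA : A.det ≠ 0) :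
    ∃ (Λ : Submodule ℤ (Fin n → ℝ)) (_ : DiscreteTopology Λ) (_ : IsZLattice ℝ Λ),
      (∀ z : Fin n → ℤ, A.mulVec (fun i => (z i : ℝ)) ∈ Λ) ∧ ZLattice.covolume Λ = |A.det| := by
  classical
  have hu : IsUnit A.det := isUnit_iff_ne_zero.2 hA
  let e : (Fin n → ℝ) ≃ₗ[ℝ] (Fin n → ℝ) := Matrix.toLinearEquiv' A (A.invertibleOfIsUnitDet hu)
  let b : Module.Basis (Fin n) ℝ (Fin n → ℝ) := (Pi.basisFun ℝ (Fin n)).map e
  have hb : ∀ j i, b j i = A i j := by
    intro j i
    show e (Pi.basisFun ℝ (Fin n) j) i = A i j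
    rw [Pi.basisFun_apply]
    show (A.mulVec (Pi.single j 1)) i = A i j
    simp
  refine ⟨Submodule.span ℤ (Set.range b), inferInstance, inferInstance, ?_, ?_⟩
  · intro z
    have : A.mulVec (fun i => (z i : ℝ)) = ∑ j, z j • b j := by
      ext i
      rw [Finset.sum_apply, Matrix.mulVec, dotProduct]
      refine Finset.sum_congr rfl fun j _ => ?_
      rw [Pi.smul_apply, hb, zsmul_eq_mul, mul_comm]
    rw [this]
    exact Submodule.sum_mem _ fun j _ =>
      Submodule.smul_mem _ _ (Submodule.subset_span ⟨j, rfl⟩)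
  · rw [ZLattice.covolume_eq_det _ (b.restrictScalars ℤ)]
    have : (Matrix.of ((↑) ∘ (b.restrictScalars ℤ)) : Matrix (Fin n) (Fin n) ℝ) = A.transpose := by
      ext i j
      simp only [Matrix.of_apply, Function.comp, Module.Basis.restrictScalars_apply,
        Matrix.transpose_apply]
      exact hb i j
    rw [this, Matrix.det_transpose]

end Vale.Agent.P230
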