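import Vale.Agent.P230.Final

/-!
# P230: the covering theorem with the exponent `1 + log₂ e`
-/

open MeasureTheory Set Filter
open scoped ENNReal NNReal BigOperators Topology

namespace Vale.Agent.P230

/-- the exponent `1 + log₂ e = 1 + 1 / log 2` -/
noncomputable def rgExp : ℝ := 1 + 1 / Real.log 2

theorem rgExp_pos : 0 < rgExp := by
  have hl2 : 0 < Real.log 2 := Real.log_pos (by norm_num)
  unfold rgExp; positivity

theorem two_rpow_rgExp : (2 : ℝ) ^ rgExp = 2 * Real.exp 1 := by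
  have hl2 : 0 < Real.log 2 := Real.log_pos (by norm_num)
  rw [rgExp, Real.rpow_add (by norm_num), Real.rpow_one, Real.rpow_def_of_pos (by norm_num)]
  congr 2
  field_simp

theorem two_e_pow_sharp {m : ℕ} {y : ℝ} (h : (2 : ℝ) ^ m ≤ y) :
    (2 * Real.exp 1) ^ m ≤ y ^ rgExp := by
  have h1 : (2 * Real.exp 1) ^ m = ((2 : ℝ) ^ m) ^ rgExp := by
    rw [← two_rpow_rgExp, ← Real.rpow_natCast, ← Real.rpow_natCast, ← Real.rpow_mul (by norm_num),
      ← Real.rpow_mul (by norm_num), mul_comm]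
  rw [h1]
  exact Real.rpow_le_rpow (by positivity) h rgExp_pos.le

/-- **Main theorem**, matrix form, exponent `1 + log₂ e`. -/
theorem main_cover_sharp (hBODY : S_BODY) : ∃ C : ℝ, 0 < C ∧ ∀ n : ℕ, 2 ≤ n →
    ∀ K : Set (Fin n → ℝ), IsConvexBody K → LatCover K (C * n * Real.log n ^ rgExp) := by
  obtain ⟨n0, hn0⟩ : ∃ n0 : ℕ, ∀ n ≥ n0, 1 ≤ n ∧ 100 ≤ Real.log n ∧
      10000000 * (Real.log n) ^ 2 ≤ (n : ℝ) := by
    have t1 : Tendsto (fun n : ℕ => Real.log (n : ℝ)) atTop atTop :=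
      Real.tendsto_log_atTop.comp tendsto_natCast_atTop_atTop
    have t2 : (fun x : ℝ => Real.log x ^ 2) =o[atTop] (fun x : ℝ => x) := by
      have := isLittleO_log_rpow_rpow_atTop (r := 2) (s := 1) one_pos
      simpa using this
    have t3 := (t2.comp_tendsto tendsto_natCast_atTop_atTop).bound
      (show (0 : ℝ) < 1 / 10000000 by norm_num)
    have t4 := (t1.eventually_ge_atTop 100).and (t3.and (eventually_ge_atTop 1))
    obtain ⟨n0, h⟩ := eventually_atTop.1 t4
    refine ⟨n0, fun n hn => ?_⟩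
    obtain ⟨a1, a2, a3⟩ := h n hn
    refine ⟨a3, a1, ?_⟩
    simp only [Function.comp, Real.norm_eq_abs] at a2
    rw [abs_of_nonneg (by positivity), abs_of_nonneg (by positivity)] at a2
    linarith
  have hr0 : 0 < rgExp := rgExp_pos
  set C1 : ℝ := Real.exp 2 * 8 * (600001 : ℝ) ^ rgExp with hC1
  set C2 : ℝ := (2 * (n0 + 1) : ℝ) ^ (n0 + 1) / Real.log 2 ^ rgExp with hC2
  have hl2 : 0 < Real.log 2 := Real.log_pos (by norm_num)
  have hC1p : 0 < C1 := by positivity
  have hC2p : 0 < C2 := by positivity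
  refine ⟨C1 + C2, by positivity, fun n hn K hK => ?_⟩
  have hnR : (2 : ℝ) ≤ n := by exact_mod_cast hn
  have hlog0 : 0 < Real.log n := Real.log_pos (by linarith)
  refine reduce_normal (by omega) (fun K hKc hKv h1 h2 => ?_) K hK
  by_cases hbig : n0 ≤ n
  · obtain ⟨b1, b2, b3⟩ := hn0 n hbig
    obtain ⟨N, m, d, l, p, V, δ, ρ, W, hNm, P, hm, hV⟩ := params_exist b1 b2 b3
    subst hNm
    refine LatCover.mono ?_ (show Real.exp 2 * (8 * (2 * Real.exp 1) ^ m * V) ≤ _ from ?_)
    · refine split N m _ (fun K' hK' => ?_) K hKc hKv h1 h2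
      exact assemble hBODY fat (count countA (countB (young young1))) base select greedy
        (cover basis) P K' hK'
    · have hV0 : 0 ≤ V := le_trans zero_le_one P.hV
      have e1 := two_e_pow_sharp hm
      rw [Real.mul_rpow (by norm_num) hlog0.le] at e1
      calc Real.exp 2 * (8 * (2 * Real.exp 1) ^ m * V)
          ≤ Real.exp 2 * (8 * ((600001 : ℝ) ^ rgExp *
              Real.log ((N + m : ℕ) : ℝ) ^ rgExp) * ((N + m : ℕ) : ℝ)) := by gcongr
        _ = C1 * ((N + m : ℕ) : ℝ) * Real.log ((N + m : ℕ) : ℝ) ^ rgExp := by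
            rw [hC1]; ring
        _ ≤ (C1 + C2) * ((N + m : ℕ) : ℝ) * Real.log ((N + m : ℕ) : ℝ) ^ rgExp := by
            gcongr
            linarith
  · push Not at hbig
    refine (small_cover (by omega) K h1 h2).mono ?_
    have e0 : (2 * n : ℝ) ^ n ≤ (2 * (n0 + 1) : ℝ) ^ (n0 + 1) := by
      have : (n : ℝ) ≤ n0 + 1 := by
        have : (n : ℝ) ≤ n0 := by exact_mod_cast hbig.le
        linarith
      calc (2 * n : ℝ) ^ n ≤ (2 * (n0 + 1) : ℝ) ^ n := pow_le_pow_left₀ (by positivity)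
            (by linarith) n
        _ ≤ _ := pow_le_pow_right₀ (by linarith) (by omega)
    have e1 : Real.log 2 ^ rgExp ≤ Real.log n ^ rgExp :=
      Real.rpow_le_rpow hl2.le (Real.log_le_log (by norm_num) hnR) hr0.le
    have e2 : (2 * (n0 + 1) : ℝ) ^ (n0 + 1) = C2 * Real.log 2 ^ rgExp := by
      rw [hC2]; field_simp
    calc (2 * n : ℝ) ^ n ≤ C2 * Real.log 2 ^ rgExp := by rw [← e2]; exact e0
      _ ≤ C2 * Real.log n ^ rgExp := by gcongr
      _ = C2 * 1 * Real.log n ^ rgExp := by ring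
      _ ≤ (C1 + C2) * n * Real.log n ^ rgExp := by
          gcongr
          · linarith
          · linarith

end Vale.Agent.P230
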