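import Vale.Agent.P230.Defs

/-! # P230, module GREEDY -/

open MeasureTheory
open scoped ENNReal NNReal BigOperators

namespace Vale.Agent.P230

lemma redZ_mono (q a : ℤ) {k : ℕ} {A B : Set (Fin (k + 1) → ℤ)} (h : A ⊆ B) :
    redZ q a A ⊆ redZ q a B := by
  rintro y ⟨j, h1, h2⟩
  exact ⟨j, h h1, h h2⟩

lemma TreeZ_mono : ∀ (m : ℕ) (q : ℤ) (a : Fin m → ℤ) {A B : Set (Fin m → ℤ)}, A ⊆ B →
    TreeZ m q a A → TreeZ m q a B
  | 0, _, _, _, _, h, hA => h hA
  | _ + 1, q, a, _, _, h, hA => TreeZ_mono _ q (Fin.tail a) (redZ_mono q (a 0) h) hA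

/-- averaging over the shift `x0` -/
lemma avg_shift {G : Type} [AddCommGroup G] [Fintype G] [DecidableEq G] (B C : Finset G) :
    ∑ x0 : G, (((B.filter fun g => g - x0 ∈ C).card : ℕ) : ℝ) = (B.card : ℝ) * C.card := by
  have h1 : ∀ x0 : G, (((B.filter fun g => g - x0 ∈ C).card : ℕ) : ℝ)
      = ∑ g ∈ B, if g - x0 ∈ C then (1 : ℝ) else 0 := by
    intro x0
    rw [Finset.card_filter]
    push_cast
    rfl
  simp_rw [h1]
  rw [Finset.sum_comm]
  have h2 : ∀ g ∈ B, ∑ x0 : G, (if g - x0 ∈ C then (1 : ℝ) else 0) = C.card := by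
    intro g _
    rw [Fintype.sum_equiv (Equiv.subLeft g) (fun x0 => if g - x0 ∈ C then (1 : ℝ) else 0)
      (fun y => if y ∈ C then (1 : ℝ) else 0) (fun x0 => by simp)]
    simp
  rw [Finset.sum_congr rfl h2]
  simp

/-- the general form, with an index type -/
lemma greedy_gen {G : Type} [AddCommGroup G] [Fintype G] [DecidableEq G] (q : ℤ)
    (W : ℝ) (hW : 0 < W) : ∀ (m : ℕ) (I : Type) (A : Finset (I × (Fin m → ℤ)))
    (U : I → (Fin m → ℤ) → Finset G) (δ : ℝ), 0 ≤ δ → (A.card : ℝ) ≤ W →
    (∀ a ∈ A, ((U a.1 a.2).card : ℝ) ≤ δ * Fintype.card G) →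
    (W * δ) ^ 2 ^ m * Fintype.card G < W →
    ∃ x : Fin m → G, ∀ (i : I) (a : Fin m → ℤ), TreeZ m q a {y | (i, y) ∈ A} → ∀ g : G,
      ∃ μ : Fin m → ℤ, g - ∑ j, μ j • x j ∉ U i (fun j => a j + q * μ j) := by
  intro m
  induction m with
  | zero =>
    intro I A U δ hδ hA hU hlt
    refine ⟨fun i => Fin.elim0 i, fun i a ha g => ⟨fun i => Fin.elim0 i, ?_⟩⟩
    have hmem : (i, (fun i => Fin.elim0 i : Fin 0 → ℤ)) ∈ A := ha
    have h1 := hU _ hmem
    simp only at h1
    have h2 : ((U i (fun i => Fin.elim0 i)).card : ℝ) < 1 := by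
      have h3 : W * (δ * Fintype.card G) < W * 1 := by
        have : (W * δ) ^ 2 ^ 0 * (Fintype.card G : ℝ) = W * (δ * Fintype.card G) := by
          simp
          ring
        linarith
      have h4 := lt_of_mul_lt_mul_left h3 hW.le
      linarith
    have h3 : (U i (fun i => Fin.elim0 i)).card = 0 := by
      have : (U i (fun i => Fin.elim0 i)).card < 1 := by exact_mod_cast h2
      omega
    rw [Finset.card_eq_zero] at h3
    have h4 : (fun j : Fin 0 => a j + q * (fun i => Fin.elim0 i : Fin 0 → ℤ) j)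
        = (fun i => Fin.elim0 i) := by
      funext j
      exact Fin.elim0 j
    rw [h4, h3]
    exact Finset.notMem_empty _
  | succ m ih =>
    intro I A U δ hδ hA hU hlt
    classical
    -- the pairs
    set P : Finset (I × (Fin (m + 1) → ℤ)) := A.filter fun s =>
      (s.1, (Fin.cons (s.2 0 + q) (Fin.tail s.2) : Fin (m + 1) → ℤ)) ∈ A with hP
    set nx : (Fin (m + 1) → ℤ) → (Fin (m + 1) → ℤ) := fun a => Fin.cons (a 0 + q) (Fin.tail a)
      with hnx
    have hPA : ∀ s ∈ P, s ∈ A ∧ (s.1, nx s.2) ∈ A := fun s hs => Finset.mem_filter.1 hs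
    have hPcard : (P.card : ℝ) ≤ W := by
      refine le_trans ?_ hA
      exact_mod_cast Finset.card_filter_le _ _
    -- choice of `x0`
    have hx0 : ∃ x0 : G, ∀ s ∈ P,
        ((((U s.1 s.2).filter fun g => g - x0 ∈ U s.1 (nx s.2)).card : ℕ) : ℝ)
          ≤ W * δ ^ 2 * Fintype.card G := by
      have hsum : ∑ x0 : G, ∑ s ∈ P,
          ((((U s.1 s.2).filter fun g => g - x0 ∈ U s.1 (nx s.2)).card : ℕ) : ℝ)
          ≤ ∑ _x0 : G, W * δ ^ 2 * Fintype.card G := by
        rw [Finset.sum_comm]
        simp_rw [avg_shift]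
        calc ∑ s ∈ P, ((U s.1 s.2).card : ℝ) * (U s.1 (nx s.2)).card
            ≤ ∑ s ∈ P, (δ * Fintype.card G) * (δ * Fintype.card G) := by
              apply Finset.sum_le_sum
              intro s hs
              apply mul_le_mul (hU _ (hPA s hs).1) (hU _ (hPA s hs).2) (Nat.cast_nonneg _)
              positivity
          _ = P.card * ((δ * Fintype.card G) * (δ * Fintype.card G)) := by
              rw [Finset.sum_const, nsmul_eq_mul]
          _ ≤ W * ((δ * Fintype.card G) * (δ * Fintype.card G)) := by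
              apply mul_le_mul_of_nonneg_right hPcard
              positivity
          _ = ∑ _x0 : G, W * δ ^ 2 * Fintype.card G := by
              rw [Finset.sum_const, nsmul_eq_mul, Finset.card_univ]
              ring
      obtain ⟨x0, _, hx0⟩ := Finset.exists_le_of_sum_le (Finset.univ_nonempty) hsum
      refine ⟨x0, fun s hs => le_trans ?_ hx0⟩
      exact Finset.single_le_sum
        (f := fun s : I × (Fin (m + 1) → ℤ) =>
          ((((U s.1 s.2).filter fun g => g - x0 ∈ U s.1 (nx s.2)).card : ℕ) : ℝ))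
        (fun i _ => Nat.cast_nonneg _) hs
    obtain ⟨x0, hx0⟩ := hx0
    -- the new data
    set A' : Finset ((I × ℤ) × (Fin m → ℤ)) :=
      P.image fun s => ((s.1, s.2 0 % q), Fin.tail s.2) with hA'
    set U' : I × ℤ → (Fin m → ℤ) → Finset G := fun r y =>
      Finset.univ.filter fun g => ∀ j : ℤ, g - j • x0 ∈
        U r.1 (Fin.cons (r.2 + j * q) y) with hU'
    have hA'card : (A'.card : ℝ) ≤ W := by
      refine le_trans ?_ hPcard
      exact_mod_cast Finset.card_image_le
    have hU'card : ∀ a ∈ A', ((U' a.1 a.2).card : ℝ) ≤ (W * δ ^ 2) * Fintype.card G := by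
      intro a ha
      obtain ⟨s, hs, rfl⟩ := Finset.mem_image.1 ha
      refine le_trans ?_ (hx0 s hs)
      have hj : s.2 0 % q + (s.2 0 / q) * q = s.2 0 := by
        rw [mul_comm]
        exact Int.emod_add_mul_ediv _ _
      have hj1 : s.2 0 % q + (s.2 0 / q + 1) * q = s.2 0 + q := by
        rw [add_mul, ← add_assoc, hj, one_mul]
      have hle : (U' (s.1, s.2 0 % q) (Fin.tail s.2)).card
          ≤ ((U s.1 s.2).filter fun g => g - x0 ∈ U s.1 (nx s.2)).card := by
        apply Finset.card_le_card_of_injOn (fun g => g - (s.2 0 / q) • x0)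
        · intro g hg
          simp only [hU', Finset.coe_filter, Finset.mem_univ, true_and, Set.mem_ofPred_eq] at hg
          have h1 := hg (s.2 0 / q)
          have h2 := hg (s.2 0 / q + 1)
          rw [hj, Fin.cons_self_tail] at h1
          rw [hj1] at h2
          simp only [Finset.coe_filter, Set.mem_ofPred_eq]
          refine ⟨h1, ?_⟩
          have h3 : g - (s.2 0 / q) • x0 - x0 = g - (s.2 0 / q + 1) • x0 := by
            rw [add_smul, one_smul]
            abel
          rw [h3]
          exact h2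
        · intro g _ g' _ h
          exact sub_left_injective h
      exact_mod_cast hle
    have hδ' : 0 ≤ W * δ ^ 2 := by positivity
    have hlt' : (W * (W * δ ^ 2)) ^ 2 ^ m * (Fintype.card G : ℝ) < W := by
      have : (W * (W * δ ^ 2)) ^ 2 ^ m = (W * δ) ^ 2 ^ (m + 1) := by
        rw [pow_succ' 2 m, pow_mul]
        congr 1
        ring
      rw [this]
      exact hlt
    obtain ⟨x', hx'⟩ := ih (I × ℤ) A' U' (W * δ ^ 2) hδ' hA'card hU'card hlt'
    refine ⟨Fin.cons x0 x', ?_⟩
    intro i a ha g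
    set r : ℤ := a 0 % q with hr
    set k : ℤ := a 0 / q with hk
    have hrk : r + k * q = a 0 := by
      rw [mul_comm]
      exact Int.emod_add_mul_ediv _ _
    have htree : TreeZ m q (Fin.tail a) {y | ((i, r), y) ∈ A'} := by
      refine TreeZ_mono m q (Fin.tail a) ?_ ha
      rintro y ⟨j, h1, h2⟩
      change ((i, r), y) ∈ A'
      rw [hA', Finset.mem_image]
      refine ⟨(i, Fin.cons (a 0 + j * q) y), ?_, ?_⟩
      · rw [hP, Finset.mem_filter]
        refine ⟨h1, ?_⟩
        simp only [Fin.cons_zero, Fin.tail_cons]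
        have : a 0 + j * q + q = a 0 + (j + 1) * q := by ring
        rw [this]
        exact h2
      · simp only [Fin.cons_zero, Fin.tail_cons]
        rw [Int.add_mul_emod_self_right]
    obtain ⟨μ', hμ'⟩ := hx' (i, r) (Fin.tail a) htree (g + k • x0)
    simp only [hU', Finset.mem_filter, Finset.mem_univ, true_and, not_forall] at hμ'
    obtain ⟨j, hj⟩ := hμ'
    refine ⟨Fin.cons (j - k) μ', ?_⟩
    rw [Fin.sum_univ_succ]
    simp only [Fin.cons_zero, Fin.cons_succ]
    have e1 : g - ((j - k) • x0 + ∑ i, μ' i • x' i) = g + k • x0 - ∑ i, μ' i • x' i - j • x0 := by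
      rw [sub_smul]
      abel
    have e2 : (fun l : Fin (m + 1) => a l + q * (Fin.cons (j - k) μ' : Fin (m + 1) → ℤ) l)
        = Fin.cons (r + j * q) (fun l => Fin.tail a l + q * μ' l) := by
      funext l
      refine Fin.cases ?_ (fun l => ?_) l
      · simp only [Fin.cons_zero]
        rw [← hrk]
        ring
      · simp only [Fin.cons_succ]
        rfl
    rw [e1, e2]
    exact hj

theorem greedy : S_GREEDY := by
  intro G _ _ _ m q A U W δ _ hW hδ hA hU hlt
  classical
  obtain ⟨x, hx⟩ := greedy_gen (G := G) q W hW m Unit (A.image fun a => ((), a))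
    (fun _ => U) δ hδ (by
      refine le_trans ?_ hA
      exact_mod_cast Finset.card_image_le) (by
      intro a ha
      obtain ⟨b, hb, rfl⟩ := Finset.mem_image.1 ha
      exact hU b hb) hlt
  refine ⟨x, fun a ha g => hx () a (TreeZ_mono m q a ?_ ha) g⟩
  intro y hy
  change ((), y) ∈ A.image fun a => ((), a)
  exact Finset.mem_image_of_mem _ hy

end Vale.Agent.P230
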