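import Vale.Agent.P230.Asm2

/-!
# P230: the numerical choice of the parameters
-/

open MeasureTheory Set Filter
open scoped ENNReal NNReal BigOperators Topology

namespace Vale.Agent.P230

theorem num_lin_le_two_rpow {L : ℝ} (hL : 100 ≤ L) : 600001 * L ≤ (2 : ℝ) ^ L := by
  -- `2^L = exp (L log 2) ≥ exp (L/2)·…`; use `exp y ≥ y^4/24`-type bound at `y = L log 2 ≥ 69`
  have h2 : (0.69 : ℝ) ≤ Real.log 2 := by linarith [Real.log_two_gt_d9]
  rw [Real.rpow_def_of_pos (by norm_num)]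
  have hy : 0.69 * L ≤ Real.log 2 * L := mul_le_mul_of_nonneg_right h2 (by linarith)
  refine le_trans ?_ (Real.exp_le_exp.2 hy)
  have h3 : (0.69 * L) ^ 8 / (Nat.factorial 8 : ℝ) ≤ Real.exp (0.69 * L) :=
    Real.pow_div_factorial_le_exp _ (by linarith) 8
  refine le_trans ?_ h3
  have h4 : (Nat.factorial 8 : ℝ) = 40320 := by norm_num [Nat.factorial]
  rw [h4, le_div_iff₀ (by norm_num)]
  have h5 : (100 : ℝ) ^ 7 ≤ L ^ 7 := pow_le_pow_left₀ (by norm_num) hL 7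
  have h6 : (0.69 * L) ^ 8 = 0.69 ^ 8 * L ^ 7 * L := by ring
  rw [h6]
  have h7 : (600001 : ℝ) * 40320 ≤ 0.69 ^ 8 * 100 ^ 7 := by norm_num
  nlinarith

theorem m_exists {L : ℝ} (hL : 100 ≤ L) : ∃ m : ℕ, 300000 * L ≤ (2 : ℝ) ^ m ∧
    (2 : ℝ) ^ m ≤ 600001 * L ∧ (m : ℝ) ≤ L := by
  set x : ℕ := ⌈300000 * L⌉₊ with hx
  have hx1 : 300000 * L ≤ x := Nat.le_ceil _
  have hx2 : (x : ℝ) ≤ 300000 * L + 1 := (Nat.ceil_lt_add_one (by linarith)).le
  have hx3 : 1 < x := by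
    have : (1 : ℝ) < x := by linarith
    exact_mod_cast this
  have h1 : x ≤ 2 ^ Nat.clog 2 x := Nat.le_pow_clog (by norm_num) x
  have h2 : 2 ^ (Nat.clog 2 x - 1) < x := Nat.pow_pred_clog_lt_self (by norm_num) hx3
  have hc : 1 ≤ Nat.clog 2 x := Nat.clog_pos (by norm_num) hx3
  have h3 : 2 ^ Nat.clog 2 x ≤ 2 * x := by
    have : 2 ^ Nat.clog 2 x = 2 * 2 ^ (Nat.clog 2 x - 1) := by
      rw [← pow_succ']; congr 1; omega
    omega
  have h4 : (2 : ℝ) ^ Nat.clog 2 x ≤ 600001 * L := by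
    have : ((2 ^ Nat.clog 2 x : ℕ) : ℝ) ≤ ((2 * x : ℕ) : ℝ) := by exact_mod_cast h3
    push_cast at this
    linarith
  refine ⟨Nat.clog 2 x, ?_, h4, ?_⟩
  · have : ((x : ℕ) : ℝ) ≤ ((2 ^ Nat.clog 2 x : ℕ) : ℝ) := by exact_mod_cast h1
    push_cast at this
    linarith
  · have h5 := h4.trans (num_lin_le_two_rpow hL)
    rw [← Real.rpow_natCast] at h5
    exact (Real.rpow_le_rpow_left_iff (by norm_num : (1 : ℝ) < 2)).1 h5

/-- Poisson tail term -/
theorem tail_term {V V1 : ℝ} {k : ℕ} (hV : 1 ≤ V) (h1 : V ≤ V1) (h2 : V1 ≤ V + 1)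
    (hk : 8 * V + 1 ≤ k) : V1 ^ k / k.factorial ≤ Real.exp (-V) := by
  have he : Real.exp 1 ≤ 2.7182818286 := Real.exp_one_lt_d9.le
  have he0 : 0 < Real.exp 1 := Real.exp_pos _
  have hV1 : 0 ≤ V1 := by linarith
  have h3 : (Real.exp 1 * V1) ^ k / k.factorial ≤ Real.exp (Real.exp 1 * V1) :=
    Real.pow_div_factorial_le_exp _ (by positivity) k
  have h4 : V1 ^ k / k.factorial = (Real.exp 1 * V1) ^ k / k.factorial * Real.exp (-(k : ℝ)) := by
    rw [mul_pow, ← Real.exp_nat_mul, mul_one, Real.exp_neg]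
    field_simp
  rw [h4]
  refine (mul_le_mul_of_nonneg_right h3 (Real.exp_pos _).le).trans ?_
  rw [← Real.exp_add]
  apply Real.exp_le_exp.2
  nlinarith

theorem pow_exp_le {a b : ℝ} (ha : 0 ≤ a) {k : ℕ} (h : a ≤ Real.exp b) :
    a ^ k ≤ Real.exp (k * b) := by
  rw [Real.exp_nat_mul]
  exact pow_le_pow_left₀ ha h k


theorem c3 : (3 : ℝ) ≤ Real.exp 1.1 := by
  have h := Real.quadratic_le_exp_of_nonneg (show (0:ℝ) ≤ 0.1 by norm_num)
  have h2 : Real.exp 1.1 = Real.exp 1 * Real.exp 0.1 := by rw [← Real.exp_add]; norm_num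
  rw [h2]
  nlinarith [Real.exp_one_gt_d9]

theorem c2 : (2 : ℝ) ≤ Real.exp 0.7 := by
  refine (Real.log_le_iff_le_exp (by norm_num)).1 (by linarith [Real.log_two_lt_d9])

theorem c2' : Real.exp 0.69 ≤ 2 := by
  rw [← Real.le_log_iff_exp_le (by norm_num)]
  linarith [Real.log_two_gt_d9]

theorem c6 : (6 : ℝ) ≤ Real.exp 2 := by
  have h2 : Real.exp 2 = Real.exp 1 * Real.exp 1 := by rw [← Real.exp_add]; norm_num
  rw [h2]; nlinarith [Real.exp_one_gt_d9]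

theorem c32 : (32 : ℝ) ≤ Real.exp 4 := by
  have h2 : Real.exp 4 = Real.exp 2 * Real.exp 2 := by rw [← Real.exp_add]; norm_num
  rw [h2]; nlinarith [c6]

theorem c96 : (96 : ℝ) ≤ Real.exp 6 := by
  have h2 : Real.exp 6 = Real.exp 4 * Real.exp 2 := by rw [← Real.exp_add]; norm_num
  rw [h2]; nlinarith [c6, c32]

/-- bounds for `ρ` and `W` -/
theorem rhoW_bounds {x L : ℝ} {m : ℕ} (hL : 100 ≤ L) (hm : (m : ℝ) ≤ L) (hx : x = Real.exp L) :
    96 * (6 * x ^ 2) ^ m ≤ Real.exp (3 * L ^ 2) ∧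
    (3 * x ^ 2) ^ m * (32 * (6 * x ^ 2) ^ m) ≤ Real.exp (5 * L ^ 2) ∧
    1 ≤ (3 * x ^ 2) ^ m * (32 * (6 * x ^ 2) ^ m) := by
  have hx2 : x ^ 2 = Real.exp (2 * L) := by
    rw [hx, show (2 : ℝ) * L = ((2 : ℕ) : ℝ) * L by norm_num, Real.exp_nat_mul]
  have hx1 : 1 ≤ x ^ 2 := by rw [hx2]; exact Real.one_le_exp (by linarith)
  have f6 : (6 * x ^ 2) ^ m ≤ Real.exp (m * (2 + 2 * L)) := by
    refine pow_exp_le (by positivity) ?_
    rw [Real.exp_add, ← hx2]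
    exact mul_le_mul_of_nonneg_right c6 (by positivity)
  have f3 : (3 * x ^ 2) ^ m ≤ Real.exp (m * (2 + 2 * L)) := by
    refine (pow_le_pow_left₀ (by positivity) ?_ m).trans f6
    linarith
  have h0 : (0 : ℝ) ≤ m := Nat.cast_nonneg m
  have hmL : m * (2 + 2 * L) ≤ 2.02 * L ^ 2 := by
    have h1 : m * (2 + 2 * L) ≤ L * (2 + 2 * L) := mul_le_mul_of_nonneg_right hm (by linarith)
    have h2 : 100 * L ≤ L * L := mul_le_mul_of_nonneg_right hL (by linarith)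
    nlinarith
  have hLL : 10000 ≤ L ^ 2 := by nlinarith
  refine ⟨?_, ?_, ?_⟩
  · calc 96 * (6 * x ^ 2) ^ m ≤ Real.exp 6 * Real.exp (m * (2 + 2 * L)) := 
          mul_le_mul c96 f6 (by positivity) (Real.exp_pos _).le
      _ = Real.exp (6 + m * (2 + 2 * L)) := by rw [Real.exp_add]
      _ ≤ _ := Real.exp_le_exp.2 (by linarith)
  · calc (3 * x ^ 2) ^ m * (32 * (6 * x ^ 2) ^ m)
        ≤ Real.exp (m * (2 + 2 * L)) * (Real.exp 4 * Real.exp (m * (2 + 2 * L))) := by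
          refine mul_le_mul f3 (mul_le_mul c32 f6 (by positivity) (Real.exp_pos _).le)
            (by positivity) (Real.exp_pos _).le
      _ = Real.exp (m * (2 + 2 * L) + (4 + m * (2 + 2 * L))) := by
          rw [Real.exp_add, Real.exp_add]
      _ ≤ _ := Real.exp_le_exp.2 (by linarith)
  · have h1 : (1 : ℝ) ≤ (3 * x ^ 2) ^ m := one_le_pow₀ (by linarith)
    have h2 : (1 : ℝ) ≤ (6 * x ^ 2) ^ m := one_le_pow₀ (by linarith)
    have h3 : (1 : ℝ) ≤ 32 * (6 * x ^ 2) ^ m := by linarith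
    calc (1 : ℝ) = 1 * 1 := (one_mul 1).symm
      _ ≤ _ := mul_le_mul h1 h3 (by norm_num) (by linarith)

/-- bound for `piBd` -/
theorem piBd_bound {N m l p : ℕ} {L V ρ : ℝ} (hL : 100 ≤ L) (hN : 9000000 * L ^ 2 ≤ N)
    (hV : V = N / 20000) (hl2 : (l : ℝ) ≤ N / 5000 + 1) (hp0 : 0 < (p : ℝ))
    (e1 : (p : ℝ) ≤ Real.exp (21 * L)) (hρ0 : 0 ≤ ρ) (hρu : ρ ≤ Real.exp (3 * L ^ 2))
    (hx : ((N + m : ℕ) : ℝ) = Real.exp L) :
    piBd p N m l ρ ≤ 3 * Real.exp (-(3 * V) - 4) := by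
  have hLL : 10000 ≤ L ^ 2 := by nlinarith
  have hNbig : (90000000000 : ℝ) ≤ N := by linarith
  have h4l : ((4 * l : ℕ) : ℝ) ≤ N / 1250 + 4 := by push_cast; linarith
  have h4l0 : (0 : ℝ) ≤ ((4 * l : ℕ) : ℝ) := Nat.cast_nonneg _
  have g3 : (3 : ℝ) ^ (4 * l) ≤ Real.exp (1.1 * (N / 1250 + 4)) := by
    refine (pow_exp_le (by norm_num) c3).trans (Real.exp_le_exp.2 ?_)
    linarith
  have g2 : (2 : ℝ) ^ (2 * (4 * l) + 2) ≤ Real.exp (0.7 * (2 * (N / 1250 + 4) + 2)) := by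
    refine (pow_exp_le (by norm_num) c2).trans (Real.exp_le_exp.2 ?_)
    rw [Nat.cast_add, Nat.cast_mul 2 (4 * l)]
    push_cast at h4l ⊢
    linarith
  have gN : (998 / 1000 : ℝ) ^ N ≤ Real.exp (-(0.002 * N)) := by
    refine (pow_exp_le (b := -0.002) (by norm_num) ?_).trans (Real.exp_le_exp.2 (by linarith))
    have := Real.add_one_le_exp (-0.002 : ℝ)
    linarith
  have g2N : 1 / (2 : ℝ) ^ N ≤ Real.exp (-(0.69 * N)) := by
    rw [Real.exp_neg, one_div]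
    apply inv_anti₀ (Real.exp_pos _)
    calc Real.exp (0.69 * N) = Real.exp 0.69 ^ N := by rw [← Real.exp_nat_mul]; ring_nf
      _ ≤ 2 ^ N := pow_le_pow_left₀ (Real.exp_pos _).le c2' N
  have gp : (p : ℝ) ^ (4 * l) ≤ Real.exp (21 * L * (N / 1250 + 4)) := by
    refine (pow_exp_le hp0.le e1).trans (Real.exp_le_exp.2 ?_)
    rw [mul_comm]
    exact mul_le_mul_of_nonneg_left h4l (by linarith)
  have gn : 1 / (((N + m) ^ 2 : ℕ) : ℝ) ^ N = Real.exp (-(2 * L * N)) := by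
    rw [Nat.cast_pow, hx, ← Real.exp_nat_mul, ← Real.exp_nat_mul, one_div, ← Real.exp_neg]
    congr 1
    push_cast
    ring
  have hLN : 100 * (N : ℝ) ≤ L * N := mul_le_mul_of_nonneg_right hL (by positivity)
  have hLlin : 100 * L ≤ L ^ 2 := by nlinarith
  have t1 : 3 ^ (4 * l) * (998 / 1000) ^ N * ρ ^ 2 ≤ Real.exp (-(3 * V) - 4) := by
    calc 3 ^ (4 * l) * (998 / 1000) ^ N * ρ ^ 2
        ≤ Real.exp (1.1 * (N / 1250 + 4)) * Real.exp (-(0.002 * N)) *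
          Real.exp (3 * L ^ 2) ^ 2 := by gcongr
      _ = Real.exp (1.1 * (N / 1250 + 4) + -(0.002 * N) + (3 * L ^ 2 + 3 * L ^ 2)) := by
          rw [Real.exp_add, Real.exp_add, Real.exp_add, sq]
      _ ≤ _ := Real.exp_le_exp.2 (by rw [hV]; linarith)
  have t2 : ρ * 3 ^ (4 * l) * 2 ^ (2 * (4 * l) + 2) / 2 ^ N ≤ Real.exp (-(3 * V) - 4) := by
    rw [div_eq_mul_one_div]
    calc ρ * 3 ^ (4 * l) * 2 ^ (2 * (4 * l) + 2) * (1 / 2 ^ N)
        ≤ Real.exp (3 * L ^ 2) * Real.exp (1.1 * (N / 1250 + 4)) *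
          Real.exp (0.7 * (2 * (N / 1250 + 4) + 2)) * Real.exp (-(0.69 * N)) := by gcongr
      _ = Real.exp (3 * L ^ 2 + 1.1 * (N / 1250 + 4) + 0.7 * (2 * (N / 1250 + 4) + 2)
            + -(0.69 * N)) := by
          rw [Real.exp_add, Real.exp_add, Real.exp_add]
      _ ≤ _ := Real.exp_le_exp.2 (by rw [hV]; linarith)
  have t3 : ρ * (p : ℝ) ^ (4 * l) / (((N + m) ^ 2 : ℕ) : ℝ) ^ N ≤ Real.exp (-(3 * V) - 4) := by
    rw [div_eq_mul_one_div, gn]
    calc ρ * (p : ℝ) ^ (4 * l) * Real.exp (-(2 * L * N))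
        ≤ Real.exp (3 * L ^ 2) * Real.exp (21 * L * (N / 1250 + 4)) *
          Real.exp (-(2 * L * N)) := by gcongr
      _ = Real.exp (3 * L ^ 2 + 21 * L * (N / 1250 + 4) + -(2 * L * N)) := by
          rw [Real.exp_add, Real.exp_add]
      _ ≤ _ := Real.exp_le_exp.2 (by
          rw [hV]
          have e : 21 * L * ((N : ℝ) / 1250 + 4) = 21 / 1250 * (L * N) + 84 * L := by ring
          rw [e]
          linarith)
  unfold piBd
  linarith

/-- the scale is at least `2 n^5` -/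
theorem M_lower {n N d : ℕ} {p V τ M : ℝ} (hn4 : (4 : ℝ) ≤ n) (hN : 20 ≤ N) (hd : d = N / 3)
    (hp : (n : ℝ) ^ 20 ≤ p) (hV1 : 1 ≤ V) (hτ0 : 0 < τ) (hτ2 : τ ≤ 2 ^ N) (hM0 : 0 < M)
    (hMN : M ^ N * τ = V * p ^ d) : 2 * (n : ℝ) ^ 5 ≤ M := by
  have hn1 : (1 : ℝ) ≤ n := by linarith
  by_contra hlt
  push Not at hlt
  have h1 : M ^ N * τ < (2 * (n : ℝ) ^ 5) ^ N * 2 ^ N := by
    have : M ^ N < (2 * (n : ℝ) ^ 5) ^ N := pow_lt_pow_left₀ hlt hM0.le (by omega)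
    calc M ^ N * τ < (2 * (n : ℝ) ^ 5) ^ N * τ := mul_lt_mul_of_pos_right this hτ0
      _ ≤ _ := mul_le_mul_of_nonneg_left hτ2 (by positivity)
  have h2 : (2 * (n : ℝ) ^ 5) ^ N * 2 ^ N ≤ (n : ℝ) ^ (6 * N) := by
    rw [← mul_pow, pow_mul]
    refine pow_le_pow_left₀ (by positivity) ?_ N
    calc 2 * (n : ℝ) ^ 5 * 2 = 4 * (n : ℝ) ^ 5 := by ring
      _ ≤ (n : ℝ) * (n : ℝ) ^ 5 := mul_le_mul_of_nonneg_right hn4 (by positivity)
      _ = (n : ℝ) ^ 6 := by ring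
  have hp0 : 0 ≤ p := le_trans (by positivity) hp
  have h3 : (n : ℝ) ^ (6 * N) ≤ V * p ^ d := by
    calc (n : ℝ) ^ (6 * N) ≤ (n : ℝ) ^ (20 * d) := pow_le_pow_right₀ hn1 (by omega)
      _ = ((n : ℝ) ^ 20) ^ d := by rw [pow_mul]
      _ ≤ p ^ d := pow_le_pow_left₀ (by positivity) hp d
      _ = 1 * p ^ d := (one_mul _).symm
      _ ≤ V * p ^ d := mul_le_mul_of_nonneg_right hV1 (by positivity)
  linarith

/-- the scale is at most `n^9` -/
theorem M_upper {n N m d : ℕ} {p V τ M : ℝ} (hn8 : (9 : ℝ) ≤ n) (hN : 4 * m + 20 ≤ N)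
    (hNm : N + m = n) (hd : d = N / 3)
    (hp0 : 0 ≤ p) (hpl : (n : ℝ) ^ 20 ≤ p) (hp : p ≤ 2 * (n : ℝ) ^ 20) (hVn : V ≤ n)
    (hτ1 : 1 / (8 * 6 ^ m * (n : ℝ) ^ (N + m)) ≤ τ) (hM0 : 0 < M)
    (hMN : M ^ N * τ = V * p ^ d) : 16 * (M + 1) ^ 2 < p := by
  have hn4 : (4 : ℝ) ≤ n := by linarith
  have hn1 : (1 : ℝ) ≤ n := by linarith
  have hn0 : (0 : ℝ) < n := by linarith
  have hτ0 : 0 < τ := lt_of_lt_of_le (by positivity) hτ1
  have hM9 : M ≤ (n : ℝ) ^ 9 := by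
    by_contra hlt
    push Not at hlt
    have h1 : ((n : ℝ) ^ 9) ^ N * (1 / (8 * 6 ^ m * (n : ℝ) ^ (N + m))) < M ^ N * τ := by
      have : ((n : ℝ) ^ 9) ^ N < M ^ N := pow_lt_pow_left₀ hlt (by positivity) (by omega)
      calc ((n : ℝ) ^ 9) ^ N * (1 / (8 * 6 ^ m * (n : ℝ) ^ (N + m)))
          ≤ ((n : ℝ) ^ 9) ^ N * τ := mul_le_mul_of_nonneg_left hτ1 (by positivity)
        _ < _ := mul_lt_mul_of_pos_right this hτ0
    have hpd : p ^ d ≤ 2 ^ N * (n : ℝ) ^ (7 * N) := by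
      calc p ^ d ≤ (2 * (n : ℝ) ^ 20) ^ d := pow_le_pow_left₀ hp0 hp d
        _ = 2 ^ d * (n : ℝ) ^ (20 * d) := by rw [mul_pow, ← pow_mul]
        _ ≤ 2 ^ N * (n : ℝ) ^ (7 * N) := by
            apply mul_le_mul (pow_le_pow_right₀ (by norm_num) (by omega))
              (pow_le_pow_right₀ hn1 (by omega)) (by positivity) (by positivity)
    have h2N : (2 : ℝ) ^ N ≤ (n : ℝ) ^ (N / 2 + 1) := by
      calc (2 : ℝ) ^ N ≤ 2 ^ (2 * (N / 2) + 1) := pow_le_pow_right₀ (by norm_num) (by omega)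
        _ = 4 ^ (N / 2) * 2 := by rw [pow_succ, pow_mul]; norm_num
        _ ≤ (n : ℝ) ^ (N / 2) * n := by
            apply mul_le_mul (pow_le_pow_left₀ (by norm_num) hn4 _) (by linarith)
              (by norm_num) (by positivity)
        _ = _ := by rw [pow_succ]
    have h6 : (6 : ℝ) ^ m ≤ (n : ℝ) ^ m := pow_le_pow_left₀ (by norm_num) (by linarith) m
    have h9 : p ^ d ≤ (n : ℝ) ^ (N / 2 + 1) * (n : ℝ) ^ (7 * N) :=
      hpd.trans (mul_le_mul_of_nonneg_right h2N (by positivity))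
    have h2 : V * p ^ d * (8 * 6 ^ m * (n : ℝ) ^ (N + m)) ≤ ((n : ℝ) ^ 9) ^ N := by
      calc V * p ^ d * (8 * 6 ^ m * (n : ℝ) ^ (N + m))
          ≤ n * ((n : ℝ) ^ (N / 2 + 1) * (n : ℝ) ^ (7 * N)) *
            (n * (n : ℝ) ^ m * (n : ℝ) ^ (N + m)) := by
            refine mul_le_mul (mul_le_mul hVn h9 (by positivity) (by positivity)) ?_
              (by positivity) (by positivity)
            refine mul_le_mul_of_nonneg_right ?_ (by positivity)
            exact mul_le_mul (by linarith) h6 (by positivity) (by positivity)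
        _ = (n : ℝ) ^ (1 + (N / 2 + 1) + 7 * N + 1 + m + (N + m)) := by
            generalize N / 2 = k
            simp only [pow_add, pow_one]
            ring
        _ ≤ (n : ℝ) ^ (9 * N) := pow_le_pow_right₀ hn1 (by omega)
        _ = _ := by rw [pow_mul]
    rw [mul_one_div, div_lt_iff₀ (by positivity), hMN] at h1
    linarith
  have hn9 : (1 : ℝ) ≤ (n : ℝ) ^ 9 := one_le_pow₀ hn1
  calc 16 * (M + 1) ^ 2 ≤ 16 * (2 * (n : ℝ) ^ 9) ^ 2 := by
        refine mul_le_mul_of_nonneg_left (pow_le_pow_left₀ (by linarith) (by linarith) 2)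
          (by norm_num)
    _ = 64 * (n : ℝ) ^ 18 := by ring
    _ < n ^ 2 * (n : ℝ) ^ 18 := by
        apply mul_lt_mul_of_pos_right _ (by positivity)
        nlinarith
    _ = (n : ℝ) ^ 20 := by ring
    _ ≤ p := hpl

/-- the final smallness condition -/
theorem fin_bound {N m d p : ℕ} {L V W : ℝ} (hL : 100 ≤ L) (hN : 9000000 * L ^ 2 ≤ N)
    (hV : V = N / 20000) (hW1 : 1 ≤ W) (hWu : W ≤ Real.exp (5 * L ^ 2)) (hp0 : 0 < (p : ℝ))
    (e1 : (p : ℝ) ≤ Real.exp (21 * L)) (hd1 : (d : ℝ) ≤ N / 3) (hm1 : 300000 * L ≤ (2 : ℝ) ^ m) :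
    W * (3 * Real.exp (-V)) < 1 / 2 ∧
    (W * (W * (3 * Real.exp (-V)))) ^ 2 ^ m * (p : ℝ) ^ d < W := by
  have hLL : 10000 ≤ L ^ 2 := by nlinarith
  have hNbig : (90000000000 : ℝ) ≤ N := by linarith
  have hV0 : 0 ≤ V := by rw [hV]; positivity
  have hδW : W * (3 * Real.exp (-V)) ≤ Real.exp (5 * L ^ 2 + 1.1 - V) := by
    calc W * (3 * Real.exp (-V)) ≤ Real.exp (5 * L ^ 2) * (Real.exp 1.1 * Real.exp (-V)) :=
          mul_le_mul hWu (mul_le_mul_of_nonneg_right c3 (Real.exp_pos _).le)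
            (by positivity) (Real.exp_pos _).le
      _ = Real.exp (5 * L ^ 2 + 1.1 - V) := by
          rw [← Real.exp_add, ← Real.exp_add]; ring_nf
  constructor
  · refine lt_of_le_of_lt hδW ?_
    calc Real.exp (5 * L ^ 2 + 1.1 - V) ≤ Real.exp (-1) :=
          Real.exp_le_exp.2 (by rw [hV]; linarith)
      _ < 1 / 2 := by
          rw [Real.exp_neg, inv_lt_comm₀ (Real.exp_pos _) (by norm_num)]
          norm_num
          linarith [Real.exp_one_gt_d9]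
  · have h1 : W * (W * (3 * Real.exp (-V))) ≤ Real.exp (-(V / 2)) := by
      calc W * (W * (3 * Real.exp (-V))) ≤ Real.exp (5 * L ^ 2) * Real.exp (5 * L ^ 2 + 1.1 - V) :=
            mul_le_mul hWu hδW (by positivity) (Real.exp_pos _).le
        _ = Real.exp (5 * L ^ 2 + (5 * L ^ 2 + 1.1 - V)) := by rw [← Real.exp_add]
        _ ≤ _ := Real.exp_le_exp.2 (by rw [hV]; linarith)
    have h2 : (W * (W * (3 * Real.exp (-V)))) ^ 2 ^ m ≤ Real.exp (-(7.5 * N * L)) := by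
      refine (pow_exp_le (by positivity) h1).trans (Real.exp_le_exp.2 ?_)
      push_cast
      have h5 : (0 : ℝ) ≤ V / 2 := by linarith
      have h3 : 300000 * L * (V / 2) ≤ 2 ^ m * (V / 2) := mul_le_mul_of_nonneg_right hm1 h5
      have h4 : 300000 * L * (V / 2) = 7.5 * N * L := by rw [hV]; ring
      linarith
    have h3 : (p : ℝ) ^ d ≤ Real.exp (7 * N * L) := by
      refine (pow_exp_le hp0.le e1).trans (Real.exp_le_exp.2 ?_)
      calc (d : ℝ) * (21 * L) ≤ (N / 3) * (21 * L) :=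
            mul_le_mul_of_nonneg_right hd1 (by linarith)
        _ = 7 * N * L := by ring
    calc (W * (W * (3 * Real.exp (-V)))) ^ 2 ^ m * (p : ℝ) ^ d
        ≤ Real.exp (-(7.5 * N * L)) * Real.exp (7 * N * L) :=
          mul_le_mul h2 h3 (by positivity) (Real.exp_pos _).le
      _ = Real.exp (-(7.5 * N * L) + 7 * N * L) := by rw [Real.exp_add]
      _ < 1 := by
          rw [Real.exp_lt_one_iff]
          have : 0 < (N : ℝ) * L := by positivity
          linarith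
      _ ≤ W := hW1

/-- the failure probability -/
theorem delta_bound {N m l p : ℕ} {V V' ρ : ℝ} (hV1 : 1 ≤ V) (h1 : V ≤ V') (h2 : V' ≤ V + 1)
    (hl1 : 4 * V ≤ l) (hpi : piBd p N m l ρ ≤ 3 * Real.exp (-(3 * V) - 4))
    (hρ0 : 0 ≤ ρ) :
    Real.exp (-V') + V' ^ (2 * l + 1) / (2 * l + 1).factorial
      + 2 * Real.exp (2 * V') * piBd p N m l ρ ≤ 3 * Real.exp (-V) := by
  have a1 : Real.exp (-V') ≤ Real.exp (-V) := Real.exp_le_exp.2 (by linarith)
  have a2 : V' ^ (2 * l + 1) / (2 * l + 1).factorial ≤ Real.exp (-V) := by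
    refine tail_term hV1 h1 h2 ?_
    push_cast; linarith
  have a3 : 2 * Real.exp (2 * V') * piBd p N m l ρ ≤ Real.exp (-V) := by
    calc 2 * Real.exp (2 * V') * piBd p N m l ρ
        ≤ 2 * Real.exp (2 * V + 2) * (3 * Real.exp (-(3 * V) - 4)) := by
          apply mul_le_mul _ hpi (by unfold piBd; positivity) (by positivity)
          have : Real.exp (2 * V') ≤ Real.exp (2 * V + 2) := Real.exp_le_exp.2 (by linarith)
          linarith
      _ = 6 * Real.exp (-V - 2) := by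
          have : Real.exp (-V - 2) = Real.exp (2 * V + 2) * Real.exp (-(3 * V) - 4) := by
            rw [← Real.exp_add]; ring_nf
          rw [this]; ring
      _ ≤ Real.exp 2 * Real.exp (-V - 2) := mul_le_mul_of_nonneg_right c6 (Real.exp_pos _).le
      _ = Real.exp (-V) := by rw [← Real.exp_add]; ring_nf
  linarith

/-- The choice of parameters. -/
theorem params_exist {n : ℕ} (hn : 1 ≤ n) (hL : 100 ≤ Real.log n)
    (hL2 : 10000000 * (Real.log n) ^ 2 ≤ n) :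
    ∃ (N m d l p : ℕ) (V δ ρ W : ℝ), N + m = n ∧ Params N m d l p V δ ρ W ∧
      (2 : ℝ) ^ m ≤ 600001 * Real.log n ∧ V ≤ n := by
  set L : ℝ := Real.log n with hLdef
  obtain ⟨m, hm1, hm2, hm3⟩ := m_exists hL
  have hn0 : (0 : ℝ) < n := by exact_mod_cast hn
  have hnexp : Real.exp L = n := Real.exp_log hn0
  have hL0 : 0 < L := by linarith
  have hLL : 10000 ≤ L ^ 2 := by nlinarith
  have hLlin : 100 * L ≤ L ^ 2 := by nlinarith
  have hnbig : (100000000000 : ℝ) ≤ n := by linarith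
  have hmn : m ≤ n := by
    have : (m : ℝ) ≤ n := by linarith
    exact_mod_cast this
  obtain ⟨N, hNm⟩ : ∃ N, N + m = n := ⟨n - m, by omega⟩
  have hNmR : (N : ℝ) + m = n := by exact_mod_cast hNm
  have hNlow : 9000000 * L ^ 2 ≤ N := by linarith
  have hm0 : (0 : ℝ) ≤ m := Nat.cast_nonneg m
  have hNle : (N : ℝ) ≤ n := by linarith
  have hNbig : (90000000000 : ℝ) ≤ N := by linarith
  have hNbigN : 90000000000 ≤ N := by exact_mod_cast hNbig
  have h4m : 4 * m + 20 ≤ N := by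
    have : (4 * m + 20 : ℝ) ≤ N := by linarith
    exact_mod_cast this
  obtain ⟨p, hp, hpl, hpu⟩ := Nat.exists_prime_lt_and_le_two_mul (n ^ 20) (by positivity)
  have hplR : (n : ℝ) ^ 20 ≤ p := by exact_mod_cast hpl.le
  have hpuR : (p : ℝ) ≤ 2 * (n : ℝ) ^ 20 := by exact_mod_cast hpu
  have hp0 : (0 : ℝ) < p := by exact_mod_cast hp.pos
  have hl1 : 4 * ((N : ℝ) / 20000) ≤ ((N / 5000 + 1 : ℕ) : ℝ) := by
    have : (N : ℝ) < 5000 * ((N / 5000 : ℕ) : ℝ) + 5000 := by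
      exact_mod_cast (by omega : N < 5000 * (N / 5000) + 5000)
    push_cast at this ⊢; linarith
  have hl2 : ((N / 5000 + 1 : ℕ) : ℝ) ≤ N / 5000 + 1 := by
    have : 5000 * ((N / 5000 : ℕ) : ℝ) ≤ N := by
      exact_mod_cast (by omega : 5000 * (N / 5000) ≤ N)
    push_cast at this ⊢; linarith
  have hd1 : ((N / 3 : ℕ) : ℝ) ≤ N / 3 := by
    have : 3 * ((N / 3 : ℕ) : ℝ) ≤ N := by
      exact_mod_cast (by omega : 3 * (N / 3) ≤ N)
    linarith
  have e1 : (p : ℝ) ≤ Real.exp (21 * L) := by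
    have h1 : Real.exp (21 * L) = n ^ 21 := by
      rw [show (21 : ℝ) * L = ((21 : ℕ) : ℝ) * L by norm_num, Real.exp_nat_mul, hnexp]
    rw [h1]
    refine hpuR.trans ?_
    have : (n : ℝ) ^ 21 = n * n ^ 20 := by ring
    rw [this]
    exact mul_le_mul_of_nonneg_right (by linarith) (by positivity)
  obtain ⟨hρu, hWu, hW1⟩ := rhoW_bounds (x := (N : ℝ) + m) hL hm3 (by rw [hNmR, hnexp])
  have hρ0 : 0 ≤ 96 * (6 * ((N : ℝ) + m) ^ 2) ^ m := by positivity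
  have hpi := piBd_bound (m := m) (p := p) hL hNlow rfl hl2 hp0 e1 hρ0 hρu
    (by rw [hNm, hnexp])
  have hV1 : 1 ≤ (N : ℝ) / 20000 := by linarith
  obtain ⟨hf1, hf2⟩ := fin_bound (m := m) hL hNlow rfl hW1 hWu hp0 e1 hd1 hm1
  refine ⟨N, m, N / 3, N / 5000 + 1, p, (N : ℝ) / 20000, 3 * Real.exp (-((N : ℝ) / 20000)),
    96 * (6 * ((N : ℝ) + m) ^ 2) ^ m,
    (3 * ((N : ℝ) + m) ^ 2) ^ m * (32 * (6 * ((N : ℝ) + m) ^ 2) ^ m),
    hNm, ?_, hm2, by linarith⟩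
  exact
    { hN := by omega
      hn := by omega
      prime := hp
      hV := hV1
      hρ := rfl
      hW := rfl
      hM1 := by
        intro τ hτ1 hτ2 M hM0 hMN
        rw [hNmR] at hτ1 ⊢
        have hτ0 : 0 < τ := lt_of_lt_of_le (by positivity) hτ1
        exact ⟨M_lower (by linarith) (by omega) rfl hplR hV1 hτ0 hτ2 hM0 hMN,
          M_upper (by linarith) h4m hNm rfl hp0.le hplR hpuR (by linarith) hτ1 hM0
            hMN⟩
      hr := by
        have : n ^ 1 ≤ n ^ 20 := Nat.pow_le_pow_right (by omega) (by norm_num)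
        rw [pow_one] at this
        omega
      hlN := by omega
      hδ := fun V' h1 h2 => delta_bound hV1 h1 h2 hl1 hpi hρ0
      hWδ := hf1
      hfin := hf2 }

end Vale.Agent.P230
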